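import Mathlib

set_option autoImplicit false

namespace Vale.Agent.P072

/-- Chain lemma (a form of Cousin's lemma): for every gauge `δ` on `[φ, ∞)` and every `g` there is a
finite set `V` of tags in `(φ, g]` such that every `v ∈ V ∪ {φ}` either reaches `g`
(`g ≤ v + δ v`) or has a later tag `v' ∈ V` whose interval overlaps that of `v`. -/
theorem exists_chain (φ g : ℝ) (δ : ℝ → ℝ) (hδ : ∀ v, φ ≤ v → 0 < δ v) :
    ∃ V : Finset ℝ, (∀ v ∈ V, φ < v ∧ v ≤ g) ∧
      ∀ v ∈ insert φ V, g ≤ v + δ v ∨ ∃ v' ∈ V, v < v' ∧ v' - δ v' < v + δ v := by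
  classical
  let r : ℝ → ℝ → Prop := fun v v' => v < v' ∧ v' ≤ g ∧ v' - δ v' < v + δ v
  -- chain extraction
  have extract : ∀ v z : ℝ, Relation.ReflTransGen r v z → g ≤ z + δ z →
      ∃ V : Finset ℝ, (∀ u ∈ V, v < u ∧ u ≤ g) ∧
        ∀ u ∈ insert v V, g ≤ u + δ u ∨ ∃ u' ∈ V, u < u' ∧ u' - δ u' < u + δ u := by
    intro v z h hz
    induction h using Relation.ReflTransGen.head_induction_on with
    | refl =>
      refine ⟨∅, by simp, ?_⟩
      intro u hu
      have : u = z := by simpa using hu
      subst this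
      exact Or.inl hz
    | @head a c hac _ ih =>
      obtain ⟨V, hV1, hV2⟩ := ih
      refine ⟨insert c V, ?_, ?_⟩
      · intro u hu
        rcases Finset.mem_insert.mp hu with rfl | hu
        · exact ⟨hac.1, hac.2.1⟩
        · exact ⟨lt_trans hac.1 (hV1 u hu).1, (hV1 u hu).2⟩
      · intro u hu
        rcases Finset.mem_insert.mp hu with rfl | hu
        · exact Or.inr ⟨c, Finset.mem_insert_self _ _, hac.1, hac.2.2⟩
        · rcases hV2 u hu with h | ⟨u', hu', h⟩
          · exact Or.inl h
          · exact Or.inr ⟨u', Finset.mem_insert_of_mem hu', h⟩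
  by_contra hcon
  have hno : ∀ z, Relation.ReflTransGen r φ z → z + δ z < g := by
    intro z hz
    by_contra h
    exact hcon (extract φ z hz (not_lt.mp h))
  let S : Set ℝ := {z | Relation.ReflTransGen r φ z}
  have hφS : φ ∈ S := Relation.ReflTransGen.refl
  have hlow : ∀ z ∈ S, φ ≤ z := by
    intro z hz
    change Relation.ReflTransGen r φ z at hz
    induction hz with
    | refl => exact le_rfl
    | tail _ h2 ih => exact le_trans ih h2.1.le
  have hbdd : BddAbove S := ⟨g, fun z hz => by
    have h1 := hno z hz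
    have h2 := hδ z (hlow z hz)
    linarith⟩
  have hne : S.Nonempty := ⟨φ, hφS⟩
  set s := sSup S with hs
  have hφs : φ ≤ s := le_csSup hbdd hφS
  have hsg : s ≤ g := csSup_le hne (fun z hz => by
    have h1 := hno z hz
    have h2 := hδ z (hlow z hz)
    linarith)
  have hδs := hδ s hφs
  obtain ⟨v, hvS, hv⟩ := exists_lt_of_lt_csSup hne (show s - δ s < sSup S by linarith)
  have hvs : v ≤ s := le_csSup hbdd hvS
  have hsS : s ∈ S := by
    rcases hvs.eq_or_lt with h | h
    · rw [← h]; exact hvS
    · exact Relation.ReflTransGen.tail hvS ⟨h, hsg, by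
        have := hδ v (hlow v hvS)
        linarith⟩
  have h1 := hno s hsS
  have h2 : s + δ s ∈ S := Relation.ReflTransGen.tail hsS ⟨by linarith, h1.le, by
    have := hδ (s + δ s) (by linarith)
    linarith⟩
  have h3 := le_csSup hbdd h2
  linarith

end Vale.Agent.P072
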