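import Vale.Agent.P072.Strong

set_option autoImplicit false

namespace Vale.Agent.P072

open MeasureTheory Filter Set

open scoped Topology

variable {d : ℕ}

theorem massAction_continuous (G : ReactionNetwork d) (k : (Fin d → ℕ) × (Fin d → ℕ) → ℝ) :
    Continuous (G.massAction k) := by
  have h : G.massAction k = fun x => ∑ r ∈ G.reactions, (k r * mon r.1 x) • reactionVector r := by
    funext x
    exact massAction_eq G k x
  rw [h]
  apply continuous_finsetSum
  intro r _
  exact (continuous_const.mul (mon_continuous r.1)).smul continuous_const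

/-- classical solutions are Carathéodory solutions -/
theorem classical_to_cara {G : ReactionNetwork d} {k : (Fin d → ℕ) × (Fin d → ℕ) → ℝ}
    {T : Set ℝ} (hT : ∀ t ∈ T, 0 ≤ t ∧ Icc 0 t ⊆ T) {y : ℝ → Fin d → ℝ}
    (hy : G.IsSolutionOn k T y) : G.IsCaratheodorySolutionOn (fun _ => k) T y := by
  have hc : ContinuousOn y T := fun t ht => (hy t ht).continuousWithinAt
  refine ⟨hc, fun t ht => ?_⟩
  obtain ⟨ht0, hsub⟩ := hT t ht
  have hci : ContinuousOn y (Icc 0 t) := hc.mono hsub
  have h1 : ∫ s in (0 : ℝ)..t, G.massAction k (y s) = y t - y 0 := by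
    apply intervalIntegral.integral_eq_sub_of_hasDerivAt_of_le ht0 hci
    · intro s hs
      have hsT : s ∈ T := hsub (Ioo_subset_Icc_self hs)
      apply (hy s hsT).hasDerivAt
      exact mem_of_superset (Ioo_mem_nhds hs.1 hs.2) (Ioo_subset_Icc_self.trans hsub)
    · apply ContinuousOn.intervalIntegrable
      rw [uIcc_of_le ht0]
      exact (massAction_continuous G k).comp_continuousOn hci
  rw [h1]
  abel

/-- Carathéodory solutions for constant rates are classical solutions -/
theorem cara_to_classical {G : ReactionNetwork d} {k : (Fin d → ℕ) × (Fin d → ℕ) → ℝ}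
    {x : ℝ → Fin d → ℝ} (hx : G.IsCaratheodorySolutionOn (fun _ => k) (Ici 0) x) :
    G.IsSolutionOn k (Ici 0) x := by
  intro t ht
  have hxm : Continuous (fun s => x (max s 0)) := by
    apply hx.1.comp_continuous (continuous_id.max continuous_const)
    intro s
    exact le_max_right s 0
  have hg : Continuous (fun s => G.massAction k (x (max s 0))) :=
    (massAction_continuous G k).comp hxm
  have h1 : HasDerivAt (fun u => ∫ s in (0 : ℝ)..u, G.massAction k (x (max s 0)))
      (G.massAction k (x (max t 0))) t :=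
    intervalIntegral.integral_hasDerivAt_right (hg.intervalIntegrable _ _)
      (hg.stronglyMeasurableAtFilter _ _) hg.continuousAt
  have h2 : HasDerivAt (fun u => x 0 + ∫ s in (0 : ℝ)..u, G.massAction k (x (max s 0)))
      (G.massAction k (x (max t 0))) t := by
    have := h1.const_add (x 0)
    exact this
  have ht0 : (0 : ℝ) ≤ t := ht
  rw [max_eq_left ht0] at h2
  apply (h2.hasDerivWithinAt (s := Ici 0)).congr
  · intro u hu
    have hu0 : (0 : ℝ) ≤ u := hu
    rw [hx.2 u hu]
    congr 1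
    apply intervalIntegral.integral_congr
    intro s hs
    rw [uIcc_of_le hu0] at hs
    simp only
    rw [max_eq_left hs.1]
  · rw [hx.2 t ht]
    congr 1
    apply intervalIntegral.integral_congr
    intro s hs
    rw [uIcc_of_le ht0] at hs
    simp only
    rw [max_eq_left hs.1]

/-- The permanence theorem for constant rates. -/
theorem permanent {G : ReactionNetwork d} (hd : 0 < d) (hG : G.WeaklyReversible)
    {k : (Fin d → ℕ) × (Fin d → ℕ) → ℝ} (hk : ∀ r ∈ G.reactions, 0 < k r)
    {c : Fin d → ℝ} (hc : ∀ i, 0 < c i) : G.Permanent k c := by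
  obtain ⟨ε, hε, hεk⟩ := finite_pos (Finset.finite_toSet G.reactions)
    (fun (r : (Fin d → ℕ) × (Fin d → ℕ)) ε => ε ≤ k r ∧ k r ≤ ε⁻¹)
    (fun r ε ε' hε' hle h => ⟨le_trans hle h.1, le_trans h.2 (inv_anti₀ hε' hle)⟩)
    (fun r hr => by
      have hkr := hk r hr
      refine ⟨min (k r) (k r)⁻¹, by positivity, min_le_left _ _, ?_⟩
      have h1 : ((k r)⁻¹)⁻¹ ≤ (min (k r) (k r)⁻¹)⁻¹ :=
        inv_anti₀ (by positivity) (min_le_right _ _)
      rwa [inv_inv] at h1)
  obtain ⟨K, hKc, hKP, hK⟩ := strongly_permanent hd hG hε hc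
  have hadm : G.AdmissibleRates ε (fun _ => k) := fun r hr =>
    ⟨measurable_const, fun _ _ => hεk r hr⟩
  obtain ⟨hex, hatt⟩ := hK _ hadm
  have hTI : ∀ t ∈ Ici (0 : ℝ), 0 ≤ t ∧ Icc 0 t ⊆ Ici (0 : ℝ) :=
    fun t ht => ⟨ht, fun s hs => hs.1⟩
  constructor
  · intro x₀ hx₀
    obtain ⟨x, hx0, hx, hxP, hxu⟩ := hex x₀ hx₀
    refine ⟨x, hx0, cara_to_classical hx, hxP, ?_⟩
    intro b y hy0 hy
    have hTb : ∀ t ∈ Ico (0 : ℝ) b, 0 ≤ t ∧ Icc 0 t ⊆ Ico (0 : ℝ) b :=
      fun t ht => ⟨ht.1, fun s hs => ⟨hs.1, lt_of_le_of_lt hs.2 ht.2⟩⟩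
    exact hxu b y hy0 (classical_to_cara hTb hy)
  · refine ⟨K, hKc, hKP, ?_⟩
    intro x hx0 hx
    exact hatt x hx0 (classical_to_cara hTI hx)

end Vale.Agent.P072
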