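import Mathlib

set_option autoImplicit false

namespace Vale.Agent.P072

/-- A finite reaction network on `d` species: a finite set of complexes `y ∈ ℤ_{≥0}^d` and a set
of reactions `y → y'` between distinct complexes, written as pairs `(y, y')`. -/
structure ReactionNetwork (d : ℕ) where
  complexes : Finset (Fin d → ℕ)
  reactions : Finset ((Fin d → ℕ) × (Fin d → ℕ))
  source_mem : ∀ r ∈ reactions, r.1 ∈ complexes
  target_mem : ∀ r ∈ reactions, r.2 ∈ complexes
  ne : ∀ r ∈ reactions, r.1 ≠ r.2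

/-- The reaction vector `y' - y ∈ ℝ^d` of the reaction `(y, y')`. -/
def reactionVector {d : ℕ} (r : (Fin d → ℕ) × (Fin d → ℕ)) : Fin d → ℝ :=
  fun i => (r.2 i : ℝ) - (r.1 i : ℝ)

namespace ReactionNetwork

variable {d : ℕ} (G : ReactionNetwork d)

/-- Weak reversibility: for every reaction `y → y'` there is a directed path from `y'` to `y`. -/
def WeaklyReversible : Prop :=
  ∀ r ∈ G.reactions, Relation.ReflTransGen (fun y y' => (y, y') ∈ G.reactions) r.2 r.1

/-- The mass-action vector field
`f(x) = ∑_{y → y'} k_{y → y'} x^y (y' - y)` with rate constants `k`. -/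
def massAction (k : (Fin d → ℕ) × (Fin d → ℕ) → ℝ) (x : Fin d → ℝ) : Fin d → ℝ :=
  ∑ r ∈ G.reactions, (k r * ∏ i, x i ^ r.1 i) • reactionVector r

/-- The stoichiometric subspace, spanned by the reaction vectors. -/
def stoichiometricSubspace : Submodule ℝ (Fin d → ℝ) :=
  Submodule.span ℝ {v | ∃ r ∈ G.reactions, v = reactionVector r}

/-- The positive stoichiometric class `(c + S) ∩ ℝ^d_{>0}` of `c`. -/
def positiveClass (c : Fin d → ℝ) : Set (Fin d → ℝ) :=
  {x | x - c ∈ G.stoichiometricSubspace ∧ ∀ i, 0 < x i}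

/-- `x` is a (classical) solution of the mass-action system on the time interval `T`. -/
def IsSolutionOn (k : (Fin d → ℕ) × (Fin d → ℕ) → ℝ) (T : Set ℝ) (x : ℝ → Fin d → ℝ) : Prop :=
  ∀ t ∈ T, HasDerivWithinAt x (G.massAction k (x t)) T t

/-- The mass-action system with rate constants `k` is permanent on the positive stoichiometric
class `P` of `c`: for every `x₀ ∈ P` the solution starting at `x₀` exists for all `t ≥ 0`, is
unique (every solution on an interval `[0, b)` starting at `x₀` is a restriction of it) and stays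
in `P` (in particular it stays positive), and there is a compact set `K ⊆ P` such that every
solution starting in `P` lies in `K` for all sufficiently large times. -/
def Permanent (k : (Fin d → ℕ) × (Fin d → ℕ) → ℝ) (c : Fin d → ℝ) : Prop :=
  (∀ x₀ ∈ G.positiveClass c, ∃ x : ℝ → Fin d → ℝ,
    x 0 = x₀ ∧ G.IsSolutionOn k (Set.Ici 0) x ∧ (∀ t, 0 ≤ t → x t ∈ G.positiveClass c) ∧
    ∀ (b : ℝ) (y : ℝ → Fin d → ℝ), y 0 = x₀ → G.IsSolutionOn k (Set.Ico 0 b) y →
      ∀ t ∈ Set.Ico 0 b, y t = x t) ∧
  ∃ K : Set (Fin d → ℝ), IsCompact K ∧ K ⊆ G.positiveClass c ∧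
    ∀ x : ℝ → Fin d → ℝ, x 0 ∈ G.positiveClass c → G.IsSolutionOn k (Set.Ici 0) x →
      ∃ T : ℝ, ∀ t, T ≤ t → x t ∈ K

end ReactionNetwork

end Vale.Agent.P072
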