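import Vale.Agent.P072.Defs

set_option autoImplicit false

namespace Vale.Agent.P072.ReactionNetwork

variable {d : ℕ} (G : ReactionNetwork d)

/-- Time-dependent rates `κ(t)`, measurable in `t`, with values in `[ε, ε⁻¹]` for all `t ≥ 0`. -/
def AdmissibleRates (ε : ℝ) (κ : ℝ → (Fin d → ℕ) × (Fin d → ℕ) → ℝ) : Prop :=
  ∀ r ∈ G.reactions, Measurable (fun t => κ t r) ∧ ∀ t, 0 ≤ t → ε ≤ κ t r ∧ κ t r ≤ ε⁻¹

/-- `x` is a (Carathéodory) solution on the time interval `T ∋ 0` of the mass-action system with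
time-dependent rates: it is continuous and satisfies the integral equation
`x(t) = x(0) + ∫_0^t f(s, x(s)) ds` for `t ∈ T`. -/
def IsCaratheodorySolutionOn (κ : ℝ → (Fin d → ℕ) × (Fin d → ℕ) → ℝ) (T : Set ℝ)
    (x : ℝ → Fin d → ℝ) : Prop :=
  ContinuousOn x T ∧ ∀ t ∈ T, x t = x 0 + ∫ s in (0 : ℝ)..t, G.massAction (κ s) (x s)

/-- Strong permanence on the positive stoichiometric class `P` of `c`: there is one compact set
`K ⊆ P` such that, for all measurable rates with values in `[ε, ε⁻¹]`, for every `x₀ ∈ P` the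
solution starting at `x₀` exists for all `t ≥ 0`, is unique and stays in `P`, and every solution
starting in `P` lies in `K` for all sufficiently large times. -/
def StronglyPermanent (ε : ℝ) (c : Fin d → ℝ) : Prop :=
  ∃ K : Set (Fin d → ℝ), IsCompact K ∧ K ⊆ G.positiveClass c ∧
    ∀ κ : ℝ → (Fin d → ℕ) × (Fin d → ℕ) → ℝ, G.AdmissibleRates ε κ →
      (∀ x₀ ∈ G.positiveClass c, ∃ x : ℝ → Fin d → ℝ,
        x 0 = x₀ ∧ G.IsCaratheodorySolutionOn κ (Set.Ici 0) x ∧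
        (∀ t, 0 ≤ t → x t ∈ G.positiveClass c) ∧
        ∀ (b : ℝ) (y : ℝ → Fin d → ℝ), y 0 = x₀ →
          G.IsCaratheodorySolutionOn κ (Set.Ico 0 b) y → ∀ t ∈ Set.Ico 0 b, y t = x t) ∧
      ∀ x : ℝ → Fin d → ℝ, x 0 ∈ G.positiveClass c →
        G.IsCaratheodorySolutionOn κ (Set.Ici 0) x → ∃ T : ℝ, ∀ t, T ≤ t → x t ∈ K

end Vale.Agent.P072.ReactionNetwork
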