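import Vale.Agent.P072.Setup
import Vale.Agent.P072.DefsStrong

set_option autoImplicit false

namespace Vale.Agent.P072

open MeasureTheory Filter Set

open scoped Topology

variable {d : ℕ}

theorem trivial_const {G : ReactionNetwork d} {w : Fin d → ℝ}
    (hw : ∀ r ∈ G.reactions, gap w r = 0) {v : Fin d → ℝ} (hv : v ∈ G.stoichiometricSubspace) :
    ∑ i, w i * v i = 0 := by
  unfold ReactionNetwork.stoichiometricSubspace at hv
  induction hv using Submodule.span_induction with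
  | mem v hv =>
    obtain ⟨r, hr, rfl⟩ := hv
    exact hw r hr
  | zero => simp
  | add v v' _ _ h1 h2 =>
    have : ∑ i, w i * (v + v') i = ∑ i, w i * v i + ∑ i, w i * v' i := by
      rw [← Finset.sum_add_distrib]
      exact Finset.sum_congr rfl (fun i _ => by simp [mul_add])
    rw [this, h1, h2, add_zero]
  | smul a v _ h1 =>
    have : ∑ i, w i * (a • v) i = a * ∑ i, w i * v i := by
      rw [Finset.mul_sum]
      exact Finset.sum_congr rfl (fun i _ => by simp; ring)
    rw [this, h1, mul_zero]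

theorem mon_contDiff (y : Fin d → ℕ) : ContDiff ℝ 1 (mon y) := by
  unfold mon
  fun_prop

theorem mon_continuous (y : Fin d → ℕ) : Continuous (mon y) := (mon_contDiff y).continuous

theorem massAction_eq (G : ReactionNetwork d) (k : (Fin d → ℕ) × (Fin d → ℕ) → ℝ)
    (x : Fin d → ℝ) :
    G.massAction k x = ∑ r ∈ G.reactions, (k r * mon r.1 x) • reactionVector r := rfl

/-- interval integrability of a single scalar term -/
theorem term_intervalIntegrable {ε : ℝ} {κ : ℝ → ℝ} (hm : Measurable κ) {a b : ℝ}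
    (hb : ∀ s ∈ uIcc a b, |κ s| ≤ ε⁻¹) {g : ℝ → ℝ} (hg : ContinuousOn g (uIcc a b)) :
    IntervalIntegrable (fun s => κ s * g s) volume a b := by
  have h1 : IntervalIntegrable (fun s => ε⁻¹ * |g s|) volume a b :=
    (continuousOn_const.mul hg.abs).intervalIntegrable
  apply h1.mono_fun'
  · apply AEStronglyMeasurable.mul hm.aestronglyMeasurable.restrict
    exact (hg.mono uIoc_subset_uIcc).aestronglyMeasurable measurableSet_uIoc
  · apply ae_restrict_of_forall_mem measurableSet_uIoc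
    intro s hs
    simp only [norm_mul, Real.norm_eq_abs]
    exact mul_le_mul_of_nonneg_right (hb s (uIoc_subset_uIcc hs)) (abs_nonneg _)

theorem massAction_intervalIntegrable {G : ReactionNetwork d} {ε : ℝ} (hε : 0 < ε)
    {κ : ℝ → (Fin d → ℕ) × (Fin d → ℕ) → ℝ}
    (hm : ∀ r ∈ G.reactions, Measurable (fun s => κ s r)) {a b : ℝ}
    (hb : ∀ r ∈ G.reactions, ∀ s ∈ uIcc a b, ε ≤ κ s r ∧ κ s r ≤ ε⁻¹)
    {z : ℝ → Fin d → ℝ} (hz : ContinuousOn z (uIcc a b)) :
    IntervalIntegrable (fun s => G.massAction (κ s) (z s)) volume a b := by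
  simp only [massAction_eq]
  have h := IntervalIntegrable.sum (μ := volume) (a := a) (b := b) G.reactions
    (f := fun r s => (κ s r * mon r.1 (z s)) • reactionVector r) (fun r hr => by
      have h1 : IntervalIntegrable (fun s => κ s r * mon r.1 (z s)) volume a b :=
        term_intervalIntegrable (ε := ε) (hm r hr) (fun s hs => by
          have := hb r hr s hs
          rw [abs_of_nonneg (by linarith)]
          exact this.2) ((mon_continuous r.1).comp_continuousOn hz)
      exact ⟨h1.1.smul_const _, h1.2.smul_const _⟩)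
  have h2 : (∑ i ∈ G.reactions, fun s => (κ s i * mon i.1 (z s)) • reactionVector i) =
      fun s => ∑ r ∈ G.reactions, (κ s r * mon r.1 (z s)) • reactionVector r := by
    funext s
    simp [Finset.sum_apply]
  rw [h2] at h
  exact h

theorem massAction_integral_mem {G : ReactionNetwork d} {ε : ℝ} (hε : 0 < ε)
    {κ : ℝ → (Fin d → ℕ) × (Fin d → ℕ) → ℝ}
    (hm : ∀ r ∈ G.reactions, Measurable (fun s => κ s r)) {a b : ℝ}
    (hb : ∀ r ∈ G.reactions, ∀ s ∈ uIcc a b, ε ≤ κ s r ∧ κ s r ≤ ε⁻¹)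
    {z : ℝ → Fin d → ℝ} (hz : ContinuousOn z (uIcc a b)) :
    (∫ s in a..b, G.massAction (κ s) (z s)) ∈ G.stoichiometricSubspace := by
  simp only [massAction_eq]
  rw [intervalIntegral.integral_finsetSum (fun r hr => by
      have h1 : IntervalIntegrable (fun s => κ s r * mon r.1 (z s)) volume a b :=
        term_intervalIntegrable (ε := ε) (hm r hr) (fun s hs => by
          have := hb r hr s hs
          rw [abs_of_nonneg (by linarith)]
          exact this.2) ((mon_continuous r.1).comp_continuousOn hz)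
      exact ⟨h1.1.smul_const _, h1.2.smul_const _⟩)]
  apply Submodule.sum_mem
  intro r hr
  rw [intervalIntegral.integral_smul_const]
  apply Submodule.smul_mem
  exact Submodule.subset_span ⟨r, hr, rfl⟩

/-- uniform Lipschitz bound for the facet offsets on a compact parameter interval -/
theorem exists_lip {K : Set ((Fin d → ℝ) × (ℝ → ℝ))} (hK : K.Finite)
    (hs : ∀ p ∈ K, ContDiff ℝ 1 p.2) (u v : ℝ) :
    ∃ B > 0, ∀ p ∈ K, ∀ s ∈ Icc u v, ∀ t ∈ Icc u v, |p.2 s - p.2 t| ≤ B * |s - t| := by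
  obtain ⟨r, hr, h⟩ := finite_pos hK
    (fun p r => ∀ s ∈ Icc u v, ∀ t ∈ Icc u v, |p.2 s - p.2 t| ≤ r⁻¹ * |s - t|)
    (fun p r r' hr' hle h s hs t ht => le_trans (h s hs t ht)
      (mul_le_mul_of_nonneg_right (inv_anti₀ hr' hle) (abs_nonneg _)))
    (fun p hp => by
      obtain ⟨C, hC⟩ := ((hs p hp).contDiffOn (s := Icc u v)).exists_lipschitzOnWith one_ne_zero
        (convex_Icc u v) isCompact_Icc
      refine ⟨((C : ℝ) + 1)⁻¹, by positivity, ?_⟩
      intro s hs t ht
      have h1 := hC.dist_le_mul s hs t ht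
      rw [Real.dist_eq, Real.dist_eq] at h1
      rw [inv_inv]
      refine le_trans h1 (mul_le_mul_of_nonneg_right (by linarith) (abs_nonneg _)))
  exact ⟨r⁻¹, by positivity, h⟩

/-- **Staying inside the (moving) polytopes.** -/
theorem stay {G : ReactionNetwork d} {ε : ℝ} {K : Set ((Fin d → ℝ) × (ℝ → ℝ))} {μ τs : ℝ}
    (S : Setup G ε K μ τs) {c : Fin d → ℝ} {τ0 : ℝ} (hτ0 : τs ≤ τ0)
    (hc : ∀ τ, τ0 ≤ τ → ∀ p ∈ K, ∑ i, p.1 i * c i < p.2 τ)
    {τ1 cin B : ℝ}
    (hcin : ∀ τ ∈ Icc τs τ1, ∀ x, InK K τ x → ∀ p ∈ K,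
      ∑ i, p.1 i * x i = p.2 τ → (∃ r ∈ G.reactions, gap p.1 r ≠ 0) →
      ∀ᶠ x' in 𝓝 x, ∀ k : (Fin d → ℕ) × (Fin d → ℕ) → ℝ,
        (∀ r ∈ G.reactions, ε ≤ k r ∧ k r ≤ ε⁻¹) → ∑ i, p.1 i * G.massAction k x' i ≤ -cin)
    (hB : ∀ p ∈ K, ∀ s ∈ Icc τ0 τ1, ∀ t ∈ Icc τ0 τ1, |p.2 s - p.2 t| ≤ B * |s - t|)
    {a b τa η : ℝ} (hη : 0 ≤ η) (hηB : B * η ≤ cin) (hτa : τa ≤ τ1)
    (hτb : τ0 ≤ τa - η * (b - a))
    {x Fs : ℝ → Fin d → ℝ} (hcont : ContinuousOn x (Icc a b))
    (hint : ∀ t ∈ Icc a b, ∀ t' ∈ Icc t b, IntervalIntegrable Fs volume t t')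
    (hx : ∀ t ∈ Icc a b, ∀ t' ∈ Icc t b, x t' = x t + ∫ s in t..t', Fs s)
    (hS : ∀ t ∈ Icc a b, x t - c ∈ G.stoichiometricSubspace)
    (hFs : ∀ t ∈ Ico a b, InK K (τa - η * (t - a)) (x t) → ∀ᶠ s in 𝓝[>] t,
      ∃ k : (Fin d → ℕ) × (Fin d → ℕ) → ℝ, (∀ r ∈ G.reactions, ε ≤ k r ∧ k r ≤ ε⁻¹) ∧
        Fs s = G.massAction k (x s))
    (ha : InK K τa (x a)) :
    ∀ t ∈ Icc a b, InK K (τa - η * (t - a)) (x t) := by
  have hτ : ∀ t ∈ Icc a b, τa - η * (t - a) ∈ Icc τ0 τ1 := by
    intro t ht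
    constructor
    · have : η * (t - a) ≤ η * (b - a) := mul_le_mul_of_nonneg_left (by linarith [ht.2]) hη
      linarith
    · have : 0 ≤ η * (t - a) := mul_nonneg hη (by linarith [ht.1])
      linarith
  apply trap (β := fun p t => p.2 (τa - η * (t - a))) S.finite hcont
  · intro p hp
    have := (S.smooth p hp).continuous
    fun_prop
  · intro p hp
    have h1 := ha p hp
    simpa using h1
  · intro t ht hin p hp hact
    have htI : t ∈ Icc a b := Ico_subset_Icc_self ht
    by_cases hnt : ∃ r ∈ G.reactions, gap p.1 r ≠ 0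
    swap
    · exfalso
      push Not at hnt
      have h1 := trivial_const hnt (hS t htI)
      have h2 : ∑ i, p.1 i * (x t - c) i = ∑ i, p.1 i * x t i - ∑ i, p.1 i * c i := by
        rw [← Finset.sum_sub_distrib]
        exact Finset.sum_congr rfl (fun i _ => by simp [mul_sub])
      rw [h2] at h1
      have h3 := hc _ (hτ t htI).1 p hp
      linarith
    · have h1 := hcin _ ⟨le_trans hτ0 (hτ t htI).1, (hτ t htI).2⟩ (x t) hin p hp hact hnt
      have hnhds : 𝓝[>] t ≤ 𝓝[Icc a b] t := by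
        rw [← nhdsWithin_Ioo_eq_nhdsGT ht.2]
        apply nhdsWithin_mono
        intro u hu
        exact ⟨le_trans ht.1 hu.1.le, hu.2.le⟩
      have h2 : Tendsto x (𝓝[>] t) (𝓝 (x t)) := (hcont t htI).mono_left hnhds
      have h3 : ∀ᶠ s in 𝓝[>] t, ∑ i, p.1 i * Fs s i ≤ -cin := by
        filter_upwards [h2.eventually h1, hFs t ht hin] with s hs1 hs2
        obtain ⟨k, hk, hk'⟩ := hs2
        rw [hk']
        exact hs1 k hk
      have h4 := step_of_integral ht.2 (hint t htI) (hx t htI) h3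
      filter_upwards [h4, Ioo_mem_nhdsGT ht.2] with t' ht'1 ht'2
      have ht'I : t' ∈ Icc a b := ⟨le_trans ht.1 ht'2.1.le, ht'2.2.le⟩
      have h5 := hB p hp _ (hτ t htI) _ (hτ t' ht'I)
      have h6 : |τa - η * (t - a) - (τa - η * (t' - a))| = η * (t' - t) := by
        have : τa - η * (t - a) - (τa - η * (t' - a)) = η * (t' - t) := by ring
        rw [this, abs_of_nonneg (mul_nonneg hη (by linarith [ht'2.1]))]
      rw [h6] at h5
      have h7 := (abs_le.mp h5).2
      have h8 : B * (η * (t' - t)) ≤ cin * (t' - t) := by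
        rw [← mul_assoc]
        exact mul_le_mul_of_nonneg_right hηB (by linarith [ht'2.1])
      have hact' : ∑ i, p.1 i * x t i = p.2 (τa - η * (t - a)) := hact
      show ∑ i, p.1 i * x t' i ≤ p.2 (τa - η * (t' - a))
      linarith

end Vale.Agent.P072
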