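import Vale.Agent.P072.Chain

set_option autoImplicit false
set_option linter.unusedSectionVars false

namespace Vale.Agent.P072

open Finset Filter

/-- finitely many positive thresholds have a common one -/
theorem finite_pos {α : Type*} {S : Set α} (hS : S.Finite) (P : α → ℝ → Prop)
    (mono : ∀ s r r', 0 < r' → r' ≤ r → P s r → P s r') (h : ∀ s ∈ S, ∃ r > 0, P s r) :
    ∃ r > 0, ∀ s ∈ S, P s r := by
  induction S, hS using Set.Finite.induction_on with
  | empty => exact ⟨1, one_pos, by simp⟩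
  | @insert a s _ _ ih =>
    obtain ⟨r1, hr1, h1⟩ := ih (fun s hs => h s (Set.mem_insert_of_mem _ hs))
    obtain ⟨r2, hr2, h2⟩ := h a (Set.mem_insert _ _)
    refine ⟨min r1 r2, lt_min hr1 hr2, ?_⟩
    intro s hs
    rcases hs with rfl | hs
    · exact mono _ _ _ (lt_min hr1 hr2) (min_le_right _ _) h2
    · exact mono _ _ _ (lt_min hr1 hr2) (min_le_left _ _) (h1 s hs)

theorem le_of_exp_le {τ x γ K : ℝ} (hτ : 0 < τ) (hK : 0 < K)
    (h : Real.exp (τ * x) ≤ K * Real.exp (γ * τ)) : x ≤ γ + Real.log K / τ := by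
  have h1 : K * Real.exp (γ * τ) = Real.exp (Real.log K + γ * τ) := by
    rw [Real.exp_add, Real.exp_log hK]
  rw [h1, Real.exp_le_exp] at h
  have h2 : x = (τ * x) / τ := by field_simp
  rw [h2]
  have h3 : γ + Real.log K / τ = (Real.log K + γ * τ) / τ := by field_simp; ring
  rw [h3]
  exact div_le_div_of_nonneg_right h hτ.le

theorem ge_of_exp_ge {τ x γ K : ℝ} (hτ : 0 < τ) (hK : 0 < K)
    (h : K * Real.exp (γ * τ) ≤ Real.exp (τ * x)) : γ + Real.log K / τ ≤ x := by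
  have h1 : K * Real.exp (γ * τ) = Real.exp (Real.log K + γ * τ) := by
    rw [Real.exp_add, Real.exp_log hK]
  rw [h1, Real.exp_le_exp] at h
  have h2 : x = (τ * x) / τ := by field_simp
  rw [h2]
  have h3 : γ + Real.log K / τ = (Real.log K + γ * τ) / τ := by field_simp; ring
  rw [h3]
  exact div_le_div_of_nonneg_right h hτ.le

variable {ι : Type*} [Fintype ι] [DecidableEq ι]

/-- objective of the option `o = (w, c)` over the free coordinates -/
noncomputable def obj (J : Finset ι) (τ : ℝ) (ξ : ι → ℝ) (o : (ι → ℝ) × (ℝ → ℝ)) : ℝ :=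
  ∑ i ∈ Jᶜ, o.1 i * Real.exp (τ * ξ i) - o.2 τ

/-- value `v` on `I`, `κ` elsewhere -/
def upd (κ : ι → ℝ) (I : Finset ι) (v : ℝ) : ι → ℝ := fun i => if i ∈ I then v else κ i

/-- the main property of a family of options -/
def MainProp (N : Set (ι → ℝ)) (φ : ℝ) (J : Finset ι) (κ : ι → ℝ) (g r : ℝ)
    (W : Set ((ι → ℝ) × (ℝ → ℝ))) (c0 : ℝ) : Prop :=
  ∀ C : ℝ, ∀ᶠ τ in atTop, ∀ ξ : ι → ℝ, (∀ j ∈ J, |ξ j - κ j| ≤ r) →
    (∀ i ∉ J, φ - C / τ ≤ ξ i ∧ ξ i ≤ g + C / τ) →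
    ∀ o ∈ W, (∀ o' ∈ W, obj J τ ξ o' ≤ obj J τ ξ o) →
      ∀ ν ∈ N, 0 < ∑ i, ν i * o.1 i → c0 ≤ ∑ i, ν i * ξ i

structure Good (N : Set (ι → ℝ)) (φ : ℝ) (J : Finset ι) (κ : ι → ℝ) (g r : ℝ)
    (W : Set ((ι → ℝ) × (ℝ → ℝ))) : Prop where
  finite : W.Finite
  on_J : ∀ o ∈ W, ∀ j ∈ J, o.1 j = κ j
  lower : ∀ o ∈ W, ∀ i ∉ J, φ ≤ o.1 i
  upper : ∀ o ∈ W, ∀ i ∉ J, o.1 i ≤ max φ g
  cost_nonneg : ∀ o ∈ W, ∀ τ, 0 ≤ o.2 τ
  cost_le : ∀ o ∈ W, ∀ τ, 0 ≤ τ → o.2 τ ≤ (Jᶜ.card : ℝ) * Real.exp (g * τ)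
  smooth : ∀ o ∈ W, ContDiff ℝ 1 o.2
  floor_mem : (upd κ Jᶜ φ, fun _ => (0 : ℝ)) ∈ W
  main : ∃ c0 > 0, MainProp N φ J κ g r W c0

theorem leaf_tol {N : Set (ι → ℝ)} (hN : N.Finite) (κ : ι → ℝ) :
    ∃ r > 0, ∀ ν ∈ N, ∀ ξ : ι → ℝ, (∀ j, |ξ j - κ j| ≤ r) → 0 < ∑ i, ν i * κ i →
      r ≤ ∑ i, ν i * ξ i := by
  apply finite_pos hN (fun ν r => ∀ ξ : ι → ℝ, (∀ j, |ξ j - κ j| ≤ r) →
    0 < ∑ i, ν i * κ i → r ≤ ∑ i, ν i * ξ i)
  · intro ν r r' _ hle h ξ hξ hpos
    exact le_trans hle (h ξ (fun j => le_trans (hξ j) hle) hpos)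
  · intro ν _
    by_cases hpos : 0 < ∑ i, ν i * κ i
    · have hM : 0 ≤ ∑ i, |ν i| := Finset.sum_nonneg (fun i _ => abs_nonneg _)
      have hM1 : 0 < (∑ i, |ν i|) + 1 := by linarith
      refine ⟨(∑ i, ν i * κ i) / ((∑ i, |ν i|) + 1), div_pos hpos hM1, ?_⟩
      intro ξ hξ _
      set r := (∑ i, ν i * κ i) / ((∑ i, |ν i|) + 1) with hr
      have hr' : (∑ i, ν i * κ i) = r * ((∑ i, |ν i|) + 1) := by
        rw [hr]; field_simp
      have h1 : ∑ i, ν i * ξ i = ∑ i, ν i * κ i + ∑ i, ν i * (ξ i - κ i) := by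
        rw [← Finset.sum_add_distrib]
        exact Finset.sum_congr rfl (fun i _ => by ring)
      have h2 : |∑ i, ν i * (ξ i - κ i)| ≤ ∑ i, |ν i| * r := by
        refine le_trans (Finset.abs_sum_le_sum_abs _ _) (Finset.sum_le_sum ?_)
        intro i _
        rw [abs_mul]
        exact mul_le_mul_of_nonneg_left (hξ i) (abs_nonneg _)
      rw [← Finset.sum_mul] at h2
      have h3 := (abs_le.mp h2).1
      rw [h1, hr']
      linarith
    · exact ⟨1, one_pos, fun ξ _ h => absurd h hpos⟩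

theorem exists_scales (R : Finset ι → ℝ → ℝ) (hR : ∀ I a, 0 < R I a) :
    ∃ a : ℕ → ℝ, (∀ k, 0 < a k) ∧ (∀ k, a (k + 1) < a k) ∧
      ∀ k I, 2 * a (k + 1) ≤ R I (a k) := by
  have h : ∀ x : ℝ, ∃ y : ℝ, 0 < x → (0 < y ∧ y < x ∧ ∀ I, 2 * y ≤ R I x) := by
    intro x
    by_cases hx : 0 < x
    · obtain ⟨r, hr, h⟩ := finite_pos (S := (Set.univ : Set (Finset ι))) Set.finite_univ
        (fun I r => 2 * r ≤ R I x) (fun I r r' _ hle h => by linarith)
        (fun I _ => ⟨R I x / 2, by linarith [hR I x], by linarith⟩)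
      refine ⟨min r (x / 2), fun _ => ⟨lt_min hr (by linarith), ?_, ?_⟩⟩
      · exact lt_of_le_of_lt (min_le_right _ _) (by linarith)
      · intro I
        have := h I (Set.mem_univ _)
        have h2 := min_le_left r (x / 2)
        linarith
    · exact ⟨0, fun hx' => absurd hx' hx⟩
  choose F hF using h
  refine ⟨fun k => F^[k] 1, ?_, ?_, ?_⟩
  all_goals
    have hpos : ∀ k : ℕ, 0 < F^[k] 1 := by
      intro k
      induction k with
      | zero => exact one_pos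
      | succ k ih =>
        rw [Function.iterate_succ_apply']
        exact (hF _ ih).1
  · exact hpos
  · intro k
    simp only [Function.iterate_succ_apply']
    exact (hF _ (hpos k)).2.1
  · intro k I
    simp only [Function.iterate_succ_apply']
    exact (hF _ (hpos k)).2.2 I

/-- cost of a block of `m` members at value `v` when `n` coordinates were free -/
noncomputable def costB (a : ℕ → ℝ) (n m : ℕ) (v : ℝ) (τ : ℝ) : ℝ :=
  ∑ j ∈ range m, Real.exp ((v - a (n - j)) * τ)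

theorem costB_nonneg (a : ℕ → ℝ) (n m : ℕ) (v τ : ℝ) : 0 ≤ costB a n m v τ :=
  Finset.sum_nonneg (fun _ _ => (Real.exp_pos _).le)

theorem costB_zero (a : ℕ → ℝ) (n : ℕ) (v τ : ℝ) : costB a n 0 v τ = 0 := by
  simp [costB]

theorem costB_succ (a : ℕ → ℝ) (n m : ℕ) (v τ : ℝ) :
    costB a n (m + 1) v τ = costB a n m v τ + Real.exp ((v - a (n - m)) * τ) := by
  simp [costB, Finset.sum_range_succ]

theorem costB_smooth (a : ℕ → ℝ) (n m : ℕ) (v : ℝ) : ContDiff ℝ 1 (costB a n m v) := by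
  unfold costB
  fun_prop

theorem anti_of_succ {a : ℕ → ℝ} (h : ∀ k, a (k + 1) < a k) : StrictAnti a :=
  strictAnti_nat_of_succ_lt h

/-- the cost is at most `m` times the largest exponential -/
theorem costB_le {a : ℕ → ℝ} (ha : ∀ k, a (k + 1) < a k) (n m : ℕ) (v τ : ℝ) (hτ : 0 ≤ τ) :
    costB a n m v τ ≤ m * Real.exp ((v - a n) * τ) := by
  unfold costB
  have : ∑ j ∈ range m, Real.exp ((v - a (n - j)) * τ) ≤
      ∑ _j ∈ range m, Real.exp ((v - a n) * τ) := by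
    apply Finset.sum_le_sum
    intro j _
    apply Real.exp_le_exp.mpr
    apply mul_le_mul_of_nonneg_right _ hτ
    have := (anti_of_succ ha).antitone (Nat.sub_le n j)
    linarith
  refine le_trans this ?_
  simp

/-- difference of costs for `m ≤ m'` members -/
theorem costB_diff_le {a : ℕ → ℝ} (ha : ∀ k, a (k + 1) < a k) (n m m' : ℕ) (hm : m ≤ m')
    (hn : m' ≤ n) (v τ : ℝ) (hτ : 0 ≤ τ) :
    costB a n m' v τ - costB a n m v τ ≤ n * Real.exp ((v - a (n - m)) * τ) := by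
  unfold costB
  have h1 : ∑ j ∈ range m', Real.exp ((v - a (n - j)) * τ) -
      ∑ j ∈ range m, Real.exp ((v - a (n - j)) * τ) =
      ∑ j ∈ range m' \ range m, Real.exp ((v - a (n - j)) * τ) := by
    rw [← Finset.sum_sdiff (Finset.range_subset_range.mpr hm)]
    ring
  rw [h1]
  have h2 : ∑ j ∈ range m' \ range m, Real.exp ((v - a (n - j)) * τ) ≤
      ∑ _j ∈ range m' \ range m, Real.exp ((v - a (n - m)) * τ) := by
    apply Finset.sum_le_sum
    intro j hj
    apply Real.exp_le_exp.mpr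
    apply mul_le_mul_of_nonneg_right _ hτ
    have hj' : m ≤ j := by
      have := (Finset.mem_sdiff.mp hj).2
      simpa using this
    have := (anti_of_succ ha).antitone (show n - j ≤ n - m by omega)
    linarith
  refine le_trans h2 ?_
  rw [Finset.sum_const, nsmul_eq_mul]
  apply mul_le_mul_of_nonneg_right _ (Real.exp_pos _).le
  have : (range m' \ range m).card ≤ n := by
    refine le_trans (Finset.card_le_card Finset.sdiff_subset) ?_
    simpa using hn
  exact_mod_cast this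

end Vale.Agent.P072
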