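import Vale.Agent.P072.Gauge

set_option autoImplicit false
set_option linter.unusedSectionVars false

namespace Vale.Agent.P072

open Finset Filter

variable {ι : Type*} [Fintype ι] [DecidableEq ι]

/-- prepend a block to an option -/
noncomputable def lift (a : ℕ → ℝ) (n m : ℕ) (v : ℝ) (o : (ι → ℝ) × (ℝ → ℝ)) :
    (ι → ℝ) × (ℝ → ℝ) := (o.1, fun τ => costB a n m v τ + o.2 τ)

/-- block data for the context `(J, κ)` and the value `v` -/
structure Block (N : Set (ι → ℝ)) (φ : ℝ) (J : Finset ι) (κ : ι → ℝ) (v : ℝ)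
    (a : ℕ → ℝ) (R : Finset ι → ℝ) (Ws : Finset ι → Set ((ι → ℝ) × (ℝ → ℝ))) : Prop where
  pos : ∀ k, 0 < a k
  anti : ∀ k, a (k + 1) < a k
  good : ∀ I : Finset ι, I.Nonempty → I ⊆ Jᶜ →
    Good N φ (J ∪ I) (upd κ I v) (v - a (Jᶜ.card - I.card)) (R I) (Ws I)
  Rpos : ∀ I, 0 < R I
  tol : ∀ I, 2 * a (Jᶜ.card - I.card + 1) ≤ R I

theorem exists_block {N : Set (ι → ℝ)} {φ : ℝ} {J : Finset ι}
    (IH : ∀ J' : Finset ι, J ⊂ J' → ∀ (κ' : ι → ℝ) (g' : ℝ),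
      ∃ r > 0, ∃ W, Good N φ J' κ' g' r W) (κ : ι → ℝ) (v : ℝ) :
    ∃ a R Ws, Block N φ J κ v a R Ws := by
  have h : ∀ (I : Finset ι) (α : ℝ), ∃ r : ℝ, ∃ W : Set ((ι → ℝ) × (ℝ → ℝ)), 0 < r ∧
      (I.Nonempty → I ⊆ Jᶜ → Good N φ (J ∪ I) (upd κ I v) (v - α) r W) := by
    intro I α
    by_cases hI : I.Nonempty ∧ I ⊆ Jᶜ
    · have hss : J ⊂ J ∪ I := by
        refine Finset.ssubset_iff_subset_ne.mpr ⟨Finset.subset_union_left, ?_⟩
        intro heq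
        obtain ⟨i, hi⟩ := hI.1
        have h1 : i ∈ J := by rw [heq]; exact Finset.mem_union_right _ hi
        exact (Finset.mem_compl.mp (hI.2 hi)) h1
      obtain ⟨r, hr, W, hW⟩ := IH _ hss (upd κ I v) (v - α)
      exact ⟨r, W, hr, fun _ _ => hW⟩
    · exact ⟨1, ∅, one_pos, fun h1 h2 => absurd ⟨h1, h2⟩ hI⟩
  choose R0 W0 hR0 hW0 using h
  obtain ⟨a, ha1, ha2, ha3⟩ := exists_scales R0 hR0
  refine ⟨a, fun I => R0 I (a (Jᶜ.card - I.card)), fun I => W0 I (a (Jᶜ.card - I.card)),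
    ⟨ha1, ha2, ?_, ?_, ?_⟩⟩
  · intro I h1 h2
    exact hW0 _ _ h1 h2
  · intro I
    exact hR0 _ _
  · intro I
    exact ha3 _ I

theorem obj_le {J : Finset ι} {τ : ℝ} {ξ : ι → ℝ} {o1 o2 : (ι → ℝ) × (ℝ → ℝ)}
    (h : obj J τ ξ o1 ≤ obj J τ ξ o2) :
    ∑ i ∈ Jᶜ, (o1.1 i - o2.1 i) * Real.exp (τ * ξ i) ≤ o1.2 τ - o2.2 τ := by
  unfold obj at h
  have : ∑ i ∈ Jᶜ, (o1.1 i - o2.1 i) * Real.exp (τ * ξ i) =
      ∑ i ∈ Jᶜ, o1.1 i * Real.exp (τ * ξ i) - ∑ i ∈ Jᶜ, o2.1 i * Real.exp (τ * ξ i) := by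
    rw [← Finset.sum_sub_distrib]
    exact Finset.sum_congr rfl (fun i _ => by ring)
  rw [this]
  linarith

/-- mixed option: value `v` on `I`, `φ` on the rest of the free coordinates -/
def mix (κ : ι → ℝ) (J I : Finset ι) (v φ : ℝ) : ι → ℝ := upd (upd κ I v) (J ∪ I)ᶜ φ

theorem mix_mem_I {κ : ι → ℝ} {J I : Finset ι} {v φ : ℝ} {l : ι} (hl : l ∈ I) :
    mix κ J I v φ l = v := by
  unfold mix upd
  have : l ∉ (J ∪ I)ᶜ := by
    rw [Finset.mem_compl, not_not]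
    exact Finset.mem_union_right _ hl
  rw [if_neg this, if_pos hl]

theorem mix_rest {κ : ι → ℝ} {J I : Finset ι} {v φ : ℝ} {l : ι} (hl : l ∉ J) (hl' : l ∉ I) :
    mix κ J I v φ l = φ := by
  unfold mix upd
  have : l ∈ (J ∪ I)ᶜ := by
    rw [Finset.mem_compl, Finset.mem_union]
    tauto
  rw [if_pos this]

theorem mix_J {κ : ι → ℝ} {J I : Finset ι} {v φ : ℝ} {l : ι} (hl : l ∈ J) (hl' : l ∉ I) :
    mix κ J I v φ l = κ l := by
  unfold mix upd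
  have : l ∉ (J ∪ I)ᶜ := by
    rw [Finset.mem_compl, not_not]
    exact Finset.mem_union_left _ hl
  rw [if_neg this, if_neg hl']

/-- (i) upper bound from the tie option at `v'` -/
theorem upper_of_tie {J : Finset ι} {a : ℕ → ℝ} (ha : ∀ k, a (k + 1) < a k)
    {τ : ℝ} (hτ : 0 ≤ τ) {ξ : ι → ℝ} {o T : (ι → ℝ) × (ℝ → ℝ)} {v v' : ℝ} (hvv : v ≤ v')
    (hT1 : ∀ l ∉ J, T.1 l = v') (hT2 : T.2 τ ≤ costB a Jᶜ.card Jᶜ.card v' τ)
    (hov : ∀ l ∉ J, o.1 l ≤ v) (ho2 : 0 ≤ o.2 τ)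
    (hmax : obj J τ ξ T ≤ obj J τ ξ o) {l : ι} (hl : l ∉ J) :
    (v' - v) * Real.exp (τ * ξ l) ≤ Jᶜ.card * Real.exp ((v' - a Jᶜ.card) * τ) := by
  have h1 := obj_le hmax
  have h2 : (T.1 l - o.1 l) * Real.exp (τ * ξ l) ≤
      ∑ i ∈ Jᶜ, (T.1 i - o.1 i) * Real.exp (τ * ξ i) := by
    apply Finset.single_le_sum (f := fun i => (T.1 i - o.1 i) * Real.exp (τ * ξ i))
    · intro i hi
      have hi' := Finset.mem_compl.mp hi
      apply mul_nonneg _ (Real.exp_pos _).le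
      rw [hT1 i hi']
      have := hov i hi'
      linarith
    · exact Finset.mem_compl.mpr hl
  have h3 := costB_le ha Jᶜ.card Jᶜ.card v' τ hτ
  have h4 : (v' - v) * Real.exp (τ * ξ l) ≤ (T.1 l - o.1 l) * Real.exp (τ * ξ l) := by
    apply mul_le_mul_of_nonneg_right _ (Real.exp_pos _).le
    rw [hT1 l hl]
    have := hov l hl
    linarith
  linarith

/-- (i') upper bound for the coordinates below the block -/
theorem upper_below {J I : Finset ι} {a : ℕ → ℝ} (ha : ∀ k, a (k + 1) < a k)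
    {τ : ℝ} (hτ : 0 ≤ τ) {ξ : ι → ℝ} {o T : (ι → ℝ) × (ℝ → ℝ)} {v η : ℝ} (hI : I ⊆ Jᶜ)
    (hT1 : ∀ l ∉ J, T.1 l = v) (hT2 : T.2 τ ≤ costB a Jᶜ.card Jᶜ.card v τ)
    (hov : ∀ l ∉ J, o.1 l ≤ v) (ho2 : costB a Jᶜ.card I.card v τ ≤ o.2 τ)
    (hmax : obj J τ ξ T ≤ obj J τ ξ o) {l : ι} (hl : l ∉ J) (hη : η ≤ v - o.1 l) :
    η * Real.exp (τ * ξ l) ≤ Jᶜ.card * Real.exp ((v - a (Jᶜ.card - I.card)) * τ) := by
  have h1 := obj_le hmax
  have h2 : (T.1 l - o.1 l) * Real.exp (τ * ξ l) ≤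
      ∑ i ∈ Jᶜ, (T.1 i - o.1 i) * Real.exp (τ * ξ i) := by
    apply Finset.single_le_sum (f := fun i => (T.1 i - o.1 i) * Real.exp (τ * ξ i))
    · intro i hi
      have hi' := Finset.mem_compl.mp hi
      apply mul_nonneg _ (Real.exp_pos _).le
      rw [hT1 i hi']
      have := hov i hi'
      linarith
    · exact Finset.mem_compl.mpr hl
  have h3 := costB_diff_le ha Jᶜ.card I.card Jᶜ.card (Finset.card_le_card hI) le_rfl v τ hτ
  have h4 : η * Real.exp (τ * ξ l) ≤ (T.1 l - o.1 l) * Real.exp (τ * ξ l) := by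
    apply mul_le_mul_of_nonneg_right _ (Real.exp_pos _).le
    rw [hT1 l hl]
    exact hη
  linarith

/-- (ii) lower bound for the members of the block -/
theorem lower_member {J I : Finset ι} {a : ℕ → ℝ}
    {τ : ℝ} {ξ : ι → ℝ} {κ : ι → ℝ} {o : (ι → ℝ) × (ℝ → ℝ)} {v φ B : ℝ}
    (hφv : φ ≤ v) (hI : I ⊆ Jᶜ) (hB : 0 ≤ B)
    (ho1 : ∀ l ∈ I, o.1 l = v) (hov : ∀ l ∉ J, o.1 l ≤ v)
    (ho2 : costB a Jᶜ.card I.card v τ ≤ o.2 τ) {i : ι} (hi : i ∈ I)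
    (hmax : obj J τ ξ (mix κ J (I.erase i) v φ, costB a Jᶜ.card (I.erase i).card v) ≤
      obj J τ ξ o)
    (hlow : ∀ l ∉ J, l ∉ I → Real.exp (τ * ξ l) ≤ B) :
    Real.exp ((v - a (Jᶜ.card - I.card + 1)) * τ) ≤
      (v - φ) * Real.exp (τ * ξ i) + Jᶜ.card * ((v - φ) * B) := by
  have h1 := obj_le hmax
  have hcard : (I.erase i).card + 1 = I.card := Finset.card_erase_add_one hi
  have hIcard : I.card ≤ Jᶜ.card := Finset.card_le_card hI
  have hc : costB a Jᶜ.card I.card v τ = costB a Jᶜ.card (I.erase i).card v τ +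
      Real.exp ((v - a (Jᶜ.card - I.card + 1)) * τ) := by
    rw [← hcard, costB_succ]
    have : Jᶜ.card - ((I.erase i).card + 1) + 1 = Jᶜ.card - (I.erase i).card := by omega
    rw [this]
  have h2 : ∑ l ∈ Jᶜ, (o.1 l - mix κ J (I.erase i) v φ l) * Real.exp (τ * ξ l) ≤
      ∑ l ∈ Jᶜ, ((if l = i then (v - φ) * Real.exp (τ * ξ i) else 0) + (v - φ) * B) := by
    apply Finset.sum_le_sum
    intro l hl
    have hl' := Finset.mem_compl.mp hl
    have hvB : 0 ≤ (v - φ) * B := mul_nonneg (by linarith) hB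
    by_cases hli : l = i
    · subst hli
      rw [if_pos rfl, mix_rest hl' (Finset.notMem_erase _ _), ho1 _ hi]
      linarith
    · rw [if_neg hli]
      by_cases hlI : l ∈ I
      · rw [mix_mem_I (Finset.mem_erase.mpr ⟨hli, hlI⟩), ho1 _ hlI]
        simp only [sub_self, zero_mul, zero_add]
        exact hvB
      · rw [mix_rest hl' (fun h => hlI (Finset.mem_of_mem_erase h)), zero_add]
        have h3 : o.1 l - φ ≤ v - φ := by linarith [hov l hl']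
        calc (o.1 l - φ) * Real.exp (τ * ξ l) ≤ (v - φ) * Real.exp (τ * ξ l) :=
              mul_le_mul_of_nonneg_right h3 (Real.exp_pos _).le
          _ ≤ (v - φ) * B := mul_le_mul_of_nonneg_left (hlow l hl' hlI) (by linarith)
  have h3 : ∑ l ∈ Jᶜ, ((if l = i then (v - φ) * Real.exp (τ * ξ i) else 0) + (v - φ) * B) =
      (v - φ) * Real.exp (τ * ξ i) + Jᶜ.card * ((v - φ) * B) := by
    rw [Finset.sum_add_distrib, Finset.sum_ite_eq' Jᶜ i, if_pos (hI hi), Finset.sum_const,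
      nsmul_eq_mul]
  have h4 : ∑ l ∈ Jᶜ, (o.1 l - mix κ J (I.erase i) v φ l) * Real.exp (τ * ξ l) =
      - ∑ l ∈ Jᶜ, (mix κ J (I.erase i) v φ l - o.1 l) * Real.exp (τ * ξ l) := by
    rw [← Finset.sum_neg_distrib]
    exact Finset.sum_congr rfl (fun i _ => by ring)
  simp only at h1
  linarith

/-- decomposition of the objective of a lifted option -/
theorem obj_lift {J I : Finset ι} (hI : I ⊆ Jᶜ) {a : ℕ → ℝ} {n m : ℕ} {v τ : ℝ} {ξ : ι → ℝ}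
    {o : (ι → ℝ) × (ℝ → ℝ)} (ho : ∀ i ∈ I, o.1 i = v) :
    obj J τ ξ (lift a n m v o) =
      ∑ i ∈ I, v * Real.exp (τ * ξ i) + obj (J ∪ I) τ ξ o - costB a n m v τ := by
  unfold obj lift
  have h1 : Jᶜ = I ∪ (J ∪ I)ᶜ := by
    ext l
    simp only [Finset.mem_compl, Finset.mem_union]
    constructor
    · intro h; tauto
    · rintro (h | h)
      · exact Finset.mem_compl.mp (hI h)
      · tauto
  have h2 : Disjoint I (J ∪ I)ᶜ := by
    rw [Finset.disjoint_left]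
    intro l hl h
    rw [Finset.mem_compl, Finset.mem_union] at h
    tauto
  rw [h1, Finset.sum_union h2]
  have h3 : ∑ x ∈ I, o.1 x * Real.exp (τ * ξ x) = ∑ i ∈ I, v * Real.exp (τ * ξ i) :=
    Finset.sum_congr rfl (fun i hi => by rw [ho i hi])
  simp only
  rw [h3]
  ring

end Vale.Agent.P072
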