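import Vale.Agent.P072.Defs
import Vale.Agent.P072.Gauge

set_option autoImplicit false

namespace Vale.Agent.P072

open Finset Filter

variable {d : ℕ}

/-- pairing of a weight with a reaction vector -/
def gap (w : Fin d → ℝ) (r : (Fin d → ℕ) × (Fin d → ℕ)) : ℝ := ∑ i, w i * reactionVector r i

/-- pairing of a weight with a complex -/
def wt (w : Fin d → ℝ) (y : Fin d → ℕ) : ℝ := ∑ i, w i * (y i : ℝ)

theorem gap_eq (w : Fin d → ℝ) (r : (Fin d → ℕ) × (Fin d → ℕ)) :
    gap w r = wt w r.2 - wt w r.1 := by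
  unfold gap wt reactionVector
  rw [← Finset.sum_sub_distrib]
  exact Finset.sum_congr rfl (fun i _ => by ring)

/-- monomial -/
def mon (y : Fin d → ℕ) (x : Fin d → ℝ) : ℝ := ∏ i, x i ^ y i

theorem mon_pos (y : Fin d → ℕ) {x : Fin d → ℝ} (hx : ∀ i, 0 < x i) : 0 < mon y x :=
  Finset.prod_pos (fun i _ => pow_pos (hx i) _)

theorem mon_eq_exp (y : Fin d → ℕ) {x : Fin d → ℝ} (hx : ∀ i, 0 < x i) :
    mon y x = Real.exp (∑ i, (y i : ℝ) * Real.log (x i)) := by
  unfold mon
  rw [Real.exp_sum]
  apply Finset.prod_congr rfl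
  intro i _
  rw [← Real.log_pow, Real.exp_log (pow_pos (hx i) _)]

theorem pair_massAction (G : ReactionNetwork d) (k : (Fin d → ℕ) × (Fin d → ℕ) → ℝ)
    (w x : Fin d → ℝ) :
    ∑ i, w i * G.massAction k x i = ∑ r ∈ G.reactions, k r * mon r.1 x * gap w r := by
  unfold ReactionNetwork.massAction gap mon
  simp only [Finset.sum_apply, Pi.smul_apply, smul_eq_mul, Finset.mul_sum]
  rw [Finset.sum_comm]
  apply Finset.sum_congr rfl
  intro r _
  apply Finset.sum_congr rfl
  intro i _
  ring

/-- differences of complexes -/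
def diffs (G : ReactionNetwork d) : Set (Fin d → ℝ) :=
  {ν | ∃ y ∈ G.complexes, ∃ y' ∈ G.complexes, ν = fun i => (y i : ℝ) - (y' i : ℝ)}

theorem diffs_finite (G : ReactionNetwork d) : (diffs G).Finite := by
  have : diffs G ⊆ (fun p : (Fin d → ℕ) × (Fin d → ℕ) => fun i => (p.1 i : ℝ) - (p.2 i : ℝ)) ''
      ((G.complexes ×ˢ G.complexes : Finset _) : Set _) := by
    rintro ν ⟨y, hy, y', hy', rfl⟩
    exact ⟨(y, y'), by simp [hy, hy'], rfl⟩
  exact (Set.Finite.image _ (Finset.finite_toSet _)).subset this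

theorem crossing {α : Type*} {R : α → α → Prop} {P : α → Prop} {a b : α}
    (h : Relation.ReflTransGen R a b) (ha : P a) (hb : ¬ P b) :
    ∃ y y', R y y' ∧ P y ∧ ¬ P y' := by
  induction h using Relation.ReflTransGen.head_induction_on with
  | refl => exact absurd ha hb
  | @head a c hac _ ih =>
    by_cases hc : P c
    · exact ih hc
    · exact ⟨a, c, hac, ha, hc⟩

/-- For an upward reaction there is a downward reaction with a strictly higher source. -/
theorem exists_down {G : ReactionNetwork d} (hG : G.WeaklyReversible) (w : Fin d → ℝ)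
    {r : (Fin d → ℕ) × (Fin d → ℕ)} (hr : r ∈ G.reactions) (hup : 0 < gap w r) :
    ∃ r' ∈ G.reactions, gap w r' < 0 ∧ wt w r.1 < wt w r'.1 := by
  rw [gap_eq] at hup
  obtain ⟨y, y', hR, h1, h2⟩ := crossing (P := fun y => wt w r.1 < wt w y) (hG r hr)
    (by linarith) (lt_irrefl _)
  refine ⟨(y, y'), hR, ?_, h1⟩
  rw [gap_eq]
  simp only at h1 h2 ⊢
  linarith

/-- **Inward inequality.** -/
theorem inward {G : ReactionNetwork d} (hG : G.WeaklyReversible) {ε : ℝ} (hε : 0 < ε)
    (w : Fin d → ℝ) (hw : ∃ r ∈ G.reactions, gap w r ≠ 0) :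
    ∃ Δ : ℝ, ∃ c1 > 0, ∀ k : (Fin d → ℕ) × (Fin d → ℕ) → ℝ,
      (∀ r ∈ G.reactions, ε ≤ k r ∧ k r ≤ ε⁻¹) → ∀ x : Fin d → ℝ, (∀ i, 0 < x i) →
      (∀ ν ∈ diffs G, 0 < ∑ i, ν i * w i → Δ ≤ ∑ i, ν i * Real.log (x i)) →
      ∃ r' ∈ G.reactions, ∑ i, w i * G.massAction k x i ≤ - c1 * mon r'.1 x := by
  classical
  -- minimal gap
  obtain ⟨g, hg, hg'⟩ := finite_pos (S := (G.reactions : Set _)) (Finset.finite_toSet _)
    (fun r g => gap w r ≠ 0 → g ≤ |gap w r|) (fun r g g' _ hle h hne => le_trans hle (h hne))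
    (fun r _ => by
      by_cases h : gap w r = 0
      · exact ⟨1, one_pos, fun h' => absurd h h'⟩
      · exact ⟨|gap w r|, abs_pos.mpr h, fun _ => le_rfl⟩)
  set Gm : ℝ := ∑ r ∈ G.reactions, |gap w r| with hGm
  have hGm' : ∀ r ∈ G.reactions, |gap w r| ≤ Gm := fun r hr =>
    Finset.single_le_sum (f := fun r => |gap w r|) (fun _ _ => abs_nonneg _) hr
  have hGm0 : 0 ≤ Gm := Finset.sum_nonneg (fun _ _ => abs_nonneg _)
  set n : ℝ := ((G.reactions.card : ℕ) : ℝ) with hn
  have hn0 : 0 ≤ n := Nat.cast_nonneg _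
  set Kc : ℝ := 2 * n * Gm / (ε ^ 2 * g) + 1 with hKc
  have hKpos : 0 < Kc := by positivity
  -- the set of downward reactions
  set D := G.reactions.filter (fun r => gap w r < 0) with hD
  have hDne : D.Nonempty := by
    obtain ⟨r, hr, hne⟩ := hw
    rcases lt_or_gt_of_ne hne with h | h
    · exact ⟨r, Finset.mem_filter.mpr ⟨hr, h⟩⟩
    · obtain ⟨r', hr', h', _⟩ := exists_down hG w hr h
      exact ⟨r', Finset.mem_filter.mpr ⟨hr', h'⟩⟩
  refine ⟨Real.log Kc, ε * g / 2, by positivity, ?_⟩
  intro k hk x hx hcompat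
  obtain ⟨rs, hrs, hmax⟩ := Finset.exists_max_image D (fun r => mon r.1 x) hDne
  have hrsR := (Finset.mem_filter.mp hrs).1
  have hrsneg := (Finset.mem_filter.mp hrs).2
  refine ⟨rs, hrsR, ?_⟩
  set M := mon rs.1 x with hM
  have hMpos : 0 < M := mon_pos _ hx
  rw [pair_massAction]
  -- termwise bound
  have hterm : ∀ r ∈ G.reactions, k r * mon r.1 x * gap w r ≤
      (if r = rs then -(ε * g * M) else 0) + (Gm / (ε * Kc)) * M := by
    intro r hr
    have hkr := hk r hr
    have hkpos : 0 < k r := lt_of_lt_of_le hε hkr.1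
    have hmonpos := mon_pos r.1 hx
    have hrest : 0 ≤ (Gm / (ε * Kc)) * M := by positivity
    by_cases hrrs : r = rs
    · rw [if_pos hrrs, hrrs]
      have h1 : g ≤ |gap w rs| := hg' rs hrsR hrsneg.ne
      rw [abs_of_neg hrsneg] at h1
      have h2 : ε * g * M ≤ k rs * M * (-gap w rs) := by
        have hk1 := (hk rs hrsR).1
        calc ε * g * M = ε * M * g := by ring
          _ ≤ k rs * M * g := by
              apply mul_le_mul_of_nonneg_right _ hg.le
              exact mul_le_mul_of_nonneg_right hk1 hMpos.le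
          _ ≤ k rs * M * (-gap w rs) := by
              apply mul_le_mul_of_nonneg_left h1
              have : 0 < k rs := lt_of_lt_of_le hε hk1
              positivity
      rw [← hM]
      linarith
    · rw [if_neg hrrs, zero_add]
      rcases le_or_gt (gap w r) 0 with h | h
      · have : k r * mon r.1 x * gap w r ≤ 0 :=
          mul_nonpos_of_nonneg_of_nonpos (by positivity) h
        linarith
      · obtain ⟨r', hr', hneg', hlt⟩ := exists_down hG w hr h
        have hr'D : r' ∈ D := Finset.mem_filter.mpr ⟨hr', hneg'⟩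
        have h1 := hmax r' hr'D
        have h2 : 0 < ∑ i, ((r'.1 i : ℝ) - (r.1 i : ℝ)) * w i := by
          have h3 : ∑ i, ((r'.1 i : ℝ) - (r.1 i : ℝ)) * w i = wt w r'.1 - wt w r.1 := by
            unfold wt
            rw [← Finset.sum_sub_distrib]
            exact Finset.sum_congr rfl (fun i _ => by ring)
          rw [h3]
          linarith
        have h3 := hcompat (fun i => (r'.1 i : ℝ) - (r.1 i : ℝ))
          ⟨r'.1, G.source_mem r' hr', r.1, G.source_mem r hr, rfl⟩ h2
        have h4 : Kc * mon r.1 x ≤ mon r'.1 x := by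
          rw [mon_eq_exp _ hx, mon_eq_exp _ hx, ← Real.exp_log hKpos, ← Real.exp_add]
          apply Real.exp_le_exp.mpr
          have h5 : ∑ i, ((r'.1 i : ℝ) - (r.1 i : ℝ)) * Real.log (x i) =
              ∑ i, (r'.1 i : ℝ) * Real.log (x i) - ∑ i, (r.1 i : ℝ) * Real.log (x i) := by
            rw [← Finset.sum_sub_distrib]
            exact Finset.sum_congr rfl (fun i _ => by ring)
          rw [h5] at h3
          linarith
        have h5 : mon r.1 x ≤ M / Kc := by
          rw [le_div_iff₀ hKpos]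
          linarith
        have h6 : gap w r ≤ Gm := le_trans (le_abs_self _) (hGm' r hr)
        calc k r * mon r.1 x * gap w r ≤ ε⁻¹ * (M / Kc) * Gm := by
              apply mul_le_mul _ h6 h.le (by positivity)
              exact mul_le_mul hkr.2 h5 hmonpos.le (by positivity)
          _ = (Gm / (ε * Kc)) * M := by
              field_simp
  calc ∑ r ∈ G.reactions, k r * mon r.1 x * gap w r
      ≤ ∑ r ∈ G.reactions, ((if r = rs then -(ε * g * M) else 0) + (Gm / (ε * Kc)) * M) :=
        Finset.sum_le_sum hterm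
    _ = -(ε * g * M) + n * ((Gm / (ε * Kc)) * M) := by
        rw [Finset.sum_add_distrib, Finset.sum_ite_eq' G.reactions rs, if_pos hrsR,
          Finset.sum_const, nsmul_eq_mul]
    _ ≤ -(ε * g / 2) * M := by
        have h1 : n * (Gm / (ε * Kc)) ≤ ε * g / 2 := by
          have h2 : 2 * n * Gm / (ε ^ 2 * g) ≤ Kc := by rw [hKc]; linarith
          rw [div_le_iff₀ (by positivity)] at h2
          have h3 : n * (Gm / (ε * Kc)) = (n * Gm) / (ε * Kc) := by ring
          rw [h3, div_le_iff₀ (by positivity)]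
          nlinarith
        have h2 : n * ((Gm / (ε * Kc)) * M) = (n * (Gm / (ε * Kc))) * M := by ring
        rw [h2]
        have h3 := mul_le_mul_of_nonneg_right h1 hMpos.le
        linarith

end Vale.Agent.P072
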