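import Vale.Agent.P072.Step

set_option autoImplicit false
set_option linter.unusedSectionVars false

namespace Vale.Agent.P072

open Finset Filter

variable {ι : Type*} [Fintype ι] [DecidableEq ι]

theorem Block.child {N : Set (ι → ℝ)} {φ : ℝ} {J : Finset ι} {κ : ι → ℝ} {v : ℝ} {a : ℕ → ℝ}
    {R : Finset ι → ℝ} {Ws : Finset ι → Set ((ι → ℝ) × (ℝ → ℝ))}
    (hB : Block N φ J κ v a R Ws) {I : Finset ι} (h1 : I.Nonempty) (h2 : I ⊆ Jᶜ) {c0 : ℝ}
    (hm : MainProp N φ (J ∪ I) (upd κ I v) (v - a (Jᶜ.card - I.card)) (R I) (Ws I) c0) (C : ℝ) :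
    ∀ᶠ τ : ℝ in atTop, ∀ ξ : ι → ℝ, (∀ j ∈ J, |ξ j - κ j| ≤ R I) →
      (∀ i ∉ J, φ - C / τ ≤ ξ i) →
      (∀ i ∈ I, |ξ i - v| ≤ a (Jᶜ.card - I.card + 1) + C / τ) →
      (∀ l ∉ J, l ∉ I → ξ l ≤ v - a (Jᶜ.card - I.card) + C / τ) →
      ∀ o ∈ Ws I, (∀ o' ∈ Ws I, obj J τ ξ (lift a Jᶜ.card I.card v o') ≤
        obj J τ ξ (lift a Jᶜ.card I.card v o)) →
      ∀ ν ∈ N, 0 < ∑ i, ν i * o.1 i → c0 ≤ ∑ i, ν i * ξ i := by
  filter_upwards [hm C, ev_div_le C (hB.pos (Jᶜ.card - I.card + 1))] with τ hτ hC ξ hJ hlow hI hup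
    o ho hmax ν hν hpos
  refine hτ ξ ?_ ?_ o ho ?_ ν hν hpos
  · intro j hj
    by_cases hjI : j ∈ I
    · have : upd κ I v j = v := by simp [upd, hjI]
      rw [this]
      have h3 := hI j hjI
      have h4 := hB.tol I
      linarith
    · have hjJ : j ∈ J := by
        rcases Finset.mem_union.mp hj with h | h
        · exact h
        · exact absurd h hjI
      have : upd κ I v j = κ j := by simp [upd, hjI]
      rw [this]
      exact hJ j hjJ
  · intro i hi
    rw [Finset.mem_union, not_or] at hi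
    exact ⟨hlow i hi.1, hup i hi.1 hi.2⟩
  · intro o' ho'
    have h3 := hmax o' ho'
    rw [obj_lift h2 (hB.val_I h1 h2 ho'), obj_lift h2 (hB.val_I h1 h2 ho)] at h3
    linarith

/-- the family of options at a node -/
def famW (φ : ℝ) (J : Finset ι) (κ : ι → ℝ) (V : Finset ℝ) (a : ℝ → ℕ → ℝ)
    (Ws : ℝ → Finset ι → Set ((ι → ℝ) × (ℝ → ℝ))) : Set ((ι → ℝ) × (ℝ → ℝ)) :=
  {o | o = (upd κ Jᶜ φ, fun _ => (0 : ℝ)) ∨ ∃ v ∈ V, ∃ I : Finset ι, I.Nonempty ∧ I ⊆ Jᶜ ∧
    ∃ o' ∈ Ws v I, o = lift (a v) Jᶜ.card I.card v o'}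

theorem famW_lift {φ : ℝ} {J : Finset ι} {κ : ι → ℝ} {V : Finset ℝ} {a : ℝ → ℕ → ℝ}
    {Ws : ℝ → Finset ι → Set ((ι → ℝ) × (ℝ → ℝ))} {v : ℝ} (hv : v ∈ V) {I : Finset ι}
    (h1 : I.Nonempty) (h2 : I ⊆ Jᶜ) {o : (ι → ℝ) × (ℝ → ℝ)} (ho : o ∈ Ws v I) :
    lift (a v) Jᶜ.card I.card v o ∈ famW φ J κ V a Ws :=
  Or.inr ⟨v, hv, I, h1, h2, o, ho, rfl⟩

theorem famW_mix {N : Set (ι → ℝ)} {φ : ℝ} {J : Finset ι} {κ : ι → ℝ} {V : Finset ℝ}
    {a : ℝ → ℕ → ℝ} {R : ℝ → Finset ι → ℝ}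
    {Ws : ℝ → Finset ι → Set ((ι → ℝ) × (ℝ → ℝ))}
    (hB : ∀ v, Block N φ J κ v (a v) (R v) (Ws v)) {v : ℝ} (hv : v ∈ V) {I : Finset ι}
    (h2 : I ⊆ Jᶜ) :
    (mix κ J I v φ, costB (a v) Jᶜ.card I.card v) ∈ famW φ J κ V a Ws := by
  rcases I.eq_empty_or_nonempty with rfl | h1
  · left
    have h3 : mix κ J ∅ v φ = upd κ Jᶜ φ := by
      funext l
      simp [mix, upd]
    have h4 : costB (a v) Jᶜ.card (∅ : Finset ι).card v = fun _ => (0 : ℝ) := by
      funext τ
      simp [costB]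
    rw [h3, h4]
  · have h3 := famW_lift (φ := φ) (κ := κ) (a := a) hv h1 h2 ((hB v).mix_mem h1 h2)
    have h4 : lift (a v) Jᶜ.card I.card v (mix κ J I v φ, fun _ => (0 : ℝ)) =
        (mix κ J I v φ, costB (a v) Jᶜ.card I.card v) := by
      unfold lift
      simp
    rwa [h4] at h3

theorem step {N : Set (ι → ℝ)} (hN : N.Finite) {φ : ℝ} {J : Finset ι}
    (IH : ∀ J' : Finset ι, J ⊂ J' → ∀ (κ' : ι → ℝ) (g' : ℝ),
      ∃ r > 0, ∃ W, Good N φ J' κ' g' r W) (κ : ι → ℝ) (g : ℝ) :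
    ∃ r > 0, ∃ W, Good N φ J κ g r W := by
  classical
  obtain ⟨rφ, hrφ, hleaf⟩ := leaf_tol hN (upd κ Jᶜ φ)
  choose a R Ws hB using fun v => exists_block IH κ v
  set n := Jᶜ.card with hn
  set δ : ℝ → ℝ := fun v => if v = φ then rφ / 2 else a v n with hδ
  obtain ⟨V, hV1, hV2⟩ := exists_chain φ g δ (fun v _ => by
    simp only [hδ]
    split_ifs
    · linarith
    · exact (hB v).pos _)
  have hδV : ∀ v ∈ V, δ v = a v n := fun v hv => by
    simp only [hδ]
    rw [if_neg (hV1 v hv).1.ne']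
  have hδφ : δ φ = rφ / 2 := by simp [hδ]
  set S : Set (ℝ × Finset ι) := {p | p.1 ∈ V ∧ p.2.Nonempty ∧ p.2 ⊆ Jᶜ} with hS
  have hSfin : S.Finite := by
    apply Set.Finite.subset (V.finite_toSet.prod (Set.finite_univ (α := Finset ι)))
    rintro ⟨v, I⟩ h
    exact ⟨h.1, Set.mem_univ _⟩
  obtain ⟨r1, hr1, hr1'⟩ := finite_pos hSfin (fun p r => r ≤ R p.1 p.2)
    (fun p r r' _ hle h => le_trans hle h) (fun p hp => ⟨R p.1 p.2, (hB p.1).Rpos _, le_rfl⟩)
  set W := famW φ J κ V a Ws with hW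
  refine ⟨min r1 rφ, lt_min hr1 hrφ, W, ?_⟩
  constructor
  · -- finite
    have h3 : W ⊆ {(upd κ Jᶜ φ, fun _ => (0 : ℝ))} ∪
        ⋃ p ∈ S, (lift (a p.1) n p.2.card p.1) '' (Ws p.1 p.2) := by
      rintro o (rfl | ⟨v, hv, I, h1, h2, o', ho', rfl⟩)
      · left; rfl
      · right
        simp only [Set.mem_iUnion]
        exact ⟨(v, I), ⟨hv, h1, h2⟩, o', ho', rfl⟩
    apply Set.Finite.subset _ h3
    apply (Set.finite_singleton _).union
    apply hSfin.biUnion
    rintro ⟨v, I⟩ ⟨_, h1, h2⟩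
    exact ((hB v).good I h1 h2).finite.image _
  · -- on_J
    rintro o (rfl | ⟨v, hv, I, h1, h2, o', ho', rfl⟩) j hj
    · simp [upd, hj]
    · exact (hB v).val_J h1 h2 ho' j hj
  · -- lower
    rintro o (rfl | ⟨v, hv, I, h1, h2, o', ho', rfl⟩) j hj
    · simp [upd, hj]
    · exact (hB v).val_ge (hV1 v hv).1.le h1 h2 ho' j hj
  · -- upper
    rintro o (rfl | ⟨v, hv, I, h1, h2, o', ho', rfl⟩) j hj
    · simp [upd, hj]
    · exact le_trans ((hB v).val_le (hV1 v hv).1.le h1 h2 ho' j hj)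
        (le_trans (hV1 v hv).2 (le_max_right _ _))
  · -- cost_nonneg
    rintro o (rfl | ⟨v, hv, I, h1, h2, o', ho', rfl⟩) τ
    · exact le_rfl
    · simp only [lift]
      have := ((hB v).good I h1 h2).cost_nonneg o' ho' τ
      have := costB_nonneg (a v) Jᶜ.card I.card v τ
      linarith
  · -- cost_le
    rintro o (rfl | ⟨v, hv, I, h1, h2, o', ho', rfl⟩) τ hτ
    · exact mul_nonneg (Nat.cast_nonneg _) (Real.exp_pos _).le
    · simp only [lift]
      have h3 := ((hB v).good I h1 h2).cost_le o' ho' τ hτ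
      have h4 := costB_le (hB v).anti Jᶜ.card I.card v τ hτ
      have h5 : Real.exp ((v - a v Jᶜ.card) * τ) ≤ Real.exp (g * τ) := by
        apply Real.exp_le_exp.mpr
        apply mul_le_mul_of_nonneg_right _ hτ
        linarith [(hB v).pos Jᶜ.card, (hV1 v hv).2]
      have h6 : Real.exp ((v - a v (Jᶜ.card - I.card)) * τ) ≤ Real.exp (g * τ) := by
        apply Real.exp_le_exp.mpr
        apply mul_le_mul_of_nonneg_right _ hτ
        linarith [(hB v).pos (Jᶜ.card - I.card), (hV1 v hv).2]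
      have h7 : ((J ∪ I)ᶜ.card : ℝ) = (Jᶜ.card : ℝ) - I.card := by
        have h8 : (J ∪ I)ᶜ = Jᶜ \ I := by
          ext l
          simp only [Finset.mem_compl, Finset.mem_union, Finset.mem_sdiff]
          tauto
        rw [h8, Finset.card_sdiff_of_subset h2, Nat.cast_sub (Finset.card_le_card h2)]
      have h9 : (I.card : ℝ) ≤ Jᶜ.card := by exact_mod_cast Finset.card_le_card h2
      have h10 : (0 : ℝ) ≤ I.card := Nat.cast_nonneg _
      calc costB (a v) Jᶜ.card I.card v τ + o'.2 τ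
          ≤ I.card * Real.exp ((v - a v Jᶜ.card) * τ) +
            (J ∪ I)ᶜ.card * Real.exp ((v - a v (Jᶜ.card - I.card)) * τ) := add_le_add h4 h3
        _ ≤ I.card * Real.exp (g * τ) + ((Jᶜ.card : ℝ) - I.card) * Real.exp (g * τ) := by
            rw [h7]
            apply add_le_add
            · exact mul_le_mul_of_nonneg_left h5 h10
            · exact mul_le_mul_of_nonneg_left h6 (by linarith)
        _ = Jᶜ.card * Real.exp (g * τ) := by ring
  · -- smooth
    rintro o (rfl | ⟨v, hv, I, h1, h2, o', ho', rfl⟩)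
    · exact contDiff_const
    · exact (costB_smooth (a v) Jᶜ.card I.card v).add (((hB v).good I h1 h2).smooth o' ho')
  · -- floor_mem
    exact Or.inl rfl
  · -- main
    obtain ⟨c1, hc1, hc1'⟩ := finite_pos hSfin
      (fun p c => MainProp N φ (J ∪ p.2) (upd κ p.2 p.1) (p.1 - a p.1 (n - p.2.card))
        (R p.1 p.2) (Ws p.1 p.2) c)
      (fun p r r' _ hle h => MainProp.mono hle h)
      (fun p hp => ((hB p.1).good p.2 hp.2.1 hp.2.2).main)
    refine ⟨min c1 rφ, lt_min hc1 hrφ, fun C => ?_⟩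
    -- (i) upper bounds
    have hi : ∀ v ∈ insert φ V, ∃ C1 : ℝ, ∀ τ : ℝ, 0 < τ → ∀ ξ : ι → ℝ,
        (∀ i ∉ J, ξ i ≤ g + C / τ) → ∀ o : (ι → ℝ) × (ℝ → ℝ), (∀ i ∉ J, o.1 i ≤ v) →
        0 ≤ o.2 τ → (∀ o' ∈ W, obj J τ ξ o' ≤ obj J τ ξ o) → ∀ l ∉ J,
        ξ l ≤ v + δ v + C1 / τ := by
      intro v hv
      rcases hV2 v hv with h | ⟨v', hv', h1, h2⟩
      · refine ⟨C, fun τ hτ ξ hξ o _ _ _ l hl => ?_⟩
        linarith [hξ l hl]
      · refine ⟨Real.log (n / (v' - v)), fun τ hτ ξ hξ o hov ho2 hmax l hl => ?_⟩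
        have hn0 : 0 < n := Finset.card_pos.mpr ⟨l, Finset.mem_compl.mpr hl⟩
        have hn0' : (0 : ℝ) < n := by exact_mod_cast hn0
        have h3 := upper_of_tie (hB v').anti hτ.le (T := (mix κ J Jᶜ v' φ,
          costB (a v') Jᶜ.card Jᶜ.card v')) h1.le
          (fun i hi => mix_mem_I (Finset.mem_compl.mpr hi)) le_rfl hov ho2
          (hmax _ (famW_mix hB hv' (Finset.Subset.refl _))) hl
        have h4 : Real.exp (τ * ξ l) ≤ (n / (v' - v)) * Real.exp ((v' - a v' n) * τ) := by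
          rw [div_mul_eq_mul_div, le_div_iff₀ (by linarith)]
          linarith
        have h5 := le_of_exp_le hτ (div_pos hn0' (by linarith)) h4
        rw [hδV v' hv'] at h2
        linarith
    choose! C1 hC1 using hi
    -- the floor element
    have hF : ∀ᶠ τ : ℝ in atTop, ∀ ξ : ι → ℝ, (∀ j ∈ J, |ξ j - κ j| ≤ min r1 rφ) →
        (∀ i ∉ J, φ - C / τ ≤ ξ i ∧ ξ i ≤ g + C / τ) →
        (∀ o' ∈ W, obj J τ ξ o' ≤ obj J τ ξ (upd κ Jᶜ φ, fun _ => (0 : ℝ))) →
        ∀ ν ∈ N, 0 < ∑ i, ν i * upd κ Jᶜ φ i → min c1 rφ ≤ ∑ i, ν i * ξ i := by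
      filter_upwards [eventually_gt_atTop 0, ev_div_le C hrφ,
        ev_div_le (C1 φ) (half_pos hrφ)] with τ hτ h1 h2 ξ hξJ hξ hmax ν hν hpos
      refine le_trans (min_le_right _ _) (hleaf ν hν ξ ?_ hpos)
      intro j
      by_cases hj : j ∈ J
      · have : upd κ Jᶜ φ j = κ j := by simp [upd, hj]
        rw [this]
        exact le_trans (hξJ j hj) (min_le_right _ _)
      · have : upd κ Jᶜ φ j = φ := by simp [upd, hj]
        rw [this, abs_le]
        have h3 := hC1 φ (Finset.mem_insert_self _ _) τ hτ ξ (fun i hi => (hξ i hi).2)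
          (upd κ Jᶜ φ, fun _ => (0 : ℝ)) (fun i hi => by simp [upd, hi]) le_rfl hmax j hj
        rw [hδφ] at h3
        have h4 := (hξ j hj).1
        constructor <;> linarith
    -- the blocks
    have hP : ∀ᶠ τ : ℝ in atTop, ∀ p ∈ S, ∀ ξ : ι → ℝ, (∀ j ∈ J, |ξ j - κ j| ≤ min r1 rφ) →
        (∀ i ∉ J, φ - C / τ ≤ ξ i ∧ ξ i ≤ g + C / τ) →
        ∀ o ∈ Ws p.1 p.2, (∀ o' ∈ W, obj J τ ξ o' ≤ obj J τ ξ
          (lift (a p.1) n p.2.card p.1 o)) →
        ∀ ν ∈ N, 0 < ∑ i, ν i * o.1 i → min c1 rφ ≤ ∑ i, ν i * ξ i := by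
      rw [Filter.eventually_all_finite hSfin]
      rintro ⟨v, I⟩ ⟨hv, h1, h2⟩
      simp only
      have hφv : φ < v := (hV1 v hv).1
      have hn0 : 0 < n := by
        obtain ⟨i, hi⟩ := h1
        exact Finset.card_pos.mpr ⟨i, h2 hi⟩
      have hn0' : (0 : ℝ) < n := by exact_mod_cast hn0
      set η := min (v - φ) (a v (n - I.card)) with hη
      have hηpos : 0 < η := lt_min (by linarith) ((hB v).pos _)
      set C' := max (max C (C1 v)) (max (Real.log (n / η)) (Real.log (2 * (v - φ)))) with hC'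
      have e1 : C ≤ C' := le_trans (le_max_left _ _) (le_max_left _ _)
      have e2 : C1 v ≤ C' := le_trans (le_max_right _ _) (le_max_left _ _)
      have e3 : Real.log (n / η) ≤ C' := le_trans (le_max_left _ _) (le_max_right _ _)
      have e4 : Real.log (2 * (v - φ)) ≤ C' := le_trans (le_max_right _ _) (le_max_right _ _)
      filter_upwards [eventually_gt_atTop 0, (hB v).child h1 h2 (hc1' (v, I) ⟨hv, h1, h2⟩) C',
        (hB v).member hφv h1 h2] with τ hτ hchild hmem ξ hξJ hξ o ho hmax ν hν hpos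
      have f1 : C / τ ≤ C' / τ := div_le_div_of_nonneg_right e1 hτ.le
      have f2 : C1 v / τ ≤ C' / τ := div_le_div_of_nonneg_right e2 hτ.le
      have f3 : Real.log (n / η) / τ ≤ C' / τ := div_le_div_of_nonneg_right e3 hτ.le
      have f4 : Real.log (2 * (v - φ)) / τ ≤ C' / τ := div_le_div_of_nonneg_right e4 hτ.le
      have hnonneg : 0 ≤ (lift (a v) n I.card v o).2 τ := by
        simp only [lift]
        have := ((hB v).good I h1 h2).cost_nonneg o ho τ
        have := costB_nonneg (a v) n I.card v τ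
        linarith
      have htie : obj J τ ξ (lift (a v) Jᶜ.card Jᶜ.card v (mix κ J Jᶜ v φ, fun _ => (0 : ℝ))) ≤
          obj J τ ξ (lift (a v) Jᶜ.card I.card v o) := by
        have h3 := hmax _ (famW_mix hB hv (Finset.Subset.refl Jᶜ))
        have h4 : lift (a v) Jᶜ.card Jᶜ.card v (mix κ J Jᶜ v φ, fun _ => (0 : ℝ)) =
            (mix κ J Jᶜ v φ, costB (a v) Jᶜ.card Jᶜ.card v) := by
          unfold lift
          simp
        rw [h4]
        exact h3
      have hup := hC1 v (Finset.mem_insert_of_mem hv) τ hτ ξ (fun i hi => (hξ i hi).2)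
        (lift (a v) n I.card v o) (fun i hi => (hB v).val_le hφv.le h1 h2 ho i hi) hnonneg hmax
      refine le_trans (min_le_left _ _) (hchild ξ ?_ ?_ ?_ ?_ o ho ?_ ν hν hpos)
      · intro j hj
        exact le_trans (hξJ j hj) (le_trans (min_le_left _ _) (hr1' (v, I) ⟨hv, h1, h2⟩))
      · intro i hi
        linarith [(hξ i hi).1]
      · intro i hi
        have hiJ : i ∉ J := Finset.mem_compl.mp (h2 hi)
        have g1 := hup i hiJ
        rw [hδV v hv] at g1
        have g2 := hmem ξ o ho htie i hi (hmax _ (famW_mix hB hv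
          (fun l hl => h2 (Finset.mem_of_mem_erase hl))))
        have g3 : a v n ≤ a v (Jᶜ.card - I.card + 1) := by
          apply (anti_of_succ (hB v).anti).antitone
          have h5 : I.card ≤ Jᶜ.card := Finset.card_le_card h2
          have h6 : 0 < I.card := Finset.card_pos.mpr h1
          omega
        rw [abs_le]
        constructor <;> linarith
      · intro l hl hl'
        have g1 := (hB v).below hφv h1 h2 hτ ho htie hl hl'
        have g2 := le_of_exp_le hτ (div_pos hn0' hηpos) g1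
        linarith
      · intro o' ho'
        exact hmax _ (famW_lift hv h1 h2 ho')
    filter_upwards [hF, hP] with τ hF hP ξ hξJ hξ o ho hmax ν hν hpos
    rcases ho with rfl | ⟨v, hv, I, h1, h2, o', ho', rfl⟩
    · exact hF ξ hξJ hξ hmax ν hν hpos
    · exact hP (v, I) ⟨hv, h1, h2⟩ ξ hξJ hξ o' ho' hmax ν hν hpos

/-- **Main induction**: good families of options exist in every context. -/
theorem exists_good {N : Set (ι → ℝ)} (hN : N.Finite) (φ : ℝ) :
    ∀ (J : Finset ι) (κ : ι → ℝ) (g : ℝ), ∃ r > 0, ∃ W, Good N φ J κ g r W := by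
  have key : ∀ (k : ℕ) (J : Finset ι), Jᶜ.card = k → ∀ (κ : ι → ℝ) (g : ℝ),
      ∃ r > 0, ∃ W, Good N φ J κ g r W := by
    intro k
    induction k using Nat.strong_induction_on with
    | _ k ih =>
      intro J hJ κ g
      apply step hN _ κ g
      intro J' hJJ' κ' g'
      have h1 : J'ᶜ.card < k := by
        rw [← hJ]
        exact Finset.card_lt_card (Finset.compl_ssubset_compl.mpr hJJ')
      exact ih _ h1 J' rfl κ' g'
  intro J κ g
  exact key _ J rfl κ g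

end Vale.Agent.P072
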