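import Mathlib

set_option autoImplicit false

namespace Vale.Agent.P072

open MeasureTheory Filter Set

open scoped BoundedContinuousFunction Topology NNReal

section Existence

variable {E : Type*} [NormedAddCommGroup E] [NormedSpace ℝ E]

theorem integral_exp_le {l D T : ℝ} (hl : 0 < l) (hD : 0 ≤ D) :
    ∫ s in (0 : ℝ)..T, D * Real.exp (l * s) ≤ D / l * Real.exp (l * T) := by
  have h1 : ∀ s ∈ Set.uIcc (0 : ℝ) T, HasDerivAt (fun s => D / l * Real.exp (l * s))
      (D * Real.exp (l * s)) s := by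
    intro s _
    have h2 : HasDerivAt (fun s => l * s) l s := by
      simpa using (hasDerivAt_id s).const_mul l
    have h3 := (h2.exp).const_mul (D / l)
    have h4 : D * Real.exp (l * s) = D / l * (Real.exp (l * s) * l) := by
      field_simp
    rw [h4]
    exact h3
  have hcont : Continuous (fun s => D * Real.exp (l * s)) := by fun_prop
  rw [intervalIntegral.integral_eq_sub_of_hasDerivAt h1 (hcont.intervalIntegrable _ _)]
  have : 0 ≤ D / l * Real.exp (l * 0) := by positivity
  linarith

/-- Global existence for Carathéodory-type integral equations with bounded, globally Lipschitz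
right-hand side. -/
theorem exists_sol [CompleteSpace E] (F : ℝ → E → E) {M L : ℝ} (hM0 : 0 ≤ M) (hL0 : 0 ≤ L)
    (hint : ∀ y : ℝ → E, Continuous y → ∀ a b, IntervalIntegrable (fun s => F s (y s)) volume a b)
    (hM : ∀ s x, ‖F s x‖ ≤ M) (hL : ∀ s x y, ‖F s x - F s y‖ ≤ L * ‖x - y‖) (x0 : E) :
    ∃ x : ℝ → E, Continuous x ∧ x 0 = x0 ∧
      ∀ t, 0 ≤ t → x t = x0 + ∫ s in (0 : ℝ)..t, F s (x s) := by
  set l : ℝ := 2 * L + 1 with hl
  have hlpos : 0 < l := by linarith
  -- the path attached to y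
  let p : (ℝ →ᵇ E) → ℝ → E := fun y s => x0 + Real.exp (l * s) • y s
  have hp : ∀ y : ℝ →ᵇ E, Continuous (p y) := by
    intro y
    have := y.continuous
    show Continuous (fun s => x0 + Real.exp (l * s) • y s)
    fun_prop
  let P : (ℝ →ᵇ E) → ℝ → E := fun y t => ∫ s in (0 : ℝ)..(max t 0), F s (p y s)
  have hP : ∀ y : ℝ →ᵇ E, Continuous (P y) := by
    intro y
    have h1 := intervalIntegral.continuous_primitive (hint (p y) (hp y)) 0
    exact h1.comp (continuous_id.max continuous_const)
  have hPb : ∀ (y : ℝ →ᵇ E) (t : ℝ), ‖P y t‖ ≤ M * max t 0 := by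
    intro y t
    have h1 : ‖P y t‖ ≤ M * |max t 0 - 0| :=
      intervalIntegral.norm_integral_le_of_norm_le_const (fun s _ => hM s _)
    rwa [sub_zero, abs_of_nonneg (le_max_right _ _)] at h1
  have hexp : ∀ T : ℝ, 0 ≤ T → Real.exp (-(l * T)) * (M * T) ≤ M / l := by
    intro T hT
    have h1 : l * T ≤ Real.exp (l * T) := by linarith [Real.add_one_le_exp (l * T)]
    have h2 : Real.exp (-(l * T)) * Real.exp (l * T) = 1 := by
      rw [← Real.exp_add]; simp
    have h3 : Real.exp (-(l * T)) * (l * T) ≤ 1 := by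
      rw [← h2]
      exact mul_le_mul_of_nonneg_left h1 (Real.exp_pos _).le
    rw [le_div_iff₀ hlpos]
    calc Real.exp (-(l * T)) * (M * T) * l = M * (Real.exp (-(l * T)) * (l * T)) := by ring
      _ ≤ M * 1 := mul_le_mul_of_nonneg_left h3 hM0
      _ = M := mul_one M
  let Φ : (ℝ →ᵇ E) → (ℝ →ᵇ E) := fun y =>
    BoundedContinuousFunction.ofNormedAddCommGroup
      (fun t => Real.exp (-(l * max t 0)) • P y t)
      (by
        have := hP y
        have h2 : Continuous (fun t : ℝ => max t 0) := continuous_id.max continuous_const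
        have h3 : Continuous (fun t : ℝ => Real.exp (-(l * max t 0))) := by fun_prop
        exact h3.smul this) (M / l)
      (by
        intro t
        rw [norm_smul, Real.norm_of_nonneg (Real.exp_pos _).le]
        refine le_trans (mul_le_mul_of_nonneg_left (hPb y t) (Real.exp_pos _).le) ?_
        exact hexp _ (le_max_right _ _))
  have hΦ : ∀ y t, Φ y t = Real.exp (-(l * max t 0)) • P y t := fun y t => rfl
  have hcontr : ContractingWith (1 / 2 : ℝ≥0) Φ := by
    refine ⟨by
      rw [← NNReal.coe_lt_coe]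
      norm_num, LipschitzWith.of_dist_le_mul fun y z => ?_⟩
    rw [BoundedContinuousFunction.dist_le (by positivity)]
    intro t
    rw [hΦ, hΦ, dist_eq_norm, ← smul_sub, norm_smul, Real.norm_of_nonneg (Real.exp_pos _).le]
    set T := max t 0 with hT
    have hT0 : 0 ≤ T := le_max_right _ _
    set D := dist y z with hD
    have hD0 : 0 ≤ D := dist_nonneg
    have h1 : P y t - P z t = ∫ s in (0 : ℝ)..T, (F s (p y s) - F s (p z s)) := by
      rw [intervalIntegral.integral_sub (hint _ (hp y) _ _) (hint _ (hp z) _ _)]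
    have h2 : ‖∫ s in (0 : ℝ)..T, (F s (p y s) - F s (p z s))‖ ≤
        |∫ s in (0 : ℝ)..T, (L * D) * Real.exp (l * s)| := by
      have hc : Continuous (fun s => (L * D) * Real.exp (l * s)) := by fun_prop
      apply intervalIntegral.norm_integral_le_abs_of_norm_le _ (hc.intervalIntegrable _ _)
      refine Filter.Eventually.of_forall (fun s => ?_)
      refine le_trans (hL s _ _) ?_
      have h3 : p y s - p z s = Real.exp (l * s) • (y s - z s) := by
        simp only [p]
        rw [smul_sub]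
        abel
      rw [h3, norm_smul, Real.norm_of_nonneg (Real.exp_pos _).le]
      have h4 : ‖y s - z s‖ ≤ D := by
        rw [← dist_eq_norm]
        exact BoundedContinuousFunction.dist_coe_le_dist s
      calc L * (Real.exp (l * s) * ‖y s - z s‖) ≤ L * (Real.exp (l * s) * D) := by
            apply mul_le_mul_of_nonneg_left _ hL0
            exact mul_le_mul_of_nonneg_left h4 (Real.exp_pos _).le
        _ = (L * D) * Real.exp (l * s) := by ring
    have h3 : 0 ≤ ∫ s in (0 : ℝ)..T, (L * D) * Real.exp (l * s) :=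
      intervalIntegral.integral_nonneg hT0 (fun s _ => by positivity)
    rw [abs_of_nonneg h3] at h2
    have h4 := integral_exp_le (T := T) hlpos (mul_nonneg hL0 hD0)
    rw [h1]
    have h5 : Real.exp (-(l * T)) * Real.exp (l * T) = 1 := by
      rw [← Real.exp_add]; simp
    have h6 : L / l ≤ 1 / 2 := by
      rw [div_le_div_iff₀ hlpos (by norm_num)]
      linarith
    calc Real.exp (-(l * T)) * ‖∫ s in (0 : ℝ)..T, (F s (p y s) - F s (p z s))‖
        ≤ Real.exp (-(l * T)) * (L * D / l * Real.exp (l * T)) :=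
          mul_le_mul_of_nonneg_left (le_trans h2 h4) (Real.exp_pos _).le
      _ = (L / l) * D * (Real.exp (-(l * T)) * Real.exp (l * T)) := by ring
      _ = (L / l) * D := by rw [h5, mul_one]
      _ ≤ 1 / 2 * D := mul_le_mul_of_nonneg_right h6 hD0
      _ = ((1 / 2 : ℝ≥0) : ℝ) * D := by norm_num
  obtain ⟨y, hy, -⟩ := hcontr.exists_fixedPoint 0 (edist_ne_top _ _)
  have hy' : Φ y = y := hy
  have key : ∀ t, 0 ≤ t → x0 + P y t = p y t := by
    intro t ht
    have h1 : y t = Real.exp (-(l * t)) • P y t := by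
      have h2 := hΦ y t
      rw [hy', max_eq_left ht] at h2
      exact h2
    show x0 + P y t = x0 + Real.exp (l * t) • y t
    rw [h1, smul_smul, ← Real.exp_add]
    simp
  refine ⟨fun t => x0 + P y t, by
    have := hP y
    exact continuous_const.add this, ?_, ?_⟩
  · simp [P]
  · intro t ht
    show x0 + P y t = x0 + ∫ s in (0 : ℝ)..t, F s (x0 + P y s)
    congr 1
    have h1 : P y t = ∫ s in (0 : ℝ)..t, F s (p y s) := by
      simp only [P]
      rw [max_eq_left ht]
    rw [h1]
    apply intervalIntegral.integral_congr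
    intro s hs
    rw [Set.uIcc_of_le ht] at hs
    simp only
    rw [key s hs.1]

/-- Uniqueness for integral equations with a Lipschitz right-hand side. -/
theorem unique_sol (F : ℝ → E → E) {L b : ℝ} (hL0 : 0 ≤ L)
    (hL : ∀ s x y, ‖F s x - F s y‖ ≤ L * ‖x - y‖) {x y : ℝ → E} {x0 : E}
    (hx : ContinuousOn x (Icc 0 b)) (hy : ContinuousOn y (Icc 0 b))
    (hxi : ∀ t ∈ Icc 0 b, IntervalIntegrable (fun s => F s (x s)) volume 0 t)
    (hyi : ∀ t ∈ Icc 0 b, IntervalIntegrable (fun s => F s (y s)) volume 0 t)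
    (hxe : ∀ t ∈ Icc 0 b, x t = x0 + ∫ s in (0 : ℝ)..t, F s (x s))
    (hye : ∀ t ∈ Icc 0 b, y t = x0 + ∫ s in (0 : ℝ)..t, F s (y s)) :
    ∀ t ∈ Icc 0 b, x t = y t := by
  intro t0 ht0
  set l : ℝ := 2 * L + 1 with hl
  have hlpos : 0 < l := by linarith
  have hcont : ContinuousOn (fun t => Real.exp (-(l * t)) * ‖x t - y t‖) (Icc 0 b) := by
    apply ContinuousOn.mul
    · fun_prop
    · exact (hx.sub hy).norm
  obtain ⟨t1, ht1, hmax⟩ := isCompact_Icc.exists_isMaxOn (Set.nonempty_of_mem ht0) hcont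
  set m := Real.exp (-(l * t1)) * ‖x t1 - y t1‖ with hm
  have hm0 : 0 ≤ m := by positivity
  have hle : ∀ s ∈ Icc 0 b, ‖x s - y s‖ ≤ m * Real.exp (l * s) := by
    intro s hs
    have h1 : Real.exp (-(l * s)) * ‖x s - y s‖ ≤ m := hmax hs
    have h2 : Real.exp (l * s) * Real.exp (-(l * s)) = 1 := by
      rw [← Real.exp_add]; simp
    calc ‖x s - y s‖ = (Real.exp (l * s) * Real.exp (-(l * s))) * ‖x s - y s‖ := by
          rw [h2, one_mul]
      _ = Real.exp (l * s) * (Real.exp (-(l * s)) * ‖x s - y s‖) := by ring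
      _ ≤ Real.exp (l * s) * m := mul_le_mul_of_nonneg_left h1 (Real.exp_pos _).le
      _ = m * Real.exp (l * s) := by ring
  have h1 : x t1 - y t1 = ∫ s in (0 : ℝ)..t1, (F s (x s) - F s (y s)) := by
    rw [intervalIntegral.integral_sub (hxi t1 ht1) (hyi t1 ht1), hxe t1 ht1, hye t1 ht1]
    abel
  have h2 : ‖∫ s in (0 : ℝ)..t1, (F s (x s) - F s (y s))‖ ≤
      |∫ s in (0 : ℝ)..t1, (L * m) * Real.exp (l * s)| := by
    have hc : Continuous (fun s => (L * m) * Real.exp (l * s)) := by fun_prop
    apply intervalIntegral.norm_integral_le_abs_of_norm_le _ (hc.intervalIntegrable _ _)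
    refine ae_restrict_of_forall_mem measurableSet_uIoc (fun s hs => ?_)
    rw [Set.uIoc_of_le ht1.1] at hs
    refine le_trans (hL s _ _) ?_
    have h3 := hle s ⟨hs.1.le, hs.2.trans ht1.2⟩
    calc L * ‖x s - y s‖ ≤ L * (m * Real.exp (l * s)) := mul_le_mul_of_nonneg_left h3 hL0
      _ = (L * m) * Real.exp (l * s) := by ring
  have h3 : 0 ≤ ∫ s in (0 : ℝ)..t1, (L * m) * Real.exp (l * s) :=
    intervalIntegral.integral_nonneg ht1.1 (fun s _ => by positivity)
  rw [abs_of_nonneg h3, ← h1] at h2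
  have h4 := integral_exp_le (T := t1) hlpos (mul_nonneg hL0 hm0)
  have h5 : Real.exp (-(l * t1)) * Real.exp (l * t1) = 1 := by
    rw [← Real.exp_add]; simp
  have h6 : L / l ≤ 1 / 2 := by
    rw [div_le_div_iff₀ hlpos (by norm_num)]
    linarith
  have h7 : m ≤ 1 / 2 * m := by
    calc m = Real.exp (-(l * t1)) * ‖x t1 - y t1‖ := hm
      _ ≤ Real.exp (-(l * t1)) * (L * m / l * Real.exp (l * t1)) :=
          mul_le_mul_of_nonneg_left (le_trans h2 h4) (Real.exp_pos _).le
      _ = (L / l) * m * (Real.exp (-(l * t1)) * Real.exp (l * t1)) := by ring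
      _ = (L / l) * m := by rw [h5, mul_one]
      _ ≤ 1 / 2 * m := mul_le_mul_of_nonneg_right h6 hm0
  have h8 : m = 0 := by linarith
  have h9 := hle t0 ht0
  rw [h8, zero_mul] at h9
  exact sub_eq_zero.mp (norm_le_zero_iff.mp h9)

end Existence

end Vale.Agent.P072
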