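import Vale.Agent.P072.Wall

set_option autoImplicit false
set_option linter.unusedSectionVars false

namespace Vale.Agent.P072

open Finset Filter

theorem ev_logexp {x τ : ℝ} (hx : 0 < x) (hτ : 0 < τ) : Real.exp (τ * (Real.log x / τ)) = x := by
  rw [mul_div_cancel₀ _ hτ.ne', Real.exp_log hx]

variable {ι : Type*} [Fintype ι] [DecidableEq ι]

theorem exists_scales_one (R : Finset ι → ℝ → ℝ) (hR : ∀ I a, 0 < R I a) :
    ∃ a : ℕ → ℝ, a 0 = 1 ∧ (∀ k, 0 < a k) ∧ (∀ k, a (k + 1) < a k) ∧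
      ∀ k I, 2 * a (k + 1) ≤ R I (a k) := by
  have h : ∀ x : ℝ, ∃ y : ℝ, 0 < x → (0 < y ∧ y < x ∧ ∀ I, 2 * y ≤ R I x) := by
    intro x
    by_cases hx : 0 < x
    · obtain ⟨r, hr, h⟩ := finite_pos (S := (Set.univ : Set (Finset ι))) Set.finite_univ
        (fun I r => 2 * r ≤ R I x) (fun I r r' _ hle h => by linarith)
        (fun I _ => ⟨R I x / 2, by linarith [hR I x], by linarith⟩)
      refine ⟨min r (x / 2), fun _ => ⟨lt_min hr (by linarith), ?_, ?_⟩⟩
      · exact lt_of_le_of_lt (min_le_right _ _) (by linarith)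
      · intro I
        have := h I (Set.mem_univ _)
        have h2 := min_le_left r (x / 2)
        linarith
    · exact ⟨0, fun hx' => absurd hx' hx⟩
  choose F hF using h
  have hpos : ∀ k : ℕ, 0 < F^[k] 1 := by
    intro k
    induction k with
    | zero => exact one_pos
    | succ k ih =>
      rw [Function.iterate_succ_apply']
      exact (hF _ ih).1
  refine ⟨fun k => F^[k] 1, rfl, hpos, ?_, ?_⟩
  · intro k
    simp only [Function.iterate_succ_apply']
    exact (hF _ (hpos k)).2.1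
  · intro k I
    simp only [Function.iterate_succ_apply']
    exact (hF _ (hpos k)).2.2 I

/-- the conclusion of the wall lemma, packaged -/
structure IsWall (N : Set (ι → ℝ)) (φ σ : ℝ) (J : Finset ι) (r : ℝ)
    (W : Set ((ι → ℝ) × (ℝ → ℝ))) : Prop where
  rpos : 0 < r
  finite : W.Finite
  zero : ∀ o ∈ W, ∀ i ∈ J, o.1 i = 0
  rng : ∀ o ∈ W, ∀ i ∉ J, φ ≤ o.1 i ∧ o.1 i ≤ σ
  cost : ∀ o ∈ W, ∀ τ, 0 ≤ o.2 τ
  smooth : ∀ o ∈ W, ContDiff ℝ 1 o.2
  tie : ∃ θ > 0, ∃ T ∈ W, (∀ i ∉ J, T.1 i = σ) ∧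
        ∀ τ, 0 ≤ τ → T.2 τ ≤ Jᶜ.card * Real.exp ((σ - θ) * τ)
  main : ∃ c0 > 0, ∀ C : ℝ, ∀ᶠ τ : ℝ in atTop, ∀ ξ : ι → ℝ, (∀ i ∈ J, |ξ i| ≤ r) →
        (∀ i ∉ J, φ - C / τ ≤ ξ i) → ∀ o ∈ W,
        (∀ o' ∈ W, obj J τ ξ o' ≤ σ * Real.exp (σ * τ)) →
        obj J τ ξ o = σ * Real.exp (σ * τ) →
        ∀ ν ∈ N, 0 < ∑ i, ν i * o.1 i → c0 ≤ ∑ i, ν i * ξ i

theorem exists_wall {N : Set (ι → ℝ)} (hN : N.Finite) {φ σ : ℝ} {J : Finset ι}
    (hJ : Jᶜ.Nonempty) (hσ : σ ≠ 0) (hφσ : φ ≤ σ) (hcase : Jᶜ.card = 1 ∨ φ < σ) :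
    ∃ r W, IsWall N φ σ J r W := by
  obtain ⟨r, hr, W, h1, h2, h3, h4, h5, h6, h7⟩ := wall hN hJ hσ hφσ hcase
  exact ⟨r, W, hr, h1, h2, h3, h4, h5, h6, h7⟩

namespace IsWall

variable {N : Set (ι → ℝ)} {φ σ r : ℝ} {J : Finset ι} {W : Set ((ι → ℝ) × (ℝ → ℝ))}

theorem obj_eq (h : IsWall N φ σ J r W) {τ : ℝ} (hτ : 0 < τ) {x : ι → ℝ} (hx : ∀ i, 0 < x i)
    {o : (ι → ℝ) × (ℝ → ℝ)} (ho : o ∈ W) :
    obj J τ (fun i => Real.log (x i) / τ) o = ∑ i, o.1 i * x i - o.2 τ := by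
  unfold obj
  have h1 : ∑ i, o.1 i * x i = ∑ i ∈ Jᶜ, o.1 i * x i := by
    rw [← Finset.sum_add_sum_compl J]
    have : ∑ i ∈ J, o.1 i * x i = 0 := by
      apply Finset.sum_eq_zero
      intro i hi
      rw [h.zero o ho i hi, zero_mul]
    rw [this, zero_add]
  rw [h1]
  congr 1
  apply Finset.sum_congr rfl
  intro i _
  rw [ev_logexp (hx i) hτ]

theorem sum_eq (h : IsWall N φ σ J r W) (x : ι → ℝ) {o : (ι → ℝ) × (ℝ → ℝ)} (ho : o ∈ W) :
    ∑ i, o.1 i * x i = ∑ i ∈ Jᶜ, o.1 i * x i := by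
  rw [← Finset.sum_add_sum_compl J]
  have : ∑ i ∈ J, o.1 i * x i = 0 := by
    apply Finset.sum_eq_zero
    intro i hi
    rw [h.zero o ho i hi, zero_mul]
  rw [this, zero_add]

/-- lower walls keep the block sum from below -/
theorem lower_sum (h : IsWall N φ σ J r W) (hσ : σ < 0) :
    ∀ᶠ τ : ℝ in atTop, ∀ x : ι → ℝ,
      (∀ o ∈ W, ∑ i, o.1 i * x i ≤ σ * Real.exp (σ * τ) + o.2 τ) →
      (1 / 2) * Real.exp (σ * τ) ≤ ∑ i ∈ Jᶜ, x i := by
  obtain ⟨θ, hθ, T, hT, hT1, hT2⟩ := h.tie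
  filter_upwards [eventually_ge_atTop 0, ev_exp_dom (Jᶜ.card : ℝ)
    (show σ - θ < σ by linarith) (show 0 < -σ / 2 by linarith)] with τ hτ hdom x hx
  have h1 := hx T hT
  rw [h.sum_eq x hT] at h1
  have h2 : ∑ i ∈ Jᶜ, T.1 i * x i = σ * ∑ i ∈ Jᶜ, x i := by
    rw [Finset.mul_sum]
    apply Finset.sum_congr rfl
    intro i hi
    rw [hT1 i (Finset.mem_compl.mp hi)]
  rw [h2] at h1
  have h3 := hT2 τ hτ
  have h4 : σ * ∑ i ∈ Jᶜ, x i ≤ σ * ((1 / 2) * Real.exp (σ * τ)) := by linarith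
  exact (mul_le_mul_left_of_neg hσ).mp h4

theorem upper_sum (h : IsWall N φ σ J r W) (hσ : 0 < σ) :
    ∀ᶠ τ : ℝ in atTop, ∀ x : ι → ℝ,
      (∀ o ∈ W, ∑ i, o.1 i * x i ≤ σ * Real.exp (σ * τ) + o.2 τ) →
      ∑ i ∈ Jᶜ, x i ≤ 2 * Real.exp (σ * τ) := by
  obtain ⟨θ, hθ, T, hT, hT1, hT2⟩ := h.tie
  filter_upwards [eventually_ge_atTop 0, ev_exp_dom (Jᶜ.card : ℝ)
    (show σ - θ < σ by linarith) hσ] with τ hτ hdom x hx
  have h1 := hx T hT
  rw [h.sum_eq x hT] at h1
  have h2 : ∑ i ∈ Jᶜ, T.1 i * x i = σ * ∑ i ∈ Jᶜ, x i := by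
    rw [Finset.mul_sum]
    apply Finset.sum_congr rfl
    intro i hi
    rw [hT1 i (Finset.mem_compl.mp hi)]
  rw [h2] at h1
  have h3 := hT2 τ hτ
  have h4 : σ * ∑ i ∈ Jᶜ, x i ≤ σ * (2 * Real.exp (σ * τ)) := by linarith
  exact le_of_mul_le_mul_left h4 hσ

end IsWall

/-- **Polytope family.**  For every finite set `N` of vectors there is a finite family of linear
inequalities `∑ w_i x_i ≤ b(τ)` whose solution sets exhaust the positive orthant as `τ → ∞`,
stay inside the open orthant, and such that at a point `x` of the polytope where the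
inequality `w` is active, `ν ⬝ w > 0` forces `ν ⬝ log x ≥ c0 τ` for `ν ∈ N`. -/
theorem exists_polytopes [Nonempty ι] {N : Set (ι → ℝ)} (hN : N.Finite) :
    ∃ K : Set ((ι → ℝ) × (ℝ → ℝ)), K.Finite ∧ (∀ p ∈ K, ContDiff ℝ 1 p.2) ∧
      (∃ μ : ℝ, ∀ᶠ τ : ℝ in atTop, ∀ x : ι → ℝ, (∀ p ∈ K, ∑ i, p.1 i * x i ≤ p.2 τ) →
        ∀ i, (1 / 2) * Real.exp (-τ) ≤ x i ∧ x i ≤ 2 * Real.exp (μ * τ)) ∧
      (∀ x : ι → ℝ, (∀ i, 0 < x i) → ∀ᶠ τ : ℝ in atTop, ∀ p ∈ K, ∑ i, p.1 i * x i < p.2 τ) ∧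
      (∃ c0 > 0, ∀ᶠ τ : ℝ in atTop, ∀ x : ι → ℝ, (∀ p ∈ K, ∑ i, p.1 i * x i ≤ p.2 τ) →
        ∀ p ∈ K, ∑ i, p.1 i * x i = p.2 τ → ∀ ν ∈ N, 0 < ∑ i, ν i * p.1 i →
          c0 * τ ≤ ∑ i, ν i * Real.log (x i)) := by
  classical
  -- walls for every nonempty active set and every level
  have hw : ∀ (J : Finset ι) (l : ℝ), ∃ r : ℝ, ∃ W : Set ((ι → ℝ) × (ℝ → ℝ)), 0 < r ∧
      (Jᶜ.Nonempty → 0 < l → l ≤ 1 → (Jᶜ.card = 1 ∨ l < 1) → IsWall N (-1) (-l) J r W) := by
    intro J l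
    by_cases h : Jᶜ.Nonempty ∧ 0 < l ∧ l ≤ 1 ∧ (Jᶜ.card = 1 ∨ l < 1)
    · obtain ⟨h1, h2, h3, h4⟩ := h
      obtain ⟨r, W, hrW⟩ := exists_wall hN (φ := -1) (σ := -l) h1 (by linarith)
        (by linarith) (h4.imp id (fun h => by linarith))
      exact ⟨r, W, hrW.rpos, fun _ _ _ _ => hrW⟩
    · exact ⟨1, ∅, one_pos, fun h1 h2 h3 h4 => absurd ⟨h1, h2, h3, h4⟩ h⟩
  choose r0 W0 hr0 hW0 using hw
  obtain ⟨a, ha0, hapos, hanti, hatol⟩ := exists_scales_one r0 hr0
  have hale : ∀ k, a k ≤ 1 := fun k => by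
    rw [← ha0]
    exact (anti_of_succ hanti).antitone (Nat.zero_le k)
  -- the wall of active set Jᶜ
  set lam : Finset ι → ℝ := fun J => a (Jᶜ.card - 1) with hlam
  set r : Finset ι → ℝ := fun J => r0 J (lam J) with hr
  set W : Finset ι → Set ((ι → ℝ) × (ℝ → ℝ)) := fun J => W0 J (lam J) with hWdef
  have hwall : ∀ J : Finset ι, Jᶜ.Nonempty → IsWall N (-1) (-lam J) J (r J) (W J) := by
    intro J hJ
    apply hW0 J (lam J) hJ (hapos _) (hale _)
    by_cases h1 : Jᶜ.card = 1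
    · exact Or.inl h1
    · right
      have h2 := Finset.card_pos.mpr hJ
      simp only [hlam]
      rw [← ha0]
      apply anti_of_succ hanti
      omega
  obtain ⟨μ, hμ, hμr⟩ := finite_pos (S := (Set.univ : Set (Finset ι))) Set.finite_univ
    (fun J μ => 2 * μ ≤ r J) (fun J r r' _ hle h => by linarith)
    (fun J _ => ⟨r J / 2, by linarith [hr0 J (lam J)], by linarith⟩)
  obtain ⟨rt, Wt, hWt⟩ := exists_wall hN (φ := -1) (σ := μ) (J := (∅ : Finset ι))
    (by simp) hμ.ne' (by linarith) (Or.inr (by linarith))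
  set K : Set ((ι → ℝ) × (ℝ → ℝ)) :=
    {p | (∃ J : Finset ι, Jᶜ.Nonempty ∧ ∃ o ∈ W J, p = (o.1, fun τ => -lam J *
        Real.exp (-lam J * τ) + o.2 τ)) ∨
      ∃ o ∈ Wt, p = (o.1, fun τ => μ * Real.exp (μ * τ) + o.2 τ)} with hK
  have hKlow : ∀ J : Finset ι, Jᶜ.Nonempty → ∀ o ∈ W J, ((o.1, fun τ => -lam J *
        Real.exp (-lam J * τ) + o.2 τ) : (ι → ℝ) × (ℝ → ℝ)) ∈ K :=
    fun J hJ o ho => Or.inl ⟨J, hJ, o, ho, rfl⟩
  have hKtop : ∀ o ∈ Wt, ((o.1, fun τ => μ * Real.exp (μ * τ) + o.2 τ) :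
      (ι → ℝ) × (ℝ → ℝ)) ∈ K := fun o ho => Or.inr ⟨o, ho, rfl⟩
  -- block sums from below, for all J
  have hlows : ∀ᶠ τ : ℝ in atTop, ∀ J : Finset ι, Jᶜ.Nonempty → ∀ x : ι → ℝ,
      (∀ p ∈ K, ∑ i, p.1 i * x i ≤ p.2 τ) →
      (1 / 2) * Real.exp (-lam J * τ) ≤ ∑ i ∈ Jᶜ, x i := by
    rw [Filter.eventually_all]
    intro J
    by_cases hJ : Jᶜ.Nonempty
    · filter_upwards [(hwall J hJ).lower_sum (by linarith [hapos (Jᶜ.card - 1)])] with τ hτ _ x hx
      exact hτ x (fun o ho => hx _ (hKlow J hJ o ho))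
    · exact Filter.Eventually.of_forall (fun τ h => absurd h hJ)
  have hbox : ∀ᶠ τ : ℝ in atTop, ∀ x : ι → ℝ, (∀ p ∈ K, ∑ i, p.1 i * x i ≤ p.2 τ) →
        ∀ i, (1 / 2) * Real.exp (-τ) ≤ x i ∧ x i ≤ 2 * Real.exp (μ * τ) := by
    filter_upwards [hlows, hWt.upper_sum hμ] with τ hlow htop x hx
    have hlow1 : ∀ i, (1 / 2) * Real.exp (-τ) ≤ x i := by
      intro i
      have h1 : ((({i} : Finset ι)ᶜ)ᶜ : Finset ι) = {i} := compl_compl _
      have h2 := hlow ({i} : Finset ι)ᶜ (by rw [h1]; exact Finset.singleton_nonempty i) x hx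
      rw [h1, Finset.sum_singleton] at h2
      have h3 : lam ({i} : Finset ι)ᶜ = 1 := by
        simp only [hlam]
        rw [h1, Finset.card_singleton]
        exact ha0
      rw [h3] at h2
      simpa using h2
    intro i
    refine ⟨hlow1 i, ?_⟩
    have h4 := htop x (fun o ho => hx _ (hKtop o ho))
    have h5 : x i ≤ ∑ i ∈ (∅ : Finset ι)ᶜ, x i := by
      apply Finset.single_le_sum (f := x)
      · intro j _
        have := hlow1 j
        have := Real.exp_pos (-τ)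
        linarith
      · simp
    linarith
  refine ⟨K, ?_, ?_, ⟨μ, hbox⟩, ?_, ?_⟩
  · -- finite
    have h3 : K ⊆ (⋃ J ∈ {J : Finset ι | Jᶜ.Nonempty}, (fun o : (ι → ℝ) × (ℝ → ℝ) =>
        ((o.1, fun τ => -lam J * Real.exp (-lam J * τ) + o.2 τ) : (ι → ℝ) × (ℝ → ℝ))) '' (W J)) ∪
        (fun o : (ι → ℝ) × (ℝ → ℝ) =>
        ((o.1, fun τ => μ * Real.exp (μ * τ) + o.2 τ) : (ι → ℝ) × (ℝ → ℝ))) '' Wt := by
      rintro p (⟨J, hJ, o, ho, rfl⟩ | ⟨o, ho, rfl⟩)
      · left
        simp only [Set.mem_iUnion]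
        exact ⟨J, hJ, o, ho, rfl⟩
      · right
        exact ⟨o, ho, rfl⟩
    apply Set.Finite.subset _ h3
    apply Set.Finite.union
    · apply (Set.toFinite _).biUnion
      intro J hJ
      exact (hwall J hJ).finite.image _
    · exact hWt.finite.image _
  · -- smooth
    rintro p (⟨J, hJ, o, ho, rfl⟩ | ⟨o, ho, rfl⟩)
    · have h1 := (hwall J hJ).smooth o ho
      simp only
      fun_prop
    · have h1 := hWt.smooth o ho
      simp only
      fun_prop
  · -- exhaustion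
    intro x hx
    have hfin1 : ∀ J : Finset ι, Jᶜ.Nonempty → ∀ o ∈ W J, ∀ᶠ τ : ℝ in atTop,
        ∑ i, o.1 i * x i < -lam J * Real.exp (-lam J * τ) + o.2 τ := by
      intro J hJ o ho
      have h1 : ∑ i, o.1 i * x i < 0 := by
        rw [(hwall J hJ).sum_eq x ho]
        apply Finset.sum_neg
        · intro i hi
          have h2 := ((hwall J hJ).rng o ho i (Finset.mem_compl.mp hi)).2
          have h3 := hapos (Jᶜ.card - 1)
          have h4 := hx i
          have h5 : o.1 i < 0 := by simp only [hlam] at h2; linarith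
          exact mul_neg_of_neg_of_pos h5 h4
        · exact hJ
      have h2 : Tendsto (fun τ : ℝ => -lam J * Real.exp (-lam J * τ)) atTop (nhds (-lam J * 0)) := by
        apply Tendsto.const_mul
        apply Real.tendsto_exp_atBot.comp
        have : Tendsto (fun τ : ℝ => lam J * τ) atTop atTop :=
          tendsto_id.const_mul_atTop (hapos _)
        have h3 := tendsto_neg_atTop_atBot.comp this
        refine h3.congr (fun τ => ?_)
        simp
      rw [mul_zero] at h2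
      filter_upwards [h2.eventually (lt_mem_nhds h1)] with τ hτ
      have := (hwall J hJ).cost o ho τ
      linarith
    have hfin2 : ∀ o ∈ Wt, ∀ᶠ τ : ℝ in atTop,
        ∑ i, o.1 i * x i < μ * Real.exp (μ * τ) + o.2 τ := by
      intro o ho
      have h2 : Tendsto (fun τ : ℝ => μ * Real.exp (μ * τ)) atTop atTop := by
        apply Tendsto.const_mul_atTop hμ
        apply Real.tendsto_exp_atTop.comp
        exact tendsto_id.const_mul_atTop hμ
      filter_upwards [h2.eventually_gt_atTop (∑ i, o.1 i * x i)] with τ hτ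
      have := hWt.cost o ho τ
      linarith
    have h1 : ∀ᶠ τ : ℝ in atTop, ∀ J : Finset ι, Jᶜ.Nonempty → ∀ o ∈ W J,
        ∑ i, o.1 i * x i < -lam J * Real.exp (-lam J * τ) + o.2 τ := by
      rw [Filter.eventually_all]
      intro J
      by_cases hJ : Jᶜ.Nonempty
      · have := (Filter.eventually_all_finite (hwall J hJ).finite).mpr (hfin1 J hJ)
        filter_upwards [this] with τ hτ _
        exact hτ
      · exact Filter.Eventually.of_forall (fun τ h => absurd h hJ)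
    have h2 := (Filter.eventually_all_finite hWt.finite).mpr hfin2
    filter_upwards [h1, h2] with τ h1 h2 p hp
    rcases hp with ⟨J, hJ, o, ho, rfl⟩ | ⟨o, ho, rfl⟩
    · exact h1 J hJ o ho
    · exact h2 o ho
  · -- activity
    obtain ⟨ct, hct, hct'⟩ := hWt.main
    obtain ⟨cl, hcl, hcl'⟩ := finite_pos (S := {J : Finset ι | Jᶜ.Nonempty}) (Set.toFinite _)
      (fun J c0 => ∀ C : ℝ, ∀ᶠ τ : ℝ in atTop, ∀ ξ : ι → ℝ, (∀ i ∈ J, |ξ i| ≤ r J) →
        (∀ i ∉ J, -1 - C / τ ≤ ξ i) → ∀ o ∈ W J,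
        (∀ o' ∈ W J, obj J τ ξ o' ≤ -lam J * Real.exp (-lam J * τ)) →
        obj J τ ξ o = -lam J * Real.exp (-lam J * τ) →
        ∀ ν ∈ N, 0 < ∑ i, ν i * o.1 i → c0 ≤ ∑ i, ν i * ξ i)
      (fun J c c' _ hle h C => by
        filter_upwards [h C] with τ hτ ξ h1 h2 o ho h3 h4 ν hν hpos
        exact le_trans hle (hτ ξ h1 h2 o ho h3 h4 ν hν hpos))
      (fun J hJ => (hwall J hJ).main)
    refine ⟨min ct cl, lt_min hct hcl, ?_⟩
    -- lower walls
    have hL : ∀ᶠ τ : ℝ in atTop, ∀ J : Finset ι, Jᶜ.Nonempty → ∀ x : ι → ℝ,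
        (∀ p ∈ K, ∑ i, p.1 i * x i ≤ p.2 τ) → ∀ o ∈ W J,
        ∑ i, o.1 i * x i = -lam J * Real.exp (-lam J * τ) + o.2 τ →
        ∀ ν ∈ N, 0 < ∑ i, ν i * o.1 i → cl * τ ≤ ∑ i, ν i * Real.log (x i) := by
      rw [Filter.eventually_all]
      intro J
      by_cases hJ : Jᶜ.Nonempty
      swap
      · exact Filter.Eventually.of_forall (fun τ h => absurd h hJ)
      have hJcard := Finset.card_pos.mpr hJ
      set k := Jᶜ.card - 1 with hk
      have hlamJ : lam J = a k := rfl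
      have hstep : a (k + 1) < a k := hanti k
      filter_upwards [eventually_gt_atTop 0, hbox, hlows, hcl' J hJ (Real.log 2),
        ev_div_le (Real.log 2) hμ, ev_div_le (Real.log 4) (hapos (k + 1)),
        ev_exp_dom 1 (show -a k < -a (k + 1) by linarith) (show (0 : ℝ) < 1 / 4 by norm_num)]
        with τ hτ hbox hlow hmain hlog2 hlog4 hdom _ x hx o ho hact ν hν hpos
      have hxpos : ∀ i, 0 < x i := fun i => by
        have := (hbox x hx i).1
        have := Real.exp_pos (-τ)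
        linarith
      have hsumle : ∑ i ∈ Jᶜ, x i ≤ Real.exp (-a k * τ) := by
        rw [(hwall J hJ).sum_eq x ho] at hact
        have h1 : ∑ i ∈ Jᶜ, o.1 i * x i ≤ (-a k) * ∑ i ∈ Jᶜ, x i := by
          rw [Finset.mul_sum]
          apply Finset.sum_le_sum
          intro i hi
          exact mul_le_mul_of_nonneg_right ((hwall J hJ).rng o ho i (Finset.mem_compl.mp hi)).2
            (hxpos i).le
        have h2 := (hwall J hJ).cost o ho τ
        have h3 : (-a k) * Real.exp (-a k * τ) ≤ (-a k) * ∑ i ∈ Jᶜ, x i := by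
          rw [hlamJ] at hact
          linarith
        exact (mul_le_mul_left_of_neg (by linarith [hapos k])).mp h3
      have h1 := hmain (fun i => Real.log (x i) / τ) ?_ ?_ o ho ?_ ?_ ν hν hpos
      · have h2 : ∑ i, ν i * (Real.log (x i) / τ) = (∑ i, ν i * Real.log (x i)) / τ := by
          rw [Finset.sum_div]
          exact Finset.sum_congr rfl (fun i _ => by ring)
        rw [h2, le_div_iff₀ hτ] at h1
        exact h1
      · -- inactive coordinates are within tolerance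
        intro i hi
        have hJ' : (J.erase i)ᶜ = insert i Jᶜ := by
          ext l
          simp only [Finset.mem_compl, Finset.mem_erase, Finset.mem_insert]
          tauto
        have hiJ : i ∉ Jᶜ := by simpa using hi
        have h2 := hlow (J.erase i) (by rw [hJ']; exact Finset.insert_nonempty _ _) x hx
        have h3 : lam (J.erase i) = a (k + 1) := by
          simp only [hlam]
          rw [hJ', Finset.card_insert_of_notMem hiJ]
          congr 1
          omega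
        rw [h3, hJ', Finset.sum_insert hiJ] at h2
        have h4 : (1 / 4) * Real.exp (-a (k + 1) * τ) ≤ x i := by linarith
        have htol : 2 * a (k + 1) ≤ r J := by
          have := hatol k J
          exact this
        have hlowξ : -a (k + 1) - Real.log 4 / τ ≤ Real.log (x i) / τ := by
          rw [← ev_logexp (hxpos i) hτ] at h4
          have h5 := ge_of_exp_ge hτ (by norm_num) h4
          rw [one_div, Real.log_inv] at h5
          have : -a (k + 1) - Real.log 4 / τ = -a (k + 1) + -Real.log 4 / τ := by ring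
          rw [this]
          exact h5
        have hupξ : Real.log (x i) / τ ≤ μ + Real.log 2 / τ := by
          have h5 := (hbox x hx i).2
          rw [← ev_logexp (hxpos i) hτ] at h5
          exact le_of_exp_le hτ (by norm_num) h5
        have h6 := hμr J (Set.mem_univ _)
        rw [abs_le]
        constructor <;> linarith
      · intro i hi
        have h2 := (hbox x hx i).1
        rw [← ev_logexp (hxpos i) hτ] at h2
        have h3 : (1 / 2) * Real.exp ((-1) * τ) ≤ Real.exp (τ * (Real.log (x i) / τ)) := by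
          have : (-1) * τ = -τ := by ring
          rw [this]; exact h2
        have h5 := ge_of_exp_ge hτ (by norm_num) h3
        rw [one_div, Real.log_inv] at h5
        have : (-1 : ℝ) - Real.log 2 / τ = -1 + -Real.log 2 / τ := by ring
        rw [this]
        exact h5
      · intro o' ho'
        rw [(hwall J hJ).obj_eq hτ hxpos ho']
        have := hx _ (hKlow J hJ o' ho')
        simp only at this
        linarith
      · rw [(hwall J hJ).obj_eq hτ hxpos ho, hact]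
        ring
    filter_upwards [eventually_gt_atTop 0, hbox, hL, hct' (Real.log 2)]
      with τ hτ hbox hL htop x hx p hp hact ν hν hpos
    rcases hp with ⟨J, hJ, o, ho, rfl⟩ | ⟨o, ho, rfl⟩
    · refine le_trans ?_ (hL J hJ x hx o ho hact ν hν hpos)
      exact mul_le_mul_of_nonneg_right (min_le_right _ _) hτ.le
    · have hxpos : ∀ i, 0 < x i := fun i => by
        have := (hbox x hx i).1
        have := Real.exp_pos (-τ)
        linarith
      have h1 := htop (fun i => Real.log (x i) / τ) (by simp) ?_ o ho ?_ ?_ ν hν hpos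
      · have h2 : ∑ i, ν i * (Real.log (x i) / τ) = (∑ i, ν i * Real.log (x i)) / τ := by
          rw [Finset.sum_div]
          exact Finset.sum_congr rfl (fun i _ => by ring)
        rw [h2, le_div_iff₀ hτ] at h1
        refine le_trans ?_ h1
        exact mul_le_mul_of_nonneg_right (min_le_left _ _) hτ.le
      · intro i _
        have h2 := (hbox x hx i).1
        rw [← ev_logexp (hxpos i) hτ] at h2
        have h3 : (1 / 2) * Real.exp ((-1) * τ) ≤ Real.exp (τ * (Real.log (x i) / τ)) := by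
          have : (-1) * τ = -τ := by ring
          rw [this]; exact h2
        have h5 := ge_of_exp_ge hτ (by norm_num) h3
        rw [one_div, Real.log_inv] at h5
        have : (-1 : ℝ) - Real.log 2 / τ = -1 + -Real.log 2 / τ := by ring
        rw [this]
        exact h5
      · intro o' ho'
        rw [hWt.obj_eq hτ hxpos ho']
        have := hx _ (hKtop o' ho')
        simp only at this
        linarith
      · rw [hWt.obj_eq hτ hxpos ho]
        simp only at hact
        rw [hact]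
        ring

end Vale.Agent.P072
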