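import Vale.Agent.P072.Trap

set_option autoImplicit false

namespace Vale.Agent.P072

open MeasureTheory Filter Set

open scoped Topology

variable {d : ℕ}

/-- membership in the polytope at parameter `τ` -/
def InK (K : Set ((Fin d → ℝ) × (ℝ → ℝ))) (τ : ℝ) (x : Fin d → ℝ) : Prop :=
  ∀ p ∈ K, ∑ i, p.1 i * x i ≤ p.2 τ

theorem mon_mono {y : Fin d → ℕ} {x x' : Fin d → ℝ} (hx : ∀ i, 0 ≤ x i) (h : ∀ i, x i ≤ x' i) :
    mon y x ≤ mon y x' :=
  Finset.prod_le_prod (fun i _ => pow_nonneg (hx i) _)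
    (fun i _ => pow_le_pow_left₀ (hx i) (h i) _)

/-- The polytopes with all the properties needed for the dynamics. -/
structure Setup (G : ReactionNetwork d) (ε : ℝ) (K : Set ((Fin d → ℝ) × (ℝ → ℝ)))
    (μ τs : ℝ) : Prop where
  finite : K.Finite
  smooth : ∀ p ∈ K, ContDiff ℝ 1 p.2
  box : ∀ τ, τs ≤ τ → ∀ x, InK K τ x →
    ∀ i, (1 / 2) * Real.exp (-τ) ≤ x i ∧ x i ≤ 2 * Real.exp (μ * τ)
  exh : ∀ x : Fin d → ℝ, (∀ i, 0 < x i) → ∀ᶠ τ : ℝ in atTop, ∀ p ∈ K,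
    ∑ i, p.1 i * x i < p.2 τ
  inw : ∀ τ1, τs ≤ τ1 → ∃ c > 0, ∀ τ ∈ Icc τs τ1, ∀ x, InK K τ x → ∀ p ∈ K,
    ∑ i, p.1 i * x i = p.2 τ → (∃ r ∈ G.reactions, gap p.1 r ≠ 0) →
    ∀ᶠ x' in 𝓝 x, ∀ k : (Fin d → ℕ) × (Fin d → ℕ) → ℝ,
      (∀ r ∈ G.reactions, ε ≤ k r ∧ k r ≤ ε⁻¹) → ∑ i, p.1 i * G.massAction k x' i ≤ -c

theorem exists_setup {G : ReactionNetwork d} (hd : 0 < d) (hG : G.WeaklyReversible) {ε : ℝ}
    (hε : 0 < ε) : ∃ K μ τs, Setup G ε K μ τs := by
  classical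
  have : Nonempty (Fin d) := ⟨⟨0, hd⟩⟩
  obtain ⟨K, hKfin, hKsm, ⟨μ, hbox⟩, hexh, c0, hc0, hact⟩ :=
    exists_polytopes (ι := Fin d) (diffs_finite G)
  -- uniform inward constant
  obtain ⟨c1, hc1, hinw⟩ := finite_pos hKfin
    (fun p c => (∃ r ∈ G.reactions, gap p.1 r ≠ 0) →
      ∀ k : (Fin d → ℕ) × (Fin d → ℕ) → ℝ,
      (∀ r ∈ G.reactions, ε ≤ k r ∧ k r ≤ ε⁻¹) → ∀ x : Fin d → ℝ, (∀ i, 0 < x i) →
      (∀ ν ∈ diffs G, 0 < ∑ i, ν i * p.1 i → c⁻¹ ≤ ∑ i, ν i * Real.log (x i)) →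
      ∃ r' ∈ G.reactions, ∑ i, p.1 i * G.massAction k x i ≤ - c * mon r'.1 x)
    (fun p c c' hc' hle h hnt k hk x hx hcompat => by
      obtain ⟨r', hr', h'⟩ := h hnt k hk x hx (fun ν hν hpos => le_trans
        (inv_anti₀ hc' hle) (hcompat ν hν hpos))
      refine ⟨r', hr', le_trans h' ?_⟩
      have := mon_pos r'.1 hx
      nlinarith)
    (fun p _ => by
      by_cases hnt : ∃ r ∈ G.reactions, gap p.1 r ≠ 0
      · obtain ⟨Δ, c1, hc1, h⟩ := inward hG hε p.1 hnt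
        refine ⟨min c1 (max Δ 1)⁻¹, by positivity, fun _ k hk x hx hcompat => ?_⟩
        have hmax : 0 < max Δ 1 := by positivity
        have h1 : Δ ≤ (min c1 (max Δ 1)⁻¹)⁻¹ := by
          have h2 : ((max Δ 1)⁻¹)⁻¹ ≤ (min c1 (max Δ 1)⁻¹)⁻¹ :=
            inv_anti₀ (by positivity) (min_le_right _ _)
          rw [inv_inv] at h2
          exact le_trans (le_max_left _ _) h2
        obtain ⟨r', hr', h'⟩ := h k hk x hx (fun ν hν hpos => le_trans h1 (hcompat ν hν hpos))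
        refine ⟨r', hr', le_trans h' ?_⟩
        have h3 := mon_pos r'.1 hx
        have h4 := min_le_left c1 (max Δ 1)⁻¹
        nlinarith
      · exact ⟨1, one_pos, fun h => absurd h hnt⟩)
  have hlarge : ∀ᶠ τ : ℝ in atTop, c1⁻¹ < c0 * τ :=
    (tendsto_id.const_mul_atTop hc0).eventually_gt_atTop _
  obtain ⟨τs, hτs⟩ := Filter.eventually_atTop.mp (hbox.and (hact.and hlarge))
  refine ⟨K, μ, τs, hKfin, hKsm, ?_, hexh, ?_⟩
  · intro τ hτ x hx
    exact (hτs τ hτ).1 x hx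
  · intro τ1 hτ1
    -- lower bound for the monomials
    set m : ℝ := (1 / 4) * Real.exp (-τ1) with hm
    have hmpos : 0 < m := by positivity
    obtain ⟨c2, hc2, hc2'⟩ := finite_pos (Finset.finite_toSet G.reactions)
      (fun (r : (Fin d → ℕ) × (Fin d → ℕ)) c => c ≤ mon r.1 (fun _ : Fin d => m))
      (fun r c c' _ hle h => le_trans hle h)
      (fun r _ => ⟨mon r.1 (fun _ => m), mon_pos _ (fun _ => hmpos), le_rfl⟩)
    refine ⟨c1 * c2, by positivity, ?_⟩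
    intro τ hτ x hx p hp hactive hnt
    obtain ⟨hbox', hact', hlarge'⟩ := hτs τ hτ.1
    have hxpos : ∀ i, 0 < x i := fun i => by
      have := (hbox' x hx i).1
      have := Real.exp_pos (-τ)
      linarith
    have hxm : ∀ i, m < x i := fun i => by
      have h1 := (hbox' x hx i).1
      have h2 : Real.exp (-τ1) ≤ Real.exp (-τ) := Real.exp_le_exp.mpr (by linarith [hτ.2])
      have h3 := Real.exp_pos (-τ1)
      rw [hm]
      linarith
    have h1 : ∀ᶠ x' in 𝓝 x, ∀ i, m < x' i := by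
      rw [Filter.eventually_all]
      intro i
      exact (continuous_apply i).continuousAt.eventually (lt_mem_nhds (hxm i))
    have h2 : ∀ᶠ x' in 𝓝 x, ∀ ν ∈ diffs G, 0 < ∑ i, ν i * p.1 i →
        c1⁻¹ < ∑ i, ν i * Real.log (x' i) := by
      rw [Filter.eventually_all_finite (diffs_finite G)]
      intro ν hν
      by_cases hpos : 0 < ∑ i, ν i * p.1 i
      · have h3 : c1⁻¹ < ∑ i, ν i * Real.log (x i) :=
          lt_of_lt_of_le hlarge' (hact' x hx p hp hactive ν hν hpos)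
        have h4 : ContinuousAt (fun x' : Fin d → ℝ => ∑ i, ν i * Real.log (x' i)) x := by
          apply tendsto_finsetSum
          intro i _
          apply Filter.Tendsto.const_mul
          have h5 : ContinuousAt (fun x' : Fin d → ℝ => x' i) x :=
            (continuous_apply i).continuousAt
          exact h5.log (hxpos i).ne'
        filter_upwards [h4.eventually (lt_mem_nhds h3)] with x' hx' _
        exact hx'
      · exact Filter.Eventually.of_forall (fun x' h => absurd h hpos)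
    filter_upwards [h1, h2] with x' hx1 hx2 k hk
    obtain ⟨r', hr', h'⟩ := hinw p hp hnt k hk x' (fun i => lt_trans hmpos (hx1 i))
      (fun ν hν hpos => (hx2 ν hν hpos).le)
    refine le_trans h' ?_
    have h5 : c2 ≤ mon r'.1 x' :=
      le_trans (hc2' r' hr') (mon_mono (fun _ => hmpos.le) (fun i => (hx1 i).le))
    nlinarith

end Vale.Agent.P072
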