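import Vale.Agent.P072.Induct

set_option autoImplicit false
set_option linter.unusedSectionVars false

namespace Vale.Agent.P072

open Finset Filter

theorem ev_div_le (C : ℝ) {ε : ℝ} (hε : 0 < ε) : ∀ᶠ τ : ℝ in atTop, C / τ ≤ ε := by
  have h : Tendsto (fun τ : ℝ => C / τ) atTop (nhds 0) := tendsto_const_nhds.div_atTop tendsto_id
  exact (h.eventually (gt_mem_nhds hε)).mono (fun _ h => h.le)

theorem ev_exp_dom (K : ℝ) {γ' γ ε : ℝ} (h : γ' < γ) (hε : 0 < ε) :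
    ∀ᶠ τ : ℝ in atTop, K * Real.exp (γ' * τ) ≤ ε * Real.exp (γ * τ) := by
  have h1 : Tendsto (fun τ : ℝ => Real.exp ((γ - γ') * τ)) atTop atTop :=
    Real.tendsto_exp_atTop.comp (tendsto_id.const_mul_atTop (by linarith))
  filter_upwards [h1.eventually_ge_atTop (K / ε)] with τ hτ
  have h2 : Real.exp (γ * τ) = Real.exp ((γ - γ') * τ) * Real.exp (γ' * τ) := by
    rw [← Real.exp_add]; ring_nf
  rw [h2, ← mul_assoc]
  apply mul_le_mul_of_nonneg_right _ (Real.exp_pos _).le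
  rw [div_le_iff₀ hε] at hτ
  linarith

variable {ι : Type*} [Fintype ι] [DecidableEq ι]

theorem MainProp.mono {N : Set (ι → ℝ)} {φ : ℝ} {J : Finset ι} {κ : ι → ℝ} {g r : ℝ}
    {W : Set ((ι → ℝ) × (ℝ → ℝ))} {c c' : ℝ} (hc : c' ≤ c) (h : MainProp N φ J κ g r W c) :
    MainProp N φ J κ g r W c' := by
  intro C
  filter_upwards [h C] with τ hτ ξ h1 h2 o ho hmax ν hν hpos
  exact le_trans hc (hτ ξ h1 h2 o ho hmax ν hν hpos)

namespace Block

variable {N : Set (ι → ℝ)} {φ : ℝ} {J : Finset ι} {κ : ι → ℝ} {v : ℝ} {a : ℕ → ℝ}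
  {R : Finset ι → ℝ} {Ws : Finset ι → Set ((ι → ℝ) × (ℝ → ℝ))}

theorem val_I (hB : Block N φ J κ v a R Ws) {I : Finset ι} (h1 : I.Nonempty) (h2 : I ⊆ Jᶜ)
    {o : (ι → ℝ) × (ℝ → ℝ)} (ho : o ∈ Ws I) : ∀ i ∈ I, o.1 i = v := by
  intro i hi
  rw [(hB.good I h1 h2).on_J o ho i (Finset.mem_union_right _ hi)]
  simp [upd, hi]

theorem val_J (hB : Block N φ J κ v a R Ws) {I : Finset ι} (h1 : I.Nonempty) (h2 : I ⊆ Jᶜ)
    {o : (ι → ℝ) × (ℝ → ℝ)} (ho : o ∈ Ws I) : ∀ i ∈ J, o.1 i = κ i := by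
  intro i hi
  rw [(hB.good I h1 h2).on_J o ho i (Finset.mem_union_left _ hi)]
  have : i ∉ I := fun h => (Finset.mem_compl.mp (h2 h)) hi
  simp [upd, this]

theorem val_rest (hB : Block N φ J κ v a R Ws) {I : Finset ι} (h1 : I.Nonempty) (h2 : I ⊆ Jᶜ)
    {o : (ι → ℝ) × (ℝ → ℝ)} (ho : o ∈ Ws I) :
    ∀ i ∉ J, i ∉ I → φ ≤ o.1 i ∧ o.1 i ≤ max φ (v - a (Jᶜ.card - I.card)) := by
  intro i hi hi'
  have : i ∉ J ∪ I := by rw [Finset.mem_union]; tauto
  exact ⟨(hB.good I h1 h2).lower o ho i this, (hB.good I h1 h2).upper o ho i this⟩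

theorem val_le (hB : Block N φ J κ v a R Ws) (hφ : φ ≤ v) {I : Finset ι} (h1 : I.Nonempty)
    (h2 : I ⊆ Jᶜ) {o : (ι → ℝ) × (ℝ → ℝ)} (ho : o ∈ Ws I) : ∀ i ∉ J, o.1 i ≤ v := by
  intro i hi
  by_cases hI : i ∈ I
  · exact (hB.val_I h1 h2 ho i hI).le
  · refine le_trans (hB.val_rest h1 h2 ho i hi hI).2 (max_le hφ ?_)
    linarith [hB.pos (Jᶜ.card - I.card)]

theorem val_ge (hB : Block N φ J κ v a R Ws) (hφ : φ ≤ v) {I : Finset ι} (h1 : I.Nonempty)
    (h2 : I ⊆ Jᶜ) {o : (ι → ℝ) × (ℝ → ℝ)} (ho : o ∈ Ws I) : ∀ i ∉ J, φ ≤ o.1 i := by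
  intro i hi
  by_cases hI : i ∈ I
  · rw [hB.val_I h1 h2 ho i hI]; exact hφ
  · exact (hB.val_rest h1 h2 ho i hi hI).1

theorem mix_mem (hB : Block N φ J κ v a R Ws) {I : Finset ι} (h1 : I.Nonempty) (h2 : I ⊆ Jᶜ) :
    (mix κ J I v φ, fun _ => (0 : ℝ)) ∈ Ws I := (hB.good I h1 h2).floor_mem

/-- upper bound below the block, exponent form -/
theorem below (hB : Block N φ J κ v a R Ws) (hφ : φ < v) {I : Finset ι}
    (h1 : I.Nonempty) (h2 : I ⊆ Jᶜ) {τ : ℝ} (hτ : 0 < τ) {ξ : ι → ℝ}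
    {o : (ι → ℝ) × (ℝ → ℝ)} (ho : o ∈ Ws I)
    (hmax : obj J τ ξ (lift a Jᶜ.card Jᶜ.card v (mix κ J Jᶜ v φ, fun _ => (0 : ℝ))) ≤
      obj J τ ξ (lift a Jᶜ.card I.card v o))
    {l : ι} (hl : l ∉ J) (hl' : l ∉ I) :
    Real.exp (τ * ξ l) ≤ (Jᶜ.card / min (v - φ) (a (Jᶜ.card - I.card))) *
      Real.exp ((v - a (Jᶜ.card - I.card)) * τ) := by
  set η := min (v - φ) (a (Jᶜ.card - I.card)) with hη
  have hηpos : 0 < η := lt_min (by linarith) (hB.pos _)
  have h3 : η * Real.exp (τ * ξ l) ≤ Jᶜ.card * Real.exp ((v - a (Jᶜ.card - I.card)) * τ) := by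
    apply upper_below hB.anti hτ.le h2 _ _ _ _ hmax hl _
    · intro i hi
      exact mix_mem_I (Finset.mem_compl.mpr hi)
    · simp [lift]
    · intro i hi
      exact hB.val_le hφ.le h1 h2 ho i hi
    · have := (hB.good I h1 h2).cost_nonneg o ho τ
      simp only [lift]
      linarith
    · have h4 := (hB.val_rest h1 h2 ho l hl hl').2
      have h5 : max φ (v - a (Jᶜ.card - I.card)) ≤ v - η := by
        apply max_le
        · have := min_le_left (v - φ) (a (Jᶜ.card - I.card))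
          linarith
        · have := min_le_right (v - φ) (a (Jᶜ.card - I.card))
          linarith
      simp only [lift]
      linarith
  rw [div_mul_eq_mul_div, le_div_iff₀ hηpos]
  linarith

/-- lower bound for a member of the block -/
theorem member (hB : Block N φ J κ v a R Ws) (hφ : φ < v) {I : Finset ι}
    (h1 : I.Nonempty) (h2 : I ⊆ Jᶜ) :
    ∀ᶠ τ : ℝ in atTop, ∀ ξ : ι → ℝ, ∀ o ∈ Ws I,
      (obj J τ ξ (lift a Jᶜ.card Jᶜ.card v (mix κ J Jᶜ v φ, fun _ => (0 : ℝ))) ≤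
        obj J τ ξ (lift a Jᶜ.card I.card v o)) →
      ∀ i ∈ I, obj J τ ξ (mix κ J (I.erase i) v φ, costB a Jᶜ.card (I.erase i).card v) ≤
        obj J τ ξ (lift a Jᶜ.card I.card v o) →
        v - a (Jᶜ.card - I.card + 1) - Real.log (2 * (v - φ)) / τ ≤ ξ i := by
  set n := Jᶜ.card with hn
  set η := min (v - φ) (a (n - I.card)) with hη
  have hηpos : 0 < η := lt_min (by linarith) (hB.pos _)
  have hvφ : 0 < v - φ := by linarith
  have hanti : v - a (n - I.card) < v - a (n - I.card + 1) := by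
    linarith [hB.anti (n - I.card)]
  filter_upwards [ev_exp_dom ((n : ℝ) * ((v - φ) * (n / η))) hanti (show (0:ℝ) < 1 / 2 by norm_num),
    eventually_gt_atTop 0] with τ hdom hτ ξ o ho hmax1 i hi hmax2
  have hlow : ∀ l ∉ J, l ∉ I → Real.exp (τ * ξ l) ≤ (n / η) * Real.exp ((v - a (n - I.card)) * τ) :=
    fun l hl hl' => hB.below hφ h1 h2 hτ ho hmax1 hl hl'
  have h3 := lower_member (φ := φ) (κ := κ) (a := a) (o := lift a Jᶜ.card I.card v o) hφ.le h2
    (B := (n / η) * Real.exp ((v - a (n - I.card)) * τ))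
    (mul_nonneg (div_nonneg (Nat.cast_nonneg _) hηpos.le) (Real.exp_pos _).le)
    (fun l hl => hB.val_I h1 h2 ho l hl) (fun l hl => hB.val_le hφ.le h1 h2 ho l hl)
    (by
      have := (hB.good I h1 h2).cost_nonneg o ho τ
      simp only [lift]
      linarith : costB a Jᶜ.card I.card v τ ≤ (lift a Jᶜ.card I.card v o).2 τ) hi hmax2 hlow
  have h4 : (1 / (2 * (v - φ))) * Real.exp ((v - a (n - I.card + 1)) * τ) ≤
      Real.exp (τ * ξ i) := by
    rw [div_mul_eq_mul_div, one_mul, div_le_iff₀ (by linarith)]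
    have h5 : (n : ℝ) * ((v - φ) * ((n / η) * Real.exp ((v - a (n - I.card)) * τ))) =
        (n : ℝ) * ((v - φ) * (n / η)) * Real.exp ((v - a (n - I.card)) * τ) := by ring
    rw [← hn] at h3
    rw [h5] at h3
    linarith
  have h5 := ge_of_exp_ge hτ (by positivity) h4
  rw [one_div, Real.log_inv] at h5
  have : v - a (n - I.card + 1) - Real.log (2 * (v - φ)) / τ =
    v - a (n - I.card + 1) + -Real.log (2 * (v - φ)) / τ := by ring
  rw [this]
  exact h5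

end Block

end Vale.Agent.P072
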