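import Vale.Agent.P072.Flow

set_option autoImplicit false

namespace Vale.Agent.P072

open MeasureTheory Filter Set

open scoped Topology

variable {d : ℕ}

/-- clamp all coordinates into `[m, M]` -/
def clampv (m M : ℝ) (x : Fin d → ℝ) : Fin d → ℝ := fun i => max m (min (x i) M)

theorem clampv_continuous (m M : ℝ) : Continuous (clampv m M : (Fin d → ℝ) → Fin d → ℝ) := by
  unfold clampv
  fun_prop

theorem clampv_lip (m M : ℝ) (x y : Fin d → ℝ) : ‖clampv m M x - clampv m M y‖ ≤ ‖x - y‖ := by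
  rw [pi_norm_le_iff_of_nonneg (norm_nonneg _)]
  intro i
  have h1 : ‖(x - y) i‖ ≤ ‖x - y‖ := norm_le_pi_norm _ i
  refine le_trans ?_ h1
  simp only [clampv, Pi.sub_apply, Real.norm_eq_abs]
  have h2 := abs_max_sub_max_le_max m (min (x i) M) m (min (y i) M)
  have h3 := abs_min_sub_min_le_max (x i) M (y i) M
  simp only [sub_self, abs_zero] at h2 h3
  exact le_trans h2 (max_le (abs_nonneg _) (le_trans h3 (max_le le_rfl (abs_nonneg _))))

theorem clampv_mem {m M : ℝ} (h : m ≤ M) (x : Fin d → ℝ) :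
    clampv m M x ∈ Icc (fun _ => m : Fin d → ℝ) (fun _ => M) :=
  ⟨fun _ => le_max_left _ _, fun _ => max_le h (min_le_right _ _)⟩

theorem clampv_eq {m M : ℝ} {x : Fin d → ℝ} (h : ∀ i, m ≤ x i ∧ x i ≤ M) :
    clampv m M x = x := by
  funext i
  simp only [clampv]
  rw [min_eq_left (h i).2, max_eq_right (h i).1]

/-- Lipschitz and boundedness constants for the clamped field -/
theorem exists_clamped_bounds (G : ReactionNetwork d) {ε m M : ℝ} (hε : 0 < ε) (hmM : m ≤ M) :
    ∃ L Mb : ℝ, 0 ≤ L ∧ 0 ≤ Mb ∧ ∀ k : (Fin d → ℕ) × (Fin d → ℕ) → ℝ,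
      (∀ r ∈ G.reactions, ε ≤ k r ∧ k r ≤ ε⁻¹) →
      (∀ x y, ‖G.massAction k (clampv m M x) - G.massAction k (clampv m M y)‖ ≤ L * ‖x - y‖) ∧
      (∀ x, ‖G.massAction k (clampv m M x)‖ ≤ Mb) := by
  have h1 : ∀ r : (Fin d → ℕ) × (Fin d → ℕ), ∃ L : ℝ, 0 ≤ L ∧ ∀ x y : Fin d → ℝ,
      |mon r.1 (clampv m M x) - mon r.1 (clampv m M y)| ≤ L * ‖x - y‖ := by
    intro r
    obtain ⟨C, hC⟩ := ((mon_contDiff r.1).contDiffOn
      (s := Icc (fun _ => m : Fin d → ℝ) (fun _ => M))).exists_lipschitzOnWith one_ne_zero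
      (convex_Icc _ _) isCompact_Icc
    refine ⟨C, C.2, fun x y => ?_⟩
    have h2 := hC.dist_le_mul _ (clampv_mem hmM x) _ (clampv_mem hmM y)
    rw [Real.dist_eq, dist_eq_norm] at h2
    exact le_trans h2 (mul_le_mul_of_nonneg_left (clampv_lip m M x y) C.2)
  have h2 : ∀ r : (Fin d → ℕ) × (Fin d → ℕ), ∃ C : ℝ, 0 ≤ C ∧ ∀ x : Fin d → ℝ,
      |mon r.1 (clampv m M x)| ≤ C := by
    intro r
    obtain ⟨C, hC⟩ := (isCompact_Icc (a := (fun _ => m : Fin d → ℝ))
      (b := (fun _ => M))).exists_bound_of_continuousOn (mon_continuous r.1).continuousOn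
    refine ⟨max C 0, le_max_right _ _, fun x => ?_⟩
    exact le_trans (hC _ (clampv_mem hmM x)) (le_max_left _ _)
  choose Lr hLr0 hLr using h1
  choose Cr hCr0 hCr using h2
  refine ⟨∑ r ∈ G.reactions, ε⁻¹ * Lr r * ‖reactionVector r‖,
    ∑ r ∈ G.reactions, ε⁻¹ * Cr r * ‖reactionVector r‖, ?_, ?_, ?_⟩
  · exact Finset.sum_nonneg (fun r _ => by have := hLr0 r; positivity)
  · exact Finset.sum_nonneg (fun r _ => by have := hCr0 r; positivity)
  · intro k hk
    constructor
    · intro x y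
      rw [massAction_eq, massAction_eq, ← Finset.sum_sub_distrib, Finset.sum_mul]
      refine le_trans (norm_sum_le _ _) (Finset.sum_le_sum (fun r hr => ?_))
      rw [← sub_smul, norm_smul, ← mul_sub, norm_mul, Real.norm_eq_abs, Real.norm_eq_abs]
      have hkr := hk r hr
      have h3 : |k r| ≤ ε⁻¹ := by
        rw [abs_of_nonneg (by linarith)]
        exact hkr.2
      have h4 := hLr r x y
      calc |k r| * |mon r.1 (clampv m M x) - mon r.1 (clampv m M y)| * ‖reactionVector r‖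
          ≤ ε⁻¹ * (Lr r * ‖x - y‖) * ‖reactionVector r‖ := by
            apply mul_le_mul_of_nonneg_right _ (norm_nonneg _)
            exact mul_le_mul h3 h4 (abs_nonneg _) (by positivity)
        _ = ε⁻¹ * Lr r * ‖reactionVector r‖ * ‖x - y‖ := by ring
    · intro x
      rw [massAction_eq]
      refine le_trans (norm_sum_le _ _) (Finset.sum_le_sum (fun r hr => ?_))
      rw [norm_smul, norm_mul, Real.norm_eq_abs, Real.norm_eq_abs]
      have hkr := hk r hr
      have h3 : |k r| ≤ ε⁻¹ := by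
        rw [abs_of_nonneg (by linarith)]
        exact hkr.2
      apply mul_le_mul_of_nonneg_right _ (norm_nonneg _)
      exact mul_le_mul h3 (hCr r x) (abs_nonneg _) (by positivity)

/-- staying lemma for Carathéodory solutions on `[0, b]` -/
theorem stay_sol {G : ReactionNetwork d} {ε : ℝ} (hε : 0 < ε)
    {K : Set ((Fin d → ℝ) × (ℝ → ℝ))} {μ τs : ℝ}
    (S : Setup G ε K μ τs) {c : Fin d → ℝ} {τ0 : ℝ} (hτ0 : τs ≤ τ0)
    (hc : ∀ τ, τ0 ≤ τ → ∀ p ∈ K, ∑ i, p.1 i * c i < p.2 τ)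
    {τ1 cin B : ℝ}
    (hcin : ∀ τ ∈ Icc τs τ1, ∀ x, InK K τ x → ∀ p ∈ K,
      ∑ i, p.1 i * x i = p.2 τ → (∃ r ∈ G.reactions, gap p.1 r ≠ 0) →
      ∀ᶠ x' in 𝓝 x, ∀ k : (Fin d → ℕ) × (Fin d → ℕ) → ℝ,
        (∀ r ∈ G.reactions, ε ≤ k r ∧ k r ≤ ε⁻¹) → ∑ i, p.1 i * G.massAction k x' i ≤ -cin)
    (hB : ∀ p ∈ K, ∀ s ∈ Icc τ0 τ1, ∀ t ∈ Icc τ0 τ1, |p.2 s - p.2 t| ≤ B * |s - t|)
    {κ : ℝ → (Fin d → ℕ) × (Fin d → ℕ) → ℝ} (hκ : G.AdmissibleRates ε κ)
    {a b τa η : ℝ} (ha0 : 0 ≤ a) (hη : 0 ≤ η) (hηB : B * η ≤ cin) (hτa : τa ≤ τ1)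
    (hτb : τ0 ≤ τa - η * (b - a))
    {x : ℝ → Fin d → ℝ} (hcont : ContinuousOn x (Icc 0 b))
    (hx : ∀ t ∈ Icc 0 b, x t = x 0 + ∫ s in (0 : ℝ)..t, G.massAction (κ s) (x s))
    (hS : x 0 - c ∈ G.stoichiometricSubspace) (ha : InK K τa (x a)) :
    ∀ t ∈ Icc a b, InK K (τa - η * (t - a)) (x t) := by
  have hint : ∀ t ∈ Icc 0 b, ∀ t' ∈ Icc t b,
      IntervalIntegrable (fun s => G.massAction (κ s) (x s)) volume t t' := by
    intro t ht t' ht'
    apply massAction_intervalIntegrable hε (fun r hr => (hκ r hr).1)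
    · intro r hr s hs
      rw [uIcc_of_le ht'.1] at hs
      exact (hκ r hr).2 s (le_trans ht.1 hs.1)
    · rw [uIcc_of_le ht'.1]
      exact hcont.mono (Icc_subset_Icc ht.1 ht'.2)
  have hsub : Icc a b ⊆ Icc 0 b := Icc_subset_Icc_left ha0
  apply stay S hτ0 hc hcin hB hη hηB hτa hτb (hcont.mono hsub)
    (fun t ht t' ht' => hint t (hsub ht) t' ht')
  · intro t ht t' ht'
    have ht0 := hsub ht
    have h0 : (0 : ℝ) ∈ Icc 0 b := ⟨le_rfl, le_trans ht0.1 ht0.2⟩
    have ht'0 : t' ∈ Icc 0 b := ⟨le_trans ht0.1 ht'.1, ht'.2⟩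
    rw [hx t' ht'0, hx t ht0, add_assoc, intervalIntegral.integral_add_adjacent_intervals
      (hint 0 h0 t ht0) (hint t ht0 t' ht')]
  · intro t ht
    have ht0 := hsub ht
    rw [hx t ht0]
    have h1 : x 0 + (∫ s in (0 : ℝ)..t, G.massAction (κ s) (x s)) - c =
        (x 0 - c) + ∫ s in (0 : ℝ)..t, G.massAction (κ s) (x s) := by abel
    rw [h1]
    apply Submodule.add_mem _ hS
    apply massAction_integral_mem hε (fun r hr => (hκ r hr).1)
    · intro r hr s hs
      rw [uIcc_of_le ht0.1] at hs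
      exact (hκ r hr).2 s hs.1
    · rw [uIcc_of_le ht0.1]
      exact hcont.mono (Icc_subset_Icc_right ht0.2)
  · intro t ht _
    filter_upwards [self_mem_nhdsWithin] with s hs
    exact ⟨κ s, fun r hr => (hκ r hr).2 s (le_trans (hsub (Ico_subset_Icc_self ht)).1
      (le_of_lt hs)), rfl⟩
  · exact ha

/-- the compact attracting set -/
theorem compact_K0 {G : ReactionNetwork d} {ε : ℝ} {K : Set ((Fin d → ℝ) × (ℝ → ℝ))} {μ τs : ℝ}
    (S : Setup G ε K μ τs) (c : Fin d → ℝ) {τ0 : ℝ} (hτ0 : τs ≤ τ0) :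
    IsCompact {x : Fin d → ℝ | x - c ∈ G.stoichiometricSubspace ∧ InK K τ0 x} := by
  apply IsCompact.of_isClosed_subset (isCompact_Icc (a := (fun _ => (1 / 2) * Real.exp (-τ0) :
    Fin d → ℝ)) (b := (fun _ => 2 * Real.exp (μ * τ0))))
  · have h1 : IsClosed (G.stoichiometricSubspace : Set (Fin d → ℝ)) :=
      Submodule.closed_of_finiteDimensional _
    have h1' : IsClosed {x : Fin d → ℝ | x - c ∈ G.stoichiometricSubspace} :=
      h1.preimage (continuous_id.sub continuous_const)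
    have h2 : {x : Fin d → ℝ | InK K τ0 x} = ⋂ p ∈ K, {x | ∑ i, p.1 i * x i ≤ p.2 τ0} := by
      ext x
      constructor
      · intro h
        exact Set.mem_iInter₂.mpr (fun p hp => h p hp)
      · intro h p hp
        exact Set.mem_iInter₂.mp h p hp
    have h2' : IsClosed {x : Fin d → ℝ | InK K τ0 x} := by
      rw [h2]
      apply isClosed_biInter
      intro p _
      apply isClosed_le _ continuous_const
      fun_prop
    exact h1'.inter h2'
  · rintro x ⟨_, hx⟩
    exact ⟨fun i => (S.box τ0 hτ0 x hx i).1, fun i => (S.box τ0 hτ0 x hx i).2⟩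

/-- The strong permanence theorem (time-dependent measurable rates). -/
theorem strongly_permanent {G : ReactionNetwork d} (hd : 0 < d) (hG : G.WeaklyReversible)
    {ε : ℝ} (hε : 0 < ε) {c : Fin d → ℝ} (hcpos : ∀ i, 0 < c i) : G.StronglyPermanent ε c := by
  obtain ⟨K, μ, τs, S⟩ := exists_setup hd hG hε
  obtain ⟨τc, hτc⟩ := Filter.eventually_atTop.mp (S.exh c hcpos)
  set τ0 := max τs τc with hτ0def
  have hτ0 : τs ≤ τ0 := le_max_left _ _
  have hc : ∀ τ, τ0 ≤ τ → ∀ p ∈ K, ∑ i, p.1 i * c i < p.2 τ := fun τ hτ =>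
    hτc τ (le_trans (le_max_right _ _) hτ)
  have hpos : ∀ τ, τ0 ≤ τ → ∀ x, InK K τ x → ∀ i, 0 < x i := by
    intro τ hτ x hx i
    have h1 := (S.box τ (le_trans hτ0 hτ) x hx i).1
    have h2 := Real.exp_pos (-τ)
    linarith
  -- starting level
  have hlevel : ∀ x₀ ∈ G.positiveClass c, ∃ τ1, τ0 ≤ τ1 ∧ InK K τ1 x₀ := by
    intro x₀ hx₀
    obtain ⟨τ1, h1⟩ := Filter.eventually_atTop.mp (S.exh x₀ hx₀.2)
    exact ⟨max τ0 τ1, le_max_left _ _, fun p hp => (h1 _ (le_max_right _ _) p hp).le⟩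
  refine ⟨{x | x - c ∈ G.stoichiometricSubspace ∧ InK K τ0 x}, compact_K0 S c hτ0, ?_, ?_⟩
  · rintro x ⟨hx1, hx2⟩
    exact ⟨hx1, hpos τ0 le_rfl x hx2⟩
  intro κ hκ
  constructor
  · -- existence and uniqueness
    intro x₀ hx₀
    obtain ⟨τ1, hτ1, hin⟩ := hlevel x₀ hx₀
    obtain ⟨cin, hcin0, hcin⟩ := S.inw τ1 (le_trans hτ0 hτ1)
    obtain ⟨B, hB0, hB⟩ := exists_lip S.finite S.smooth τ0 τ1
    set m : ℝ := (1 / 4) * Real.exp (-τ1) with hm
    set M : ℝ := 2 * Real.exp (μ * τ1) + 1 with hM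
    have hboxx : ∀ x, InK K τ1 x → ∀ i, m < x i ∧ x i < M := by
      intro x hx i
      have h1 := S.box τ1 (le_trans hτ0 hτ1) x hx i
      have h2 := Real.exp_pos (-τ1)
      constructor
      · rw [hm]; linarith [h1.1]
      · rw [hM]; linarith [h1.2]
    have hmM : m ≤ M := by
      have h1 := hboxx x₀ hin ⟨0, hd⟩
      linarith [h1.1, h1.2]
    obtain ⟨L, Mb, hL0, hMb0, hLM⟩ := exists_clamped_bounds G hε hmM
    -- the clamped field
    set F : ℝ → (Fin d → ℝ) → (Fin d → ℝ) := fun s x =>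
      G.massAction (κ (max s 0)) (clampv m M x) with hF
    have hk' : ∀ s : ℝ, ∀ r ∈ G.reactions, ε ≤ κ (max s 0) r ∧ κ (max s 0) r ≤ ε⁻¹ :=
      fun s r hr => (hκ r hr).2 _ (le_max_right _ _)
    have hmeas' : ∀ r ∈ G.reactions, Measurable (fun s => κ (max s 0) r) := fun r hr =>
      (hκ r hr).1.comp (measurable_id.max measurable_const)
    have hFint : ∀ (y : ℝ → Fin d → ℝ) (a b : ℝ), ContinuousOn y (uIcc a b) →
        IntervalIntegrable (fun s => F s (y s)) volume a b := by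
      intro y a b hy
      exact massAction_intervalIntegrable hε hmeas' (fun r hr s _ => hk' s r hr)
        ((clampv_continuous m M).comp_continuousOn hy)
    obtain ⟨x, hxc, hx0, hxe⟩ := exists_sol F hMb0 hL0
      (fun y hy a b => hFint y a b hy.continuousOn)
      (fun s x => (hLM _ (hk' s)).2 x) (fun s x y => (hLM _ (hk' s)).1 x y) x₀
    -- the clamped solution stays in the polytope
    have hstayx : ∀ t, 0 ≤ t → InK K τ1 (x t) := by
      intro b hb
      have h1 := stay S hτ0 hc hcin hB (a := 0) (b := b) (τa := τ1) (η := 0) le_rfl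
        (by simpa using hcin0.le) le_rfl (by simpa using hτ1) (x := x)
        (Fs := fun s => F s (x s)) hxc.continuousOn
        (fun t _ t' _ => hFint x t t' hxc.continuousOn) ?_ ?_ ?_ (by rw [hx0]; exact hin)
      · have h2 := h1 b ⟨hb, le_rfl⟩
        simpa using h2
      · intro t ht t' ht'
        rw [hxe t' (le_trans ht.1 ht'.1), hxe t ht.1, add_assoc,
          intervalIntegral.integral_add_adjacent_intervals (hFint x _ _ hxc.continuousOn)
          (hFint x _ _ hxc.continuousOn)]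
      · intro t ht
        rw [hxe t ht.1]
        have h2 : x₀ + (∫ s in (0 : ℝ)..t, F s (x s)) - c =
            (x₀ - c) + ∫ s in (0 : ℝ)..t, F s (x s) := by abel
        rw [h2]
        apply Submodule.add_mem _ hx₀.1
        exact massAction_integral_mem hε hmeas' (fun r hr s _ => hk' s r hr)
          ((clampv_continuous m M).comp_continuousOn hxc.continuousOn)
      · intro t ht hint
        have h2 : InK K τ1 (x t) := by simpa using hint
        have h3 : ∀ᶠ s in 𝓝 t, ∀ i, m < x s i ∧ x s i < M := by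
          rw [Filter.eventually_all]
          intro i
          have h4 : ContinuousAt (fun s => x s i) t :=
            ((continuous_apply i).comp hxc).continuousAt
          exact (h4.eventually (lt_mem_nhds (hboxx _ h2 i).1)).and
            (h4.eventually (gt_mem_nhds (hboxx _ h2 i).2))
        filter_upwards [h3.filter_mono nhdsWithin_le_nhds] with s hs
        refine ⟨κ (max s 0), hk' s, ?_⟩
        simp only [hF]
        rw [clampv_eq (fun i => ⟨(hs i).1.le, (hs i).2.le⟩)]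
    have hFeq : ∀ (s : ℝ) (z : Fin d → ℝ), 0 ≤ s → InK K τ1 z →
        F s z = G.massAction (κ s) z := by
      intro s z hs hz
      simp only [hF]
      rw [clampv_eq (fun i => ⟨(hboxx z hz i).1.le, (hboxx z hz i).2.le⟩), max_eq_left hs]
    have hxe' : ∀ t, 0 ≤ t → x t = x 0 + ∫ s in (0 : ℝ)..t, G.massAction (κ s) (x s) := by
      intro t ht
      rw [hxe t ht, hx0]
      congr 1
      apply intervalIntegral.integral_congr
      intro s hs
      rw [uIcc_of_le ht] at hs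
      exact hFeq s (x s) hs.1 (hstayx s hs.1)
    refine ⟨x, hx0, ⟨hxc.continuousOn, fun t ht => hxe' t ht⟩, ?_, ?_⟩
    · intro t ht
      refine ⟨?_, hpos τ1 hτ1 _ (hstayx t ht)⟩
      rw [hxe' t ht, hx0]
      have h2 : x₀ + (∫ s in (0 : ℝ)..t, G.massAction (κ s) (x s)) - c =
          (x₀ - c) + ∫ s in (0 : ℝ)..t, G.massAction (κ s) (x s) := by abel
      rw [h2]
      apply Submodule.add_mem _ hx₀.1
      apply massAction_integral_mem hε (fun r hr => (hκ r hr).1) _ hxc.continuousOn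
      intro r hr s hs
      rw [uIcc_of_le ht] at hs
      exact (hκ r hr).2 s hs.1
    · intro b y hy0 hy t ht
      have hsub : Icc 0 t ⊆ Ico 0 b := fun s hs => ⟨hs.1, lt_of_le_of_lt hs.2 ht.2⟩
      have hyc : ContinuousOn y (Icc 0 t) := hy.1.mono hsub
      have hstayy : ∀ s ∈ Icc 0 t, InK K τ1 (y s) := by
        intro s hs
        have h1 := stay_sol hε S hτ0 hc hcin hB hκ (a := 0) (b := t) (τa := τ1) (η := 0)
          le_rfl le_rfl (by simpa using hcin0.le) le_rfl (by simpa using hτ1) hyc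
          (fun s hs => hy.2 s (hsub hs)) (by rw [hy0]; exact hx₀.1) (by rw [hy0]; exact hin)
        have h2 := h1 s hs
        simpa using h2
      have h1 := unique_sol F hL0 (fun s x y => (hLM _ (hk' s)).1 x y) (x := y) (y := x)
        (x0 := x₀) (b := t) hyc hxc.continuousOn
        (fun s hs => hFint y 0 s (by
          rw [uIcc_of_le hs.1]
          exact hyc.mono (Icc_subset_Icc_right hs.2)))
        (fun s _ => hFint x 0 s hxc.continuousOn)
        (fun s hs => by
          rw [hy.2 s (hsub hs), hy0]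
          congr 1
          apply intervalIntegral.integral_congr
          intro u hu
          rw [uIcc_of_le hs.1] at hu
          exact (hFeq u (y u) hu.1 (hstayy u ⟨hu.1, le_trans hu.2 hs.2⟩)).symm)
        (fun s hs => hxe s hs.1)
      exact h1 t ⟨ht.1, le_rfl⟩
  · -- attraction
    intro x hx0 hx
    obtain ⟨τ1, hτ1, hin⟩ := hlevel (x 0) hx0
    obtain ⟨cin, hcin0, hcin⟩ := S.inw τ1 (le_trans hτ0 hτ1)
    obtain ⟨B, hB0, hB⟩ := exists_lip S.finite S.smooth τ0 τ1
    set η := cin / B with hη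
    have hηpos : 0 < η := by positivity
    set T := (τ1 - τ0) / η with hT
    have hT0 : 0 ≤ T := div_nonneg (by linarith) hηpos.le
    have hηT : η * T = τ1 - τ0 := by rw [hT]; field_simp
    have hBη : B * η = cin := by rw [hη]; field_simp
    have hsub : ∀ b, Icc (0 : ℝ) b ⊆ Ici 0 := fun b s hs => hs.1
    have h1 := stay_sol hε S hτ0 hc hcin hB hκ (a := 0) (b := T) (τa := τ1) (η := η)
      le_rfl hηpos.le hBη.le le_rfl (by rw [sub_zero, hηT]; linarith) (hx.1.mono (hsub T))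
      (fun s hs => hx.2 s (hsub T hs)) hx0.1 hin T ⟨hT0, le_rfl⟩
    have h2 : InK K τ0 (x T) := by
      have : τ1 - η * (T - 0) = τ0 := by rw [sub_zero, hηT]; ring
      rwa [this] at h1
    refine ⟨T, fun t ht => ?_⟩
    have ht0 : 0 ≤ t := le_trans hT0 ht
    have h3 := stay_sol hε S hτ0 hc hcin hB hκ (a := T) (b := t) (τa := τ0) (η := 0)
      hT0 le_rfl (by simpa using hcin0.le) hτ1 (by simp) (hx.1.mono (hsub t))
      (fun s hs => hx.2 s (hsub t hs)) hx0.1 h2 t ⟨ht, le_rfl⟩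
    refine ⟨?_, by simpa using h3⟩
    rw [hx.2 t ht0]
    have h4 : x 0 + (∫ s in (0 : ℝ)..t, G.massAction (κ s) (x s)) - c =
        (x 0 - c) + ∫ s in (0 : ℝ)..t, G.massAction (κ s) (x s) := by abel
    rw [h4]
    apply Submodule.add_mem _ hx0.1
    apply massAction_integral_mem hε (fun r hr => (hκ r hr).1)
    · intro r hr s hs
      rw [uIcc_of_le ht0] at hs
      exact (hκ r hr).2 s hs.1
    · rw [uIcc_of_le ht0]
      exact hx.1.mono (hsub t)

end Vale.Agent.P072
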