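import Vale.Agent.P072.Ode
import Vale.Agent.P072.Inward
import Vale.Agent.P072.Poly

set_option autoImplicit false

namespace Vale.Agent.P072

open MeasureTheory Filter Set

open scoped Topology

variable {d : ℕ}

/-- pairing with a weight as a continuous linear functional -/
noncomputable def pairL (w : Fin d → ℝ) : (Fin d → ℝ) →L[ℝ] ℝ :=
  ∑ i, w i • ContinuousLinearMap.proj i

theorem pairL_apply (w v : Fin d → ℝ) : pairL w v = ∑ i, w i * v i := by
  simp [pairL]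

theorem trap {K : Set ((Fin d → ℝ) × (ℝ → ℝ))} (hK : K.Finite) {x : ℝ → Fin d → ℝ}
    {β : ((Fin d → ℝ) × (ℝ → ℝ)) → ℝ → ℝ} {a b : ℝ} (hx : ContinuousOn x (Icc a b))
    (hβ : ∀ p ∈ K, ContinuousOn (β p) (Icc a b))
    (h0 : ∀ p ∈ K, ∑ i, p.1 i * x a i ≤ β p a)
    (hstep : ∀ t ∈ Ico a b, (∀ p ∈ K, ∑ i, p.1 i * x t i ≤ β p t) → ∀ p ∈ K,
      ∑ i, p.1 i * x t i = β p t → ∀ᶠ t' in 𝓝[>] t, ∑ i, p.1 i * x t' i ≤ β p t') :
    ∀ t ∈ Icc a b, ∀ p ∈ K, ∑ i, p.1 i * x t i ≤ β p t := by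
  rcases lt_or_ge b a with hab | hab
  · intro t ht
    exact absurd (le_trans ht.1 ht.2) (not_le.mpr hab)
  set s : Set ℝ := {t | ∀ p ∈ K, ∑ i, p.1 i * x t i ≤ β p t} with hs
  have hcp : ∀ p : (Fin d → ℝ) × (ℝ → ℝ), ContinuousOn (fun t => ∑ i, p.1 i * x t i) (Icc a b) := by
    intro p
    have h1 : (fun t => ∑ i, p.1 i * x t i) = fun t => pairL p.1 (x t) := by
      funext t
      rw [pairL_apply]
    rw [h1]
    exact (pairL p.1).continuous.comp_continuousOn hx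
  have hclosed : IsClosed (s ∩ Icc a b) := by
    have h1 : s ∩ Icc a b = Icc a b ∩ ⋂ p ∈ K, {t ∈ Icc a b | ∑ i, p.1 i * x t i ≤ β p t} := by
      ext t
      constructor
      · rintro ⟨h1, h2⟩
        exact ⟨h2, Set.mem_iInter₂.mpr (fun p hp => ⟨h2, h1 p hp⟩)⟩
      · rintro ⟨h1, h2⟩
        exact ⟨fun p hp => (Set.mem_iInter₂.mp h2 p hp).2, h1⟩
    rw [h1]
    apply isClosed_Icc.inter
    apply isClosed_biInter
    intro p hp
    exact isClosed_Icc.isClosed_le (hcp p) (hβ p hp)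
  have hsub : Icc a b ⊆ s := by
    apply IsClosed.Icc_subset_of_forall_mem_nhdsWithin hclosed h0
    rintro t ⟨hts, htab⟩
    have h1 : ∀ p ∈ K, ∀ᶠ t' in 𝓝[>] t, ∑ i, p.1 i * x t' i ≤ β p t' := by
      intro p hp
      rcases (hts p hp).lt_or_eq with hlt | heq
      · have hnhds : 𝓝[>] t ≤ 𝓝[Icc a b] t := by
          rw [← nhdsWithin_Ioo_eq_nhdsGT htab.2]
          apply nhdsWithin_mono
          intro u hu
          exact ⟨le_trans htab.1 hu.1.le, hu.2.le⟩
        have h2 : ContinuousWithinAt (fun t => ∑ i, p.1 i * x t i) (Icc a b) t :=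
          hcp p t (Ico_subset_Icc_self htab)
        have h3 : ContinuousWithinAt (β p) (Icc a b) t := hβ p hp t (Ico_subset_Icc_self htab)
        have h4 : ∀ᶠ t' in 𝓝[Icc a b] t, ∑ i, p.1 i * x t' i < β p t' :=
          h2.eventually_lt h3 hlt
        exact (h4.filter_mono hnhds).mono (fun _ h => h.le)
      · exact hstep t htab hts p hp heq
    have h2 := (Filter.eventually_all_finite hK).mpr h1
    exact h2
  intro t ht
  exact hsub ht

theorem step_of_integral {Fs : ℝ → Fin d → ℝ} {x : ℝ → Fin d → ℝ} {t b c : ℝ} (htb : t < b)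
    (hint : ∀ t' ∈ Icc t b, IntervalIntegrable Fs volume t t')
    (hx : ∀ t' ∈ Icc t b, x t' = x t + ∫ s in t..t', Fs s) {w : Fin d → ℝ}
    (hneg : ∀ᶠ s in 𝓝[>] t, ∑ i, w i * Fs s i ≤ -c) :
    ∀ᶠ t' in 𝓝[>] t, ∑ i, w i * x t' i ≤ ∑ i, w i * x t i - c * (t' - t) := by
  obtain ⟨u, hu, hu'⟩ := mem_nhdsGT_iff_exists_Ioo_subset.mp hneg
  have hu0 : t < u := hu
  filter_upwards [Ioo_mem_nhdsGT (lt_min hu0 htb)] with t' ht'
  have h1 : t' ∈ Icc t b := ⟨ht'.1.le, ht'.2.le.trans (min_le_right _ _)⟩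
  have h2 : t' < u := lt_of_lt_of_le ht'.2 (min_le_left _ _)
  rw [← pairL_apply, ← pairL_apply, hx t' h1, map_add]
  rw [← ContinuousLinearMap.intervalIntegral_comp_comm (pairL w) (hint t' h1)]
  have h3 : ∫ s in t..t', pairL w (Fs s) ≤ ∫ _s in t..t', (-c) := by
    apply intervalIntegral.integral_mono_on_of_le_Ioo h1.1
    · exact ⟨(pairL w).integrable_comp (hint t' h1).1, (pairL w).integrable_comp (hint t' h1).2⟩
    · exact intervalIntegrable_const
    · intro s hs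
      have h4 : ∑ i, w i * Fs s i ≤ -c := hu' ⟨hs.1, hs.2.trans h2⟩
      rw [pairL_apply]
      exact h4
  rw [intervalIntegral.integral_const, smul_eq_mul] at h3
  linarith

end Vale.Agent.P072
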