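import Vale.Agent.P072.Main

set_option autoImplicit false
set_option linter.unusedSectionVars false

namespace Vale.Agent.P072

open Finset Filter

variable {ι : Type*} [Fintype ι] [DecidableEq ι]

/-- lower bound on the leading coordinate when the leading block is a singleton -/
theorem single_lower {J : Finset ι} {τ σ B0 B D : ℝ} {ξ : ι → ℝ} {o : (ι → ℝ) × (ℝ → ℝ)}
    {i : ι} (hi : i ∉ J) (hoi : o.1 i = σ) (hB0 : 0 ≤ B0) (hB : 0 ≤ B)
    (hol : ∀ l ∉ J, |o.1 l| ≤ B0) (hlow : ∀ l ∉ J, l ≠ i → Real.exp (τ * ξ l) ≤ B)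
    (ho2 : 0 ≤ o.2 τ) (ho2' : o.2 τ ≤ D) (hact : obj J τ ξ o = σ * Real.exp (σ * τ)) :
    |σ| * Real.exp (σ * τ) ≤ |σ| * Real.exp (τ * ξ i) + Jᶜ.card * (B0 * B) + D := by
  unfold obj at hact
  have h1 : ∑ l ∈ Jᶜ, o.1 l * Real.exp (τ * ξ l) = σ * Real.exp (τ * ξ i) +
      ∑ l ∈ Jᶜ.erase i, o.1 l * Real.exp (τ * ξ l) := by
    rw [← Finset.add_sum_erase Jᶜ _ (Finset.mem_compl.mpr hi), hoi]
  have h2 : |∑ l ∈ Jᶜ.erase i, o.1 l * Real.exp (τ * ξ l)| ≤ Jᶜ.card * (B0 * B) := by
    refine le_trans (Finset.abs_sum_le_sum_abs _ _) ?_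
    have h3 : ∑ l ∈ Jᶜ.erase i, |o.1 l * Real.exp (τ * ξ l)| ≤ ∑ _l ∈ Jᶜ.erase i, B0 * B := by
      apply Finset.sum_le_sum
      intro l hl
      have hl1 := Finset.ne_of_mem_erase hl
      have hl2 := Finset.mem_compl.mp (Finset.mem_of_mem_erase hl)
      rw [abs_mul, abs_of_pos (Real.exp_pos _)]
      exact mul_le_mul (hol l hl2) (hlow l hl2 hl1) (Real.exp_pos _).le hB0
    refine le_trans h3 ?_
    rw [Finset.sum_const, nsmul_eq_mul]
    apply mul_le_mul_of_nonneg_right _ (mul_nonneg hB0 hB)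
    exact_mod_cast Finset.card_le_card (Finset.erase_subset _ _)
  set s := ∑ l ∈ Jᶜ.erase i, o.1 l * Real.exp (τ * ξ l) with hs
  have h3 : σ * Real.exp (σ * τ) = σ * Real.exp (τ * ξ i) + s - o.2 τ := by
    rw [← hact, h1]
  have h4 : |σ| * Real.exp (σ * τ) = |σ * Real.exp (τ * ξ i) + s - o.2 τ| := by
    rw [← h3, abs_mul, abs_of_pos (Real.exp_pos _)]
  rw [h4]
  have h5 : |σ * Real.exp (τ * ξ i) + s - o.2 τ| ≤ |σ * Real.exp (τ * ξ i)| + |s| + |o.2 τ| := by
    refine le_trans (abs_sub _ _) ?_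
    have := abs_add_le (σ * Real.exp (τ * ξ i)) s
    linarith
  rw [abs_mul, abs_of_pos (Real.exp_pos _), abs_of_nonneg ho2] at h5
  linarith

theorem wall {N : Set (ι → ℝ)} (hN : N.Finite) {φ σ : ℝ} {J : Finset ι} (hJ : Jᶜ.Nonempty)
    (hσ : σ ≠ 0) (hφσ : φ ≤ σ) (hcase : Jᶜ.card = 1 ∨ φ < σ) :
    ∃ r > 0, ∃ W : Set ((ι → ℝ) × (ℝ → ℝ)), W.Finite ∧ (∀ o ∈ W, ∀ i ∈ J, o.1 i = 0) ∧
      (∀ o ∈ W, ∀ i ∉ J, φ ≤ o.1 i ∧ o.1 i ≤ σ) ∧ (∀ o ∈ W, ∀ τ, 0 ≤ o.2 τ) ∧
      (∀ o ∈ W, ContDiff ℝ 1 o.2) ∧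
      (∃ θ > 0, ∃ T ∈ W, (∀ i ∉ J, T.1 i = σ) ∧
        ∀ τ, 0 ≤ τ → T.2 τ ≤ Jᶜ.card * Real.exp ((σ - θ) * τ)) ∧
      ∃ c0 > 0, ∀ C : ℝ, ∀ᶠ τ : ℝ in atTop, ∀ ξ : ι → ℝ, (∀ i ∈ J, |ξ i| ≤ r) →
        (∀ i ∉ J, φ - C / τ ≤ ξ i) → ∀ o ∈ W,
        (∀ o' ∈ W, obj J τ ξ o' ≤ σ * Real.exp (σ * τ)) →
        obj J τ ξ o = σ * Real.exp (σ * τ) →
        ∀ ν ∈ N, 0 < ∑ i, ν i * o.1 i → c0 ≤ ∑ i, ν i * ξ i := by
  classical
  obtain ⟨a, R, Ws, hB⟩ := exists_block (N := N) (φ := φ) (J := J)
    (fun J' _ κ' g' => exists_good hN φ J' κ' g') (fun _ => 0) σ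
  set n := Jᶜ.card with hn
  have hn0 : 0 < n := Finset.card_pos.mpr hJ
  have hn0' : (0 : ℝ) < n := by exact_mod_cast hn0
  set S : Set (Finset ι) := {I | I.Nonempty ∧ I ⊆ Jᶜ} with hS
  have hSfin : S.Finite := Set.toFinite S
  obtain ⟨r1, hr1, hr1'⟩ := finite_pos hSfin (fun I r => r ≤ R I)
    (fun p r r' _ hle h => le_trans hle h) (fun I _ => ⟨R I, hB.Rpos _, le_rfl⟩)
  set W : Set ((ι → ℝ) × (ℝ → ℝ)) :=
    {o | ∃ I ∈ S, ∃ o' ∈ Ws I, o = lift a n I.card σ o'} with hW
  have hlift : ∀ I ∈ S, ∀ o' ∈ Ws I, lift a n I.card σ o' ∈ W :=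
    fun I hI o' ho' => ⟨I, hI, o', ho', rfl⟩
  have hmix : ∀ I ∈ S, (mix (fun _ => 0) J I σ φ, costB a n I.card σ) ∈ W := by
    intro I hI
    have h3 := hlift I hI _ (hB.mix_mem hI.1 hI.2)
    have h4 : lift a n I.card σ (mix (fun _ => 0) J I σ φ, fun _ => (0 : ℝ)) =
        (mix (fun _ => 0) J I σ φ, costB a n I.card σ) := by
      unfold lift
      simp
    rwa [h4] at h3
  have hJS : Jᶜ ∈ S := ⟨hJ, Finset.Subset.refl _⟩
  refine ⟨r1, hr1, W, ?_, ?_, ?_, ?_, ?_, ?_, ?_⟩
  · -- finite
    have h3 : W ⊆ ⋃ I ∈ S, (lift a n I.card σ) '' (Ws I) := by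
      rintro o ⟨I, hI, o', ho', rfl⟩
      simp only [Set.mem_iUnion]
      exact ⟨I, hI, o', ho', rfl⟩
    apply Set.Finite.subset _ h3
    apply hSfin.biUnion
    rintro I ⟨h1, h2⟩
    exact (hB.good I h1 h2).finite.image _
  · rintro o ⟨I, hI, o', ho', rfl⟩ i hi
    exact hB.val_J hI.1 hI.2 ho' i hi
  · rintro o ⟨I, hI, o', ho', rfl⟩ i hi
    exact ⟨hB.val_ge hφσ hI.1 hI.2 ho' i hi, hB.val_le hφσ hI.1 hI.2 ho' i hi⟩
  · rintro o ⟨I, hI, o', ho', rfl⟩ τ
    simp only [lift]
    have := (hB.good I hI.1 hI.2).cost_nonneg o' ho' τ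
    have := costB_nonneg a n I.card σ τ
    linarith
  · rintro o ⟨I, hI, o', ho', rfl⟩
    exact (costB_smooth a n I.card σ).add ((hB.good I hI.1 hI.2).smooth o' ho')
  · refine ⟨a n, hB.pos n, _, hmix Jᶜ hJS, ?_, ?_⟩
    · intro i hi
      exact mix_mem_I (Finset.mem_compl.mpr hi)
    · intro τ hτ
      exact costB_le hB.anti n n σ τ hτ
  · obtain ⟨c1, hc1, hc1'⟩ := finite_pos hSfin
      (fun I c => MainProp N φ (J ∪ I) (upd (fun _ => 0) I σ) (σ - a (n - I.card))
        (R I) (Ws I) c)
      (fun p r r' _ hle h => MainProp.mono hle h)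
      (fun I hI => (hB.good I hI.1 hI.2).main)
    refine ⟨c1, hc1, fun C => ?_⟩
    -- reduce to a fixed leading block
    suffices hP : ∀ᶠ τ : ℝ in atTop, ∀ I ∈ S, ∀ ξ : ι → ℝ, (∀ i ∈ J, |ξ i| ≤ r1) →
        (∀ i ∉ J, φ - C / τ ≤ ξ i) → ∀ o ∈ Ws I,
        (∀ o' ∈ W, obj J τ ξ o' ≤ σ * Real.exp (σ * τ)) →
        obj J τ ξ (lift a n I.card σ o) = σ * Real.exp (σ * τ) →
        ∀ ν ∈ N, 0 < ∑ i, ν i * o.1 i → c1 ≤ ∑ i, ν i * ξ i by
      filter_upwards [hP] with τ hτ ξ h1 h2 o ho h3 h4 ν hν hpos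
      obtain ⟨I, hI, o', ho', rfl⟩ := ho
      exact hτ I hI ξ h1 h2 o' ho' h3 h4 ν hν hpos
    rw [Filter.eventually_all_finite hSfin]
    rintro I hI
    have h1 := hI.1
    have h2 := hI.2
    have hIcard : 0 < I.card := Finset.card_pos.mpr h1
    have hIn : I.card ≤ n := Finset.card_le_card h2
    set B0 := max |φ| |σ| with hB0
    have hB0' : 0 ≤ B0 := le_trans (abs_nonneg _) (le_max_left _ _)
    -- constants
    set η := min (σ - φ) (a (n - I.card)) with hη
    set K1 : ℝ := 1 + n / |σ| with hK1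
    have hσpos : 0 < |σ| := abs_pos.mpr hσ
    have hK1pos : 0 < K1 := by positivity
    have hηnn : 0 ≤ η := le_min (by linarith) (hB.pos _).le
    set C' := max (max C (Real.log K1)) (max (Real.log (n / η))
      (max (Real.log (2 * (σ - φ))) (Real.log 2))) with hC'
    have e1 : C ≤ C' := le_trans (le_max_left _ _) (le_max_left _ _)
    have e2 : Real.log K1 ≤ C' := le_trans (le_max_right _ _) (le_max_left _ _)
    have e3 : Real.log (n / η) ≤ C' := le_trans (le_max_left _ _) (le_max_right _ _)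
    have e4 : Real.log (2 * (σ - φ)) ≤ C' :=
      le_trans (le_trans (le_max_left _ _) (le_max_right _ _)) (le_max_right _ _)
    have e5 : Real.log 2 ≤ C' :=
      le_trans (le_trans (le_max_right _ _) (le_max_right _ _)) (le_max_right _ _)
    -- member lower bound, eventually
    have hmember : ∀ᶠ τ : ℝ in atTop, ∀ ξ : ι → ℝ, ∀ o ∈ Ws I,
        (∀ o' ∈ W, obj J τ ξ o' ≤ σ * Real.exp (σ * τ)) →
        obj J τ ξ (lift a n I.card σ o) = σ * Real.exp (σ * τ) →
        ∀ i ∈ I, σ - a (n - I.card + 1) - C' / τ ≤ ξ i := by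
      by_cases hone : I.card = 1
      · -- singleton leading block
        obtain ⟨i0, rfl⟩ := Finset.card_eq_one.mp hone
        have hi0 : i0 ∉ J := Finset.mem_compl.mp (h2 (Finset.mem_singleton_self _))
        have hanti : σ - a n < σ := by linarith [hB.pos n]
        filter_upwards [eventually_gt_atTop 0,
          ev_exp_dom ((n : ℝ) * (B0 * (n / η)) + (1 + n)) hanti (half_pos hσpos)]
          with τ hτ hdom ξ o ho hle hact i hi
        have hi' : i = i0 := Finset.mem_singleton.mp hi
        subst hi'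
        have hexp : ∀ k, k ≤ n → Real.exp ((σ - a k) * τ) ≤ Real.exp ((σ - a n) * τ) := by
          intro k hk
          apply Real.exp_le_exp.mpr
          apply mul_le_mul_of_nonneg_right _ hτ.le
          have := (anti_of_succ hB.anti).antitone hk
          linarith
        set B : ℝ := (n : ℝ) / η * Real.exp ((σ - a n) * τ) with hBdef
        have hBnn : 0 ≤ B := mul_nonneg (div_nonneg hn0'.le hηnn) (Real.exp_pos _).le
        have hlow : ∀ l ∉ J, l ≠ i → Real.exp (τ * ξ l) ≤ B := by
          intro l hl hli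
          rcases hcase with h | h
          · exfalso
            have h3 := Finset.card_le_one.mp (le_of_eq h) l (Finset.mem_compl.mpr hl) i
              (Finset.mem_compl.mpr hi0)
            exact hli h3
          · have hηpos : 0 < η := lt_min (by linarith) (hB.pos _)
            have h3 := hB.below h h1 h2 hτ ho (by
              have := hle _ (hlift Jᶜ hJS _ (hB.mix_mem hJ (Finset.Subset.refl _)))
              rw [← hn, hact]
              exact this) hl (by simpa using hli)
            refine le_trans h3 ?_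
            apply mul_le_mul_of_nonneg_left _ (by positivity)
            exact hexp _ (Nat.sub_le _ _)
        have hcostle : (lift a n ({i} : Finset ι).card σ o).2 τ ≤
            (1 + n) * Real.exp ((σ - a n) * τ) := by
          simp only [lift]
          have h3 := (hB.good {i} h1 h2).cost_le o ho τ hτ.le
          have h4 := costB_le hB.anti n ({i} : Finset ι).card σ τ hτ.le
          have h5 : ((J ∪ {i})ᶜ.card : ℝ) ≤ n := by
            have : (J ∪ {i})ᶜ ⊆ Jᶜ := Finset.compl_subset_compl.mpr Finset.subset_union_left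
            exact_mod_cast Finset.card_le_card this
          have h6 : ((J ∪ {i})ᶜ.card : ℝ) * Real.exp ((σ - a (n - ({i} : Finset ι).card)) * τ) ≤
              n * Real.exp ((σ - a n) * τ) :=
            mul_le_mul h5 (hexp _ (Nat.sub_le _ _)) (Real.exp_pos _).le hn0'.le
          rw [hone] at h4
          simp only [Nat.cast_one, one_mul] at h4
          rw [hone]
          rw [hone] at h6
          rw [hone] at h3
          linarith
        have hcostnn : 0 ≤ (lift a n ({i} : Finset ι).card σ o).2 τ := by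
          simp only [lift]
          have := (hB.good {i} h1 h2).cost_nonneg o ho τ
          have := costB_nonneg a n ({i} : Finset ι).card σ τ
          linarith
        have h3 := single_lower (J := J) (τ := τ) (σ := σ) (B0 := B0) (B := B)
          (D := (1 + n) * Real.exp ((σ - a n) * τ)) (ξ := ξ)
          (o := lift a n ({i} : Finset ι).card σ o) (i := i) hi0
          (hB.val_I h1 h2 ho i (Finset.mem_singleton_self _)) hB0' hBnn
          (fun l hl => by
            have g1 := hB.val_ge hφσ h1 h2 ho l hl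
            have g2 := hB.val_le hφσ h1 h2 ho l hl
            simp only [lift]
            rw [abs_le]
            constructor
            · have := neg_abs_le φ
              have := le_max_left |φ| |σ|
              linarith
            · have := le_abs_self σ
              have := le_max_right |φ| |σ|
              linarith) hlow hcostnn hcostle hact
        have h4 : (Jᶜ.card : ℝ) * (B0 * B) + (1 + n) * Real.exp ((σ - a n) * τ) ≤
            |σ| / 2 * Real.exp (σ * τ) := by
          have : (Jᶜ.card : ℝ) * (B0 * B) + (1 + n) * Real.exp ((σ - a n) * τ) =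
            ((n : ℝ) * (B0 * (n / η)) + (1 + n)) * Real.exp ((σ - a n) * τ) := by
            rw [hBdef, ← hn]; ring
          rw [this]
          exact hdom
        have h5 : |σ| * ((1 / 2) * Real.exp (σ * τ)) ≤ |σ| * Real.exp (τ * ξ i) := by linarith
        have h6 := le_of_mul_le_mul_left h5 hσpos
        have h7 := ge_of_exp_ge hτ (by norm_num) h6
        rw [one_div, Real.log_inv] at h7
        have h8 : Real.log 2 / τ ≤ C' / τ := div_le_div_of_nonneg_right e5 hτ.le
        have h9 := hB.pos (n - ({i} : Finset ι).card + 1)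
        have h10 : -Real.log 2 / τ = -(Real.log 2 / τ) := by ring
        rw [h10] at h7
        linarith
      · -- several members: exchange argument
        have hφσ' : φ < σ := by
          rcases hcase with h | h
          · omega
          · exact h
        filter_upwards [eventually_gt_atTop 0, hB.member hφσ' h1 h2]
          with τ hτ hmem ξ o ho hle hact i hi
        have hne : (I.erase i).Nonempty := by
          rw [← Finset.card_pos, Finset.card_erase_of_mem hi]
          omega
        have hmemS : I.erase i ∈ S := ⟨hne, fun l hl => h2 (Finset.mem_of_mem_erase hl)⟩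
        have h3 := hmem ξ o ho (by
          have := hle _ (hlift Jᶜ hJS _ (hB.mix_mem hJ (Finset.Subset.refl _)))
          rw [← hn, hact]
          exact this) i hi (by
          have := hle _ (hmix _ hmemS)
          rw [← hn, hact]
          exact this)
        have f4 : Real.log (2 * (σ - φ)) / τ ≤ C' / τ := div_le_div_of_nonneg_right e4 hτ.le
        linarith
    filter_upwards [eventually_gt_atTop 0, hmember, hB.child h1 h2 (hc1' I hI) C']
      with τ hτ hmem hchild ξ hξJ hξ o ho hle hact ν hν hpos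
    have f1 : C / τ ≤ C' / τ := div_le_div_of_nonneg_right e1 hτ.le
    have f2 : Real.log K1 / τ ≤ C' / τ := div_le_div_of_nonneg_right e2 hτ.le
    have f3 : Real.log (n / η) / τ ≤ C' / τ := div_le_div_of_nonneg_right e3 hτ.le
    have htie : obj J τ ξ (lift a Jᶜ.card Jᶜ.card σ (mix (fun _ => 0) J Jᶜ σ φ,
        fun _ => (0 : ℝ))) ≤ obj J τ ξ (lift a Jᶜ.card I.card σ o) := by
      have := hle _ (hlift Jᶜ hJS _ (hB.mix_mem hJ (Finset.Subset.refl _)))
      rw [← hn, hact]
      exact this
    -- upper bound for all active coordinates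
    have hup : ∀ l ∉ J, ξ l ≤ σ + Real.log K1 / τ := by
      intro l hl
      apply le_of_exp_le hτ hK1pos
      rcases lt_or_gt_of_ne hσ with hneg | hpos'
      · -- σ < 0
        have h3 : ∑ i ∈ Jᶜ, o.1 i * Real.exp (τ * ξ i) ≤ σ * Real.exp (τ * ξ l) := by
          have h4 : ∑ i ∈ Jᶜ, o.1 i * Real.exp (τ * ξ i) ≤ ∑ i ∈ Jᶜ, σ * Real.exp (τ * ξ i) := by
            apply Finset.sum_le_sum
            intro i hi
            exact mul_le_mul_of_nonneg_right
              (hB.val_le hφσ h1 h2 ho i (Finset.mem_compl.mp hi)) (Real.exp_pos _).le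
          refine le_trans h4 ?_
          rw [← Finset.mul_sum]
          apply mul_le_mul_of_nonpos_left _ hneg.le
          apply Finset.single_le_sum (f := fun i => Real.exp (τ * ξ i))
            (fun i _ => (Real.exp_pos _).le) (Finset.mem_compl.mpr hl)
        have h5 : σ * Real.exp (σ * τ) ≤ σ * Real.exp (τ * ξ l) := by
          rw [← hact]
          unfold obj
          have := (hB.good I h1 h2).cost_nonneg o ho τ
          have := costB_nonneg a n I.card σ τ
          simp only [lift]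
          linarith
        have h6 : Real.exp (τ * ξ l) ≤ Real.exp (σ * τ) := (mul_le_mul_left_of_neg hneg).mp h5
        have h7 : 1 ≤ K1 := by
          rw [hK1]
          have : 0 ≤ (n : ℝ) / |σ| := by positivity
          linarith
        calc Real.exp (τ * ξ l) ≤ 1 * Real.exp (σ * τ) := by linarith
          _ ≤ K1 * Real.exp (σ * τ) := mul_le_mul_of_nonneg_right h7 (Real.exp_pos _).le
      · -- σ > 0
        have h3 := hle _ (hmix Jᶜ hJS)
        unfold obj at h3
        simp only at h3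
        have h4 : ∑ i ∈ Jᶜ, mix (fun _ => 0) J Jᶜ σ φ i * Real.exp (τ * ξ i) =
            σ * ∑ i ∈ Jᶜ, Real.exp (τ * ξ i) := by
          rw [Finset.mul_sum]
          apply Finset.sum_congr rfl
          intro i hi
          rw [mix_mem_I hi]
        rw [h4] at h3
        have h5 : Real.exp (τ * ξ l) ≤ ∑ i ∈ Jᶜ, Real.exp (τ * ξ i) :=
          Finset.single_le_sum (f := fun i => Real.exp (τ * ξ i))
            (fun i _ => (Real.exp_pos _).le) (Finset.mem_compl.mpr hl)
        have h6 := costB_le hB.anti n Jᶜ.card σ τ hτ.le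
        have h7 : Real.exp ((σ - a n) * τ) ≤ Real.exp (σ * τ) := by
          apply Real.exp_le_exp.mpr
          apply mul_le_mul_of_nonneg_right _ hτ.le
          linarith [hB.pos n]
        have h8 : σ * Real.exp (τ * ξ l) ≤ (σ + n) * Real.exp (σ * τ) := by
          have g1 : σ * Real.exp (τ * ξ l) ≤ σ * ∑ i ∈ Jᶜ, Real.exp (τ * ξ i) :=
            mul_le_mul_of_nonneg_left h5 hpos'.le
          have g2 : (Jᶜ.card : ℝ) * Real.exp ((σ - a n) * τ) ≤ n * Real.exp (σ * τ) :=
            mul_le_mul_of_nonneg_left h7 hn0'.le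
          linarith
        have h9 : K1 = (σ + n) / σ := by
          rw [hK1, abs_of_pos hpos']
          field_simp
        rw [h9, div_mul_eq_mul_div, le_div_iff₀ hpos']
        linarith
    refine hchild ξ ?_ ?_ ?_ ?_ o ho ?_ ν hν hpos
    · intro j hj
      rw [sub_zero]
      exact le_trans (hξJ j hj) (hr1' I hI)
    · intro i hi
      linarith [hξ i hi]
    · intro i hi
      have g1 := hup i (Finset.mem_compl.mp (h2 hi))
      have g2 := hmem ξ o ho hle hact i hi
      have g3 := hB.pos (n - I.card + 1)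
      rw [abs_le]
      constructor
      · linarith
      · linarith
    · intro l hl hl'
      have hφσ' : φ < σ := by
        rcases hcase with h | h
        · exfalso
          obtain ⟨i, hi⟩ := h1
          have h3 := Finset.card_le_one.mp (le_of_eq h) l (Finset.mem_compl.mpr hl) i (h2 hi)
          exact hl' (h3 ▸ hi)
        · exact h
      have hηpos : 0 < η := lt_min (by linarith) (hB.pos _)
      have g1 := hB.below hφσ' h1 h2 hτ ho htie hl hl'
      have g2 := le_of_exp_le hτ (div_pos hn0' hηpos) g1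
      linarith
    · intro o' ho'
      have := hle _ (hlift I hI o' ho')
      rw [← hn, hact]
      exact this

end Vale.Agent.P072
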